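import Vale.Agent.Lib.P171.Config

open MeasureTheory Set Filter Topology
open scoped ENNReal

namespace Vale.Agent.Lib.P171

section blocks

variable {w : E3 → E3 → ℝ} {κ : Type} [DecidableEq κ]

theorem Xi_biUnion_le (hw : Measurable (Function.uncurry w)) (hs : ∀ x y, w x y = w y x)
    (I : Finset κ) (B : κ → Set E3) (hB : ∀ i ∈ I, MeasurableSet (B i))
    (hd : Set.PairwiseDisjoint (↑I) B) (μ : ℝ)
    (hc : ∀ i ∈ I, ∀ j ∈ I, i ≠ j → ∀ x ∈ B i, ∀ y ∈ B j, 0 ≤ w x y) :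
    Xi w (⋃ i ∈ I, B i) μ ≤ ∏ i ∈ I, Xi w (B i) μ := by
  induction I using Finset.induction_on with
  | empty => simp [Xi_empty]
  | insert a I ha ih =>
    rw [Finset.set_biUnion_insert, Finset.prod_insert ha]
    have hBa : MeasurableSet (B a) := hB a (Finset.mem_insert_self a I)
    have hBI : MeasurableSet (⋃ i ∈ I, B i) :=
      Finset.measurableSet_biUnion I fun i hi => hB i (Finset.mem_insert_of_mem hi)
    have hdisj : Disjoint (B a) (⋃ i ∈ I, B i) := by
      rw [Set.disjoint_iUnion₂_right]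
      intro i hi
      exact hd (by simp) (by simp [hi]) (by rintro rfl; exact ha hi)
    have hcr : ∀ x ∈ B a, ∀ y ∈ ⋃ i ∈ I, B i, 0 ≤ w x y := by
      intro x hx y hy
      simp only [Set.mem_iUnion, exists_prop] at hy
      obtain ⟨j, hj, hy⟩ := hy
      exact hc a (Finset.mem_insert_self a I) j (Finset.mem_insert_of_mem hj)
        (by rintro rfl; exact ha hj) x hx y hy
    refine (Xi_union_le hw hs hBa hBI hdisj μ hcr).trans ?_
    refine mul_le_mul_right (ih (fun i hi => hB i (Finset.mem_insert_of_mem hi)) ?_ ?_) _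
    · exact hd.subset (by simp)
    · intro i hi j hj hij
      exact hc i (Finset.mem_insert_of_mem hi) j (Finset.mem_insert_of_mem hj) hij

theorem Xi_biUnion_ge (hw : Measurable (Function.uncurry w)) (hs : ∀ x y, w x y = w y x)
    (I : Finset κ) (B : κ → Set E3) (hB : ∀ i ∈ I, MeasurableSet (B i))
    (hd : Set.PairwiseDisjoint (↑I) B) (μ : ℝ)
    (hc : ∀ i ∈ I, ∀ j ∈ I, i ≠ j → ∀ x ∈ B i, ∀ y ∈ B j, w x y ≤ 0) :
    ∏ i ∈ I, Xi w (B i) μ ≤ Xi w (⋃ i ∈ I, B i) μ := by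
  induction I using Finset.induction_on with
  | empty => simp [Xi_empty]
  | insert a I ha ih =>
    rw [Finset.set_biUnion_insert, Finset.prod_insert ha]
    have hBa : MeasurableSet (B a) := hB a (Finset.mem_insert_self a I)
    have hBI : MeasurableSet (⋃ i ∈ I, B i) :=
      Finset.measurableSet_biUnion I fun i hi => hB i (Finset.mem_insert_of_mem hi)
    have hdisj : Disjoint (B a) (⋃ i ∈ I, B i) := by
      rw [Set.disjoint_iUnion₂_right]
      intro i hi
      exact hd (by simp) (by simp [hi]) (by rintro rfl; exact ha hi)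
    have hcr : ∀ x ∈ B a, ∀ y ∈ ⋃ i ∈ I, B i, w x y ≤ 0 := by
      intro x hx y hy
      simp only [Set.mem_iUnion, exists_prop] at hy
      obtain ⟨j, hj, hy⟩ := hy
      exact hc a (Finset.mem_insert_self a I) j (Finset.mem_insert_of_mem hj)
        (by rintro rfl; exact ha hj) x hx y hy
    refine le_trans ?_ (Xi_union_ge hw hs hBa hBI hdisj μ hcr)
    refine mul_le_mul_right (ih (fun i hi => hB i (Finset.mem_insert_of_mem hi)) ?_ ?_) _
    · exact hd.subset (by simp)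
    · intro i hi j hj hij
      exact hc i (Finset.mem_insert_of_mem hi) j (Finset.mem_insert_of_mem hj) hij

end blocks

section holder

lemma lintegral_interp {α : Type*} [MeasurableSpace α] (m : Measure α) {f g : α → ℝ≥0∞}
    (hf : AEMeasurable f m) (hg : AEMeasurable g m) {θ : ℝ} (h0 : 0 < θ) (h1 : θ < 1) :
    ∫⁻ a, f a ^ (1 - θ) * g a ^ θ ∂m ≤ (∫⁻ a, f a ∂m) ^ (1 - θ) * (∫⁻ a, g a ∂m) ^ θ := by
  have h1' : 0 < 1 - θ := by linarith
  have hpq : (1 / (1 - θ)).HolderConjugate (1 / θ) := by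
    rw [Real.holderConjugate_iff]
    constructor
    · rw [lt_div_iff₀ h1']; linarith
    · field_simp
      ring
  have := ENNReal.lintegral_mul_le_Lp_mul_Lq m hpq (f := fun a => f a ^ (1 - θ))
    (g := fun a => g a ^ θ) (hf.pow_const _) (hg.pow_const _)
  have e1 : ∀ a, (f a ^ (1 - θ)) ^ (1 / (1 - θ)) = f a := by
    intro a
    rw [← ENNReal.rpow_mul]
    have : (1 - θ) * (1 / (1 - θ)) = 1 := by field_simp
    rw [this, ENNReal.rpow_one]
  have e2 : ∀ a, (g a ^ θ) ^ (1 / θ) = g a := by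
    intro a
    rw [← ENNReal.rpow_mul]
    have : θ * (1 / θ) = 1 := by field_simp
    rw [this, ENNReal.rpow_one]
  simp only [Pi.mul_apply, e1, e2] at this
  have e3 : 1 / (1 / (1 - θ)) = 1 - θ := by field_simp
  have e4 : 1 / (1 / θ) = θ := by field_simp
  rwa [e3, e4] at this

lemma tsum_interp (f g : ℕ → ℝ≥0∞) {θ : ℝ} (h0 : 0 < θ) (h1 : θ < 1) :
    ∑' n, f n ^ (1 - θ) * g n ^ θ ≤ (∑' n, f n) ^ (1 - θ) * (∑' n, g n) ^ θ := by
  have := lintegral_interp (Measure.count : Measure ℕ) (f := f) (g := g)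
    (measurable_of_countable f).aemeasurable (measurable_of_countable g).aemeasurable h0 h1
  simpa [lintegral_count] using this

variable {w₀ w₁ : E3 → E3 → ℝ}

/-- Affine combination of two pair kernels. -/
def kerMix (θ : ℝ) (w₀ w₁ : E3 → E3 → ℝ) : E3 → E3 → ℝ :=
  fun x y => (1 - θ) * w₀ x y + θ * w₁ x y

lemma pairE_kerMix {ι : Type} [Fintype ι] [DecidableEq ι] (θ : ℝ) (x : ι → E3) :
    pairE (kerMix θ w₀ w₁) x = (1 - θ) * pairE w₀ x + θ * pairE w₁ x := by
  unfold pairE kerMix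
  have : ∀ i j : ι, (if i = j then (0 : ℝ) else (1 - θ) * w₀ (x i) (x j) + θ * w₁ (x i) (x j))
      = (1 - θ) * (if i = j then 0 else w₀ (x i) (x j)) + θ * (if i = j then 0 else w₁ (x i) (x j)) := by
    intro i j
    split_ifs <;> simp
  simp only [this, Finset.sum_add_distrib, ← Finset.mul_sum]
  ring

lemma ofReal_exp_interp (a b θ : ℝ) (h1 : θ < 1) :
    ENNReal.ofReal (Real.exp ((1 - θ) * a + θ * b))
      = ENNReal.ofReal (Real.exp a) ^ (1 - θ) * ENNReal.ofReal (Real.exp b) ^ θ := by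
  have h1' : 0 < 1 - θ := by linarith
  rw [ENNReal.ofReal_rpow_of_pos (Real.exp_pos _), ENNReal.ofReal_rpow_of_pos (Real.exp_pos _),
    ← ENNReal.ofReal_mul (by positivity), ← Real.exp_mul, ← Real.exp_mul, ← Real.exp_add]
  congr 2
  ring

lemma zInt_interp (hw₀ : Measurable (Function.uncurry w₀)) (hw₁ : Measurable (Function.uncurry w₁))
    {θ : ℝ} (h0 : 0 < θ) (h1 : θ < 1) (B : Set E3) (ι : Type) [Fintype ι] [DecidableEq ι] :
    zInt (kerMix θ w₀ w₁) B ι ≤ zInt w₀ B ι ^ (1 - θ) * zInt w₁ B ι ^ θ := by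
  unfold zInt
  have hpt : ∀ x : ι → E3, ENNReal.ofReal (Real.exp (-pairE (kerMix θ w₀ w₁) x))
      = ENNReal.ofReal (Real.exp (-pairE w₀ x)) ^ (1 - θ)
        * ENNReal.ofReal (Real.exp (-pairE w₁ x)) ^ θ := by
    intro x
    rw [pairE_kerMix, ← ofReal_exp_interp _ _ θ h1]
    congr 2
    ring
  simp only [hpt]
  exact lintegral_interp _ (measurable_boltz hw₀).aemeasurable (measurable_boltz hw₁).aemeasurable
    h0 h1

lemma coef_interp (μ₀ μ₁ θ : ℝ) (h1 : θ < 1) (n : ℕ) :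
    coef ((1 - θ) * μ₀ + θ * μ₁) n = coef μ₀ n ^ (1 - θ) * coef μ₁ n ^ θ := by
  unfold coef
  have h1' : 0 < 1 - θ := by linarith
  have hf : (0 : ℝ) < (n.factorial : ℝ) := by exact_mod_cast n.factorial_pos
  have hp0 : 0 < Real.exp (μ₀ * n) / (n.factorial : ℝ) := by positivity
  have hp1 : 0 < Real.exp (μ₁ * n) / (n.factorial : ℝ) := by positivity
  rw [ENNReal.ofReal_rpow_of_pos hp0, ENNReal.ofReal_rpow_of_pos hp1,
    ← ENNReal.ofReal_mul (by positivity)]
  congr 1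
  rw [Real.div_rpow (Real.exp_pos _).le hf.le, Real.div_rpow (Real.exp_pos _).le hf.le,
    ← Real.exp_mul, ← Real.exp_mul]
  have e : (n.factorial : ℝ) = (n.factorial : ℝ) ^ (1 - θ) * (n.factorial : ℝ) ^ θ := by
    rw [← Real.rpow_add hf]
    simp
  have h5 : (0 : ℝ) < (n.factorial : ℝ) ^ (1 - θ) := by positivity
  have h6 : (0 : ℝ) < (n.factorial : ℝ) ^ θ := by positivity
  rw [div_mul_div_comm, ← e, ← Real.exp_add]
  congr 2
  ring

/-- Log-convexity of the partition function in the kernel and the log-activity. -/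
theorem Xi_interp (hw₀ : Measurable (Function.uncurry w₀)) (hw₁ : Measurable (Function.uncurry w₁))
    {θ : ℝ} (h0 : 0 < θ) (h1 : θ < 1) (B : Set E3) (μ₀ μ₁ : ℝ) :
    Xi (kerMix θ w₀ w₁) B ((1 - θ) * μ₀ + θ * μ₁) ≤ Xi w₀ B μ₀ ^ (1 - θ) * Xi w₁ B μ₁ ^ θ := by
  have h1' : 0 < 1 - θ := by linarith
  unfold Xi
  refine le_trans (ENNReal.tsum_le_tsum fun n => ?_) (tsum_interp _ _ h0 h1)
  rw [ENNReal.mul_rpow_of_nonneg _ _ h1'.le, ENNReal.mul_rpow_of_nonneg _ _ h0.le, coef_interp _ _ _ h1]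
  calc coef μ₀ n ^ (1 - θ) * coef μ₁ n ^ θ * zInt (kerMix θ w₀ w₁) B (Fin n)
      ≤ coef μ₀ n ^ (1 - θ) * coef μ₁ n ^ θ * (zInt w₀ B (Fin n) ^ (1 - θ) * zInt w₁ B (Fin n) ^ θ) :=
        mul_le_mul_right (zInt_interp hw₀ hw₁ h0 h1 B (Fin n)) _
    _ = _ := by ring

end holder

end Vale.Agent.Lib.P171
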