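import Mathlib

open MeasureTheory

namespace Vale.Agent.Lib.P171.Defs

/-- Euclidean three-space with its norm and Lebesgue measure. -/
abbrev E := EuclideanSpace ℝ (Fin 3)

/-- The interaction energy `U_N`: the sum over `i < j` of `φ ‖x i - x j‖`. -/
noncomputable def energy (φ : ℝ → ℝ) {N : ℕ} (x : Fin N → E) : ℝ :=
  ∑ i, ∑ j, if i < j then φ ‖x i - x j‖ else 0

/-- The cube `[0, L]³`. -/
def boxL (L : ℝ) : Set E := {x | ∀ j, x j ∈ Set.Icc 0 L}

/-- The canonical partition function `Z_{L,N}(β)`, including the factor `1 / N!`. -/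
noncomputable def canonical (φ : ℝ → ℝ) (β L : ℝ) (N : ℕ) : ℝ :=
  (1 / (N.factorial : ℝ)) *
    ∫ x in Set.pi Set.univ (fun _ : Fin N => boxL L), Real.exp (-β * energy φ x)

/-- The grand canonical partition function at activity `z`. -/
noncomputable def grand (φ : ℝ → ℝ) (β L z : ℝ) : ℝ :=
  ∑' N : ℕ, z ^ N * canonical φ β L N

/-- Stability: `U_N ≥ -B N` on configurations of distinct points. -/
def IsStable (φ : ℝ → ℝ) : Prop :=
  ∃ B : ℝ, ∀ (N : ℕ) (x : Fin N → E), Function.Injective x → -(B * N) ≤ energy φ x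

/-- Temperedness: `φ r ≤ C r^(-3-ε)` for `r ≥ R₀`. -/
def IsTempered (φ : ℝ → ℝ) : Prop :=
  ∃ C ε R₀ : ℝ, 0 < C ∧ 0 < ε ∧ 0 < R₀ ∧ ∀ r, R₀ ≤ r → φ r ≤ C * r ^ (-3 - ε)

end Vale.Agent.Lib.P171.Defs
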