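import Vale.Agent.Lib.P171.Pressure
import Vale.Agent.Lib.P171.Defs

open MeasureTheory Set Filter Topology
open scoped ENNReal

namespace Vale.Agent.Lib.P171

lemma energy_eq_pairE (φ : ℝ → ℝ) {N : ℕ} (x : Fin N → E3) :
    Defs.energy φ x = pairE (radK φ) x := by
  unfold Defs.energy pairE radK
  have h1 : ∑ i, ∑ j, (if i = j then (0 : ℝ) else φ ‖x i - x j‖)
      = ∑ i, ∑ j, (if i < j then φ ‖x i - x j‖ else 0)
        + ∑ i, ∑ j, (if j < i then φ ‖x i - x j‖ else 0) := by
    rw [← Finset.sum_add_distrib]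
    refine Finset.sum_congr rfl fun i _ => ?_
    rw [← Finset.sum_add_distrib]
    refine Finset.sum_congr rfl fun j _ => ?_
    rcases lt_trichotomy i j with h | h | h
    · simp [h, h.ne, not_lt.mpr h.le]
    · simp [h]
    · simp [h, h.ne', not_lt.mpr h.le]
  have h2 : ∑ i, ∑ j, (if j < i then φ ‖x i - x j‖ else 0)
      = ∑ i, ∑ j, (if i < j then φ ‖x i - x j‖ else 0) := by
    rw [Finset.sum_comm]
    refine Finset.sum_congr rfl fun i _ => Finset.sum_congr rfl fun j _ => ?_
    rw [norm_sub_rev]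
  rw [h1, h2]
  ring

lemma boxL_eq (L : ℝ) : Defs.boxL L = cube L := rfl

lemma canonical_eq {φ : ℝ → ℝ} (hφ : Measurable φ) (L : ℝ) (N : ℕ) :
    Defs.canonical φ 1 L N
      = (1 / (N.factorial : ℝ)) * (zInt (radK φ) (cube L) (Fin N)).toReal := by
  unfold Defs.canonical zInt
  congr 1
  have hE : ∀ x : Fin N → E3, Real.exp (-1 * Defs.energy φ x) = Real.exp (-pairE (radK φ) x) := by
    intro x
    rw [energy_eq_pairE]
    congr 1
    ring
  simp only [hE, boxL_eq]
  rw [integral_eq_lintegral_of_nonneg_ae]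
  · exact Eventually.of_forall fun x => (Real.exp_pos _).le
  · exact (Measurable.exp (measurable_pairE (measurable_radK hφ)).neg).aestronglyMeasurable

lemma term_eq {φ : ℝ → ℝ} (hφ : Measurable φ) (L μ : ℝ) (N : ℕ) :
    Real.exp μ ^ N * Defs.canonical φ 1 L N
      = (coef μ N * zInt (radK φ) (cube L) (Fin N)).toReal := by
  rw [canonical_eq hφ, ENNReal.toReal_mul]
  unfold coef
  rw [ENNReal.toReal_ofReal (by positivity), ← Real.exp_nat_mul, mul_comm μ]
  ring

lemma Xi_ne_top_all {f : ℝ → ℝ} {a b : ℝ} (h : Adm f a b) (L μ : ℝ) :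
    Xi (radK f) (cube L) μ ≠ ∞ := by
  refine ne_top_of_le_ne_top (Xi_ne_top h (le_max_right L 1) μ) ?_
  exact Xi_mono_set _ (cube_mono (le_max_left L 1)) μ

lemma term_ne_top {f : ℝ → ℝ} {a b : ℝ} (h : Adm f a b) (L μ : ℝ) (N : ℕ) :
    coef μ N * zInt (radK f) (cube L) (Fin N) ≠ ∞ :=
  ne_top_of_le_ne_top (Xi_ne_top_all h L μ)
    (ENNReal.le_tsum (f := fun n : ℕ => coef μ n * zInt (radK f) (cube L) (Fin n)) N)

theorem grand_eq {f : ℝ → ℝ} {a b : ℝ} (h : Adm f a b) (L μ : ℝ) :
    Defs.grand f 1 L (Real.exp μ) = (Xi (radK f) (cube L) μ).toReal := by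
  unfold Defs.grand Xi
  rw [ENNReal.tsum_toReal_eq (term_ne_top h L μ)]
  exact tsum_congr fun N => term_eq h.meas L μ N

theorem summable_terms {f : ℝ → ℝ} {a b : ℝ} (h : Adm f a b) (L z : ℝ) (hz : 0 < z) :
    Summable fun N : ℕ => z ^ N * Defs.canonical f 1 L N := by
  have hs := ENNReal.summable_toReal (Xi_ne_top_all h L (Real.log z))
  refine hs.congr fun N => ?_
  rw [← term_eq h.meas, Real.exp_log hz]

theorem tendsto_grand {f : ℝ → ℝ} {a b : ℝ} (h : Adm f a b) {z : ℝ} (hz : 0 < z) :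
    Tendsto (fun L : ℝ => Real.log (Defs.grand f 1 L z) / L ^ 3) atTop
      (𝓝 (pr f (Real.log z))) := by
  refine (tendsto_lg h (Real.log z)).congr fun L => ?_
  unfold lg
  rw [← grand_eq h, Real.exp_log hz]

/-- A convex-type second difference lower bound excludes differentiability. -/
lemma not_diff_comp {P : ℝ → ℝ} {m w : ℝ} (hw : 0 < w)
    (h : ∀ t : ℝ, 0 < t → w * t ≤ P (m + t) + P (m - t) - 2 * P m) :
    ¬ DifferentiableAt ℝ (fun z => P (Real.log z)) (Real.exp m) := by
  intro hd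
  have hP : DifferentiableAt ℝ P m := by
    have h1 := hd.comp m Real.differentiableAt_exp
    have h2 : (fun z => P (Real.log z)) ∘ Real.exp = P := by
      funext x
      simp
    rwa [h2] at h1
  have hD := hP.hasDerivAt
  set d : ℝ := deriv P m with hd'
  have h1 : HasDerivAt (fun t : ℝ => P (m + t)) d 0 := by
    have h0 : HasDerivAt P d (m + 0) := by simpa using hD
    have := h0.comp_const_add m 0
    simpa using this
  have h2 : HasDerivAt (fun t : ℝ => P (m - t)) (-d) 0 := by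
    have h3 : HasDerivAt P d (m - 0) := by simpa using hD
    have := h3.comp_const_sub m 0
    simpa using this
  have h3 : HasDerivAt (fun t : ℝ => P (m + t) + P (m - t) - 2 * P m) 0 0 := by
    have := (h1.add h2).sub_const (2 * P m)
    simpa using this
  have h4 := (hasDerivAt_iff_tendsto_slope_zero.mp h3)
  have h5 : Tendsto (fun t : ℝ => t⁻¹ • (P (m + (0 + t)) + P (m - (0 + t)) - 2 * P m
      - (P (m + 0) + P (m - 0) - 2 * P m))) (𝓝[>] (0 : ℝ)) (𝓝 0) :=
    h4.mono_left (nhdsWithin_mono _ fun x hx => (Set.mem_Ioi.mp hx).ne')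
  have h6 : w ≤ 0 := by
    refine ge_of_tendsto h5 ?_
    filter_upwards [self_mem_nhdsWithin] with t ht
    have ht' : (0 : ℝ) < t := ht
    have h7 := h t ht
    have e1 : m + (0 + t) = m + t := by ring
    have e2 : m - (0 + t) = m - t := by ring
    simp only [smul_eq_mul, zero_add, add_zero, sub_zero]
    have h8 : P m + P m - 2 * P m = 0 := by ring
    rw [h8, sub_zero]
    rw [inv_mul_eq_div, le_div_iff₀ ht']
    exact h7
  linarith

end Vale.Agent.Lib.P171
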