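import Vale.Agent.Lib.P171.Pressure

open MeasureTheory Set Filter Topology Metric
open scoped ENNReal

namespace Vale.Agent.Lib.P171

/-- Hard repulsion of height `A` inside the unit ball minus an attraction `χ`. -/
noncomputable def pot (A : ℝ) (χ : ℝ → ℝ) : ℝ → ℝ := fun r => (if r < 1 then A else 0) - χ r

/-- Number of ordered pairs (with the diagonal) in a common cell of the fine grid. -/
noncomputable def sameCnt {N : ℕ} (x : Fin N → E3) : ℝ :=
  ∑ i, ∑ k, (if idx (1 / 3) 0 (x i) = idx (1 / 3) 0 (x k) then (1 : ℝ) else 0)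

/-- Attractive profiles controlled by the fine grid occupation. -/
structure Attr (χ : ℝ → ℝ) (K : ℝ) : Prop where
  meas : Measurable χ
  nonneg : ∀ r, 0 ≤ χ r
  young : ∀ (N : ℕ) (x : Fin N → E3), ∑ i, ∑ k, χ ‖x i - x k‖ ≤ K * sameCnt x

lemma sameCnt_nonneg {N : ℕ} (x : Fin N → E3) : 0 ≤ sameCnt x := by
  unfold sameCnt
  refine Finset.sum_nonneg fun i _ => Finset.sum_nonneg fun k _ => ?_
  split_ifs <;> norm_num

lemma attr_kac {ρ : ℝ} (hρ : 1 ≤ ρ) : Attr (kac ρ) 125 := by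
  have hρ0 : 0 < ρ := by linarith
  refine ⟨measurable_kac ρ, kac_nonneg ρ, fun N x => ?_⟩
  refine (kac_young (l := 1 / 3) (by norm_num) hρ0 0 x).trans ?_
  refine mul_le_mul_of_nonneg_right ?_ (sameCnt_nonneg x)
  rw [div_le_iff₀ (by positivity)]
  have h1 : ρ + 2 * (1 / 3) ≤ (5 / 3) * ρ := by linarith
  have h2 : (ρ + 2 * (1 / 3)) ^ 3 ≤ ((5 / 3) * ρ) ^ 3 := pow_le_pow_left₀ (by linarith) h1 3
  calc (ρ + 2 * (1 / 3)) ^ 3 ≤ ((5 / 3) * ρ) ^ 3 := h2
    _ = 125 * (ρ ^ 3 * (1 / 3) ^ 3) := by ring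

lemma Attr.zero : Attr (fun _ => 0) 0 := by
  refine ⟨measurable_const, fun _ => le_rfl, fun N x => ?_⟩
  simp

lemma Attr.add {χ₁ χ₂ : ℝ → ℝ} {K₁ K₂ : ℝ} (h₁ : Attr χ₁ K₁) (h₂ : Attr χ₂ K₂) :
    Attr (fun r => χ₁ r + χ₂ r) (K₁ + K₂) := by
  refine ⟨h₁.meas.add h₂.meas, fun r => add_nonneg (h₁.nonneg r) (h₂.nonneg r), fun N x => ?_⟩
  simp only [Finset.sum_add_distrib]
  have := h₁.young N x
  have := h₂.young N x
  linarith

lemma Attr.smul {χ : ℝ → ℝ} {K c : ℝ} (h : Attr χ K) (hc : 0 ≤ c) :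
    Attr (fun r => c * χ r) (c * K) := by
  refine ⟨h.meas.const_mul c, fun r => mul_nonneg hc (h.nonneg r), fun N x => ?_⟩
  simp only [← Finset.mul_sum]
  have := mul_le_mul_of_nonneg_left (h.young N x) hc
  linarith

lemma Attr.mono {χ : ℝ → ℝ} {K K' : ℝ} (h : Attr χ K) (hK : K ≤ K') : Attr χ K' := by
  refine ⟨h.meas, h.nonneg, fun N x => (h.young N x).trans ?_⟩
  exact mul_le_mul_of_nonneg_right hK (sameCnt_nonneg x)

lemma Attr.of_tendsto {χ : ℝ → ℝ} {χs : ℕ → ℝ → ℝ} {K : ℝ} (h : ∀ n, Attr (χs n) K)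
    (hlim : ∀ r, Tendsto (fun n => χs n r) atTop (𝓝 (χ r))) : Attr χ K := by
  refine ⟨?_, fun r => ?_, fun N x => ?_⟩
  · exact measurable_of_tendsto_metrizable (fun n => (h n).meas) (tendsto_pi_nhds.mpr hlim)
  · exact ge_of_tendsto' (hlim r) fun n => (h n).nonneg r
  · have ht : Tendsto (fun n => ∑ i, ∑ k, χs n ‖x i - x k‖) atTop (𝓝 (∑ i, ∑ k, χ ‖x i - x k‖)) :=
      tendsto_finsetSum _ fun i _ => tendsto_finsetSum _ fun k _ => hlim _
    exact le_of_tendsto' ht fun n => (h n).young N x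

/-- The basic pointwise lower bound on the energy. -/
lemma pairE_pot_ge {χ : ℝ → ℝ} {K A : ℝ} (hχ : Attr χ K) (hA : 0 ≤ A) {N : ℕ} (x : Fin N → E3) :
    (A - K) / 2 * sameCnt x - A / 2 * N ≤ pairE (radK (pot A χ)) x := by
  have hpt : ∀ i k : Fin N, A * (if idx (1 / 3) 0 (x i) = idx (1 / 3) 0 (x k) then (1 : ℝ) else 0)
      - A * (if i = k then (1 : ℝ) else 0) - χ ‖x i - x k‖
        ≤ if i = k then 0 else radK (pot A χ) (x i) (x k) := by
    intro i k
    by_cases hik : i = k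
    · subst hik
      simp only [if_true, mul_one]
      have := hχ.nonneg ‖x i - x i‖
      linarith
    · simp only [hik, if_false, mul_zero, sub_zero, radK, pot]
      by_cases hs : idx (1 / 3) 0 (x i) = idx (1 / 3) 0 (x k)
      · have hn := norm_sub_le_of_idx_eq (l := 1 / 3) (by norm_num) hs
        have : ‖x i - x k‖ < 1 := by linarith
        simp only [if_pos hs, if_pos this, mul_one]
        exact le_refl _
      · simp only [hs, if_false, mul_zero]
        split_ifs <;> linarith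
  have hsum : A * sameCnt x - A * N - ∑ i, ∑ k, χ ‖x i - x k‖
      ≤ ∑ i, ∑ k, if i = k then 0 else radK (pot A χ) (x i) (x k) := by
    refine le_trans (le_of_eq ?_) (Finset.sum_le_sum fun i _ => Finset.sum_le_sum fun k _ => hpt i k)
    simp only [Finset.sum_sub_distrib, ← Finset.mul_sum, Finset.sum_ite_eq, Finset.mem_univ, if_true,
      Finset.sum_const, Finset.card_univ, Fintype.card_fin, nsmul_eq_mul, mul_one, sameCnt]
    ring
  have hy := hχ.young N x
  have : pairE (radK (pot A χ)) x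
      = (1 / 2) * ∑ i, ∑ k, if i = k then 0 else radK (pot A χ) (x i) (x k) := rfl
  rw [this]
  linarith

/-- Counting occupied cells of the fine grid in a cube. -/
lemma card_image_idx_cube {L : ℝ} (hL : 0 ≤ L) {N : ℕ} (x : Fin N → E3) (hx : ∀ i, x i ∈ cube L) :
    ((Finset.univ.image fun i => idx (1 / 3) 0 (x i)).card : ℝ) ≤ (3 * L + 1) ^ 3 := by
  classical
  set n : ℤ := ⌊3 * L⌋ with hn
  have hn0 : 0 ≤ n := Int.floor_nonneg.mpr (by linarith)
  have hsub : (Finset.univ.image fun i => idx (1 / 3) 0 (x i))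
      ⊆ Fintype.piFinset (fun _ : Fin 3 => Finset.Icc (0 : ℤ) n) := by
    intro m hm
    rw [Finset.mem_image] at hm
    obtain ⟨i, -, rfl⟩ := hm
    rw [Fintype.mem_piFinset]
    intro j
    have hxj := hx i j
    have hv : (x i j - 0) / (1 / 3) = 3 * x i j := by ring
    simp only [idx, hv, Finset.mem_Icc]
    constructor
    · exact Int.floor_nonneg.mpr (by linarith [hxj.1])
    · exact Int.floor_mono (by linarith [hxj.2])
  have hcard := Finset.card_le_card hsub
  have hcard2 : (Fintype.piFinset (fun _ : Fin 3 => Finset.Icc (0 : ℤ) n)).card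
      = (n + 1).toNat ^ 3 := by
    rw [Fintype.card_piFinset]
    simp [Int.card_Icc]
  rw [hcard2] at hcard
  have hcast : ((n + 1).toNat : ℝ) = (n : ℝ) + 1 := by
    have : ((n + 1).toNat : ℤ) = n + 1 := Int.toNat_of_nonneg (by linarith)
    exact_mod_cast this
  calc ((Finset.univ.image fun i => idx (1 / 3) 0 (x i)).card : ℝ)
      ≤ (((n + 1).toNat ^ 3 : ℕ) : ℝ) := by exact_mod_cast hcard
    _ = ((n : ℝ) + 1) ^ 3 := by
        push_cast
        rw [hcast]
    _ ≤ (3 * L + 1) ^ 3 := by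
        refine pow_le_pow_left₀ ?_ ?_ 3
        · have : (0 : ℝ) ≤ n := by exact_mod_cast hn0
          linarith
        · have : (n : ℝ) ≤ 3 * L := Int.floor_le _
          linarith

lemma sameCnt_ge {L : ℝ} (hL : 0 ≤ L) {N : ℕ} (x : Fin N → E3) (hx : ∀ i, x i ∈ cube L) :
    (N : ℝ) ^ 2 / (3 * L + 1) ^ 3 ≤ sameCnt x := by
  have h1 := card_sq_le_same (Finset.univ : Finset (Fin N)) (fun i => idx (1 / 3) 0 (x i))
  simp only [Finset.card_univ, Fintype.card_fin] at h1
  have h2 := card_image_idx_cube hL x hx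
  rw [div_le_iff₀ (by positivity)]
  have h3 := sameCnt_nonneg x
  have h4 := mul_le_mul_of_nonneg_right h2 h3
  unfold sameCnt at h3 h4 ⊢
  linarith

/-- Potentials with a dominating repulsive core are admissible. -/
theorem pot_adm {χ : ℝ → ℝ} {K A : ℝ} (hχ : Attr χ K) (hA : K < A) (hA0 : 0 ≤ A) :
    Adm (pot A χ) (A - K) (A / 2) := by
  refine ⟨?_, fun r hr => ?_, by linarith, fun L hL N x hx => ?_⟩
  · refine Measurable.sub ?_ hχ.meas
    exact Measurable.ite measurableSet_Iio measurable_const measurable_const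
  · simp only [pot, not_lt.mpr hr, if_false]
    linarith [hχ.nonneg r]
  · have h1 := pairE_pot_ge hχ hA0 x
    have h2 := sameCnt_ge (by linarith) x hx
    have h3 : 0 ≤ (A - K) / 2 := by linarith
    have h4 := mul_le_mul_of_nonneg_left h2 h3
    have h5 : (A - K) * (N : ℝ) ^ 2 / (2 * (3 * L + 1) ^ 3)
        = (A - K) / 2 * ((N : ℝ) ^ 2 / (3 * L + 1) ^ 3) := by
      field_simp
    rw [h5]
    linarith

/-- Stability of the class. -/
lemma pot_stable {χ : ℝ → ℝ} {K A : ℝ} (hχ : Attr χ K) (hA : K ≤ A) (hA0 : 0 ≤ A) {N : ℕ}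
    (x : Fin N → E3) : -(A / 2 * N) ≤ pairE (radK (pot A χ)) x := by
  have h1 := pairE_pot_ge hχ hA0 x
  have h3 : 0 ≤ (A - K) / 2 := by linarith
  have := mul_nonneg h3 (sameCnt_nonneg x)
  linarith

lemma pot_zero_nonneg {A : ℝ} (hA : 0 ≤ A) (r : ℝ) : 0 ≤ pot A (fun _ => 0) r := by
  simp only [pot, sub_zero]
  split_ifs <;> linarith

/-- Scaling the attraction by `1 + τ` along the ray towards twice the attraction. -/
lemma pot_ray (A : ℝ) (χ : ℝ → ℝ) (τ : ℝ) :
    pot A (fun r => (1 + τ) * χ r) = mixF τ (pot A χ) (pot A (fun r => 2 * χ r)) := by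
  funext r
  simp only [pot, mixF]
  split_ifs <;> ring

/-- Adding a small attraction `σ` along the ray through `χ + σ / θ`. -/
lemma pot_ray_add (A : ℝ) (χ σ : ℝ → ℝ) {θ : ℝ} (hθ : θ ≠ 0) :
    pot A (fun r => χ r + σ r) = mixF θ (pot A χ) (pot A (fun r => χ r + (1 / θ) * σ r)) := by
  funext r
  simp only [pot, mixF]
  field_simp
  split_ifs <;> ring

/-- The pressure changes little along a ray in the class. -/
lemma pr_ray_le {χ σ : ℝ → ℝ} {K₀ K₁ A θ : ℝ} (h₀ : Attr χ K₀)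
    (h₁ : Attr (fun r => χ r + (1 / θ) * σ r) K₁) (hK₀ : K₀ < A) (hK₁ : K₁ < A) (hA : 0 ≤ A)
    (h0 : 0 < θ) (h1 : θ < 1) (μ : ℝ) :
    pr (pot A (fun r => χ r + σ r)) μ
      ≤ pr (pot A χ) μ + θ * Mb (A - K₁) (A / 2) μ := by
  have e : (1 - θ) * μ + θ * μ = μ := by ring
  have hm := pr_mix (pot_adm h₀ hK₀ hA) (pot_adm h₁ hK₁ hA) h0 h1 μ μ
  rw [e, ← pot_ray_add A χ σ h0.ne'] at hm
  refine hm.trans ?_
  have h2 := pr_le_Mb (pot_adm h₁ hK₁ hA) μ
  have h3 := pr_nonneg (pot_adm h₀ hK₀ hA) μ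
  have h4 := mul_le_mul_of_nonneg_left h2 h0.le
  nlinarith

end Vale.Agent.Lib.P171
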