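import Mathlib

open MeasureTheory Set Filter Topology
open scoped ENNReal

namespace Vale.Agent.Lib.P171

/-- Euclidean three-space. -/
abbrev E3 := EuclideanSpace ℝ (Fin 3)

section pair

variable {ι ι₁ ι₂ : Type} [Fintype ι] [DecidableEq ι] [Fintype ι₁] [DecidableEq ι₁]
  [Fintype ι₂] [DecidableEq ι₂]

/-- Total pair energy of a finite labelled configuration. -/
noncomputable def pairE (w : E3 → E3 → ℝ) (x : ι → E3) : ℝ :=
  (1 / 2) * ∑ i, ∑ j, if i = j then 0 else w (x i) (x j)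

lemma pairE_comp_equiv (w : E3 → E3 → ℝ) (e : ι₁ ≃ ι) (x : ι → E3) :
    pairE w (x ∘ e) = pairE w x := by
  unfold pairE
  congr 1
  rw [← Equiv.sum_comp e]
  refine Finset.sum_congr rfl fun i _ => ?_
  rw [← Equiv.sum_comp e]
  refine Finset.sum_congr rfl fun j _ => ?_
  simp [Function.comp, e.injective.eq_iff]

/-- Interaction energy between two labelled configurations. -/
noncomputable def crossE (w : E3 → E3 → ℝ) (a : ι₁ → E3) (b : ι₂ → E3) : ℝ :=
  ∑ i, ∑ j, w (a i) (b j)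

lemma pairE_sum_elim (w : E3 → E3 → ℝ) (hw : ∀ x y, w x y = w y x) (a : ι₁ → E3) (b : ι₂ → E3) :
    pairE w (Sum.elim a b) = pairE w a + pairE w b + crossE w a b := by
  unfold pairE crossE
  simp only [Fintype.sum_sum_type, Sum.elim_inl, Sum.elim_inr, Sum.inl.injEq, Sum.inr.injEq,
    reduceCtorEq, if_false]
  have h : ∑ x : ι₂, ∑ y : ι₁, w (b x) (a y) = ∑ i, ∑ j, w (a i) (b j) := by
    rw [Finset.sum_comm]
    refine Finset.sum_congr rfl fun i _ => Finset.sum_congr rfl fun j _ => hw _ _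
  rw [Finset.sum_add_distrib, Finset.sum_add_distrib, h]
  ring

lemma measurable_pairE {w : E3 → E3 → ℝ} (hw : Measurable (Function.uncurry w)) :
    Measurable (fun x : ι → E3 => pairE w x) := by
  unfold pairE
  refine Measurable.const_mul ?_ _
  refine Finset.measurable_sum _ fun i _ => Finset.measurable_sum _ fun j _ => ?_
  by_cases h : i = j
  · simp [h]
  · simp only [h, if_false]
    exact Measurable.comp (g := Function.uncurry w) (f := fun x : ι → E3 => (x i, x j)) hw (by fun_prop)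

lemma measurable_crossE {w : E3 → E3 → ℝ} (hw : Measurable (Function.uncurry w)) :
    Measurable (fun p : (ι₁ → E3) × (ι₂ → E3) => crossE w p.1 p.2) := by
  unfold crossE
  refine Finset.measurable_sum _ fun i _ => Finset.measurable_sum _ fun j _ => ?_
  exact Measurable.comp (g := Function.uncurry w)
    (f := fun p : (ι₁ → E3) × (ι₂ → E3) => (p.1 i, p.2 j)) hw (by fun_prop)

end pair

/-- Canonical configuration integral on a labelled index set. -/
noncomputable def zInt (w : E3 → E3 → ℝ) (B : Set E3) (ι : Type) [Fintype ι] [DecidableEq ι] :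
    ℝ≥0∞ :=
  ∫⁻ x in Set.pi Set.univ (fun _ : ι => B), ENNReal.ofReal (Real.exp (-pairE w x))

/-- Grand-canonical weight of the `n`-particle sector. -/
noncomputable def coef (μ : ℝ) (n : ℕ) : ℝ≥0∞ :=
  ENNReal.ofReal (Real.exp (μ * n) / (n.factorial : ℝ))

/-- Grand-canonical partition function on a set `B` with log-activity `μ`. -/
noncomputable def Xi (w : E3 → E3 → ℝ) (B : Set E3) (μ : ℝ) : ℝ≥0∞ :=
  ∑' n : ℕ, coef μ n * zInt w B (Fin n)

/-- Mixed configuration integral with `n` labels in `B₁` and `m` labels in `B₂`. -/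
noncomputable def mixInt (w : E3 → E3 → ℝ) (B₁ B₂ : Set E3) (n m : ℕ) : ℝ≥0∞ :=
  ∫⁻ a in Set.pi Set.univ (fun _ : Fin n => B₁), ∫⁻ b in Set.pi Set.univ (fun _ : Fin m => B₂),
    ENNReal.ofReal (Real.exp (-(pairE w a + pairE w b + crossE w a b)))

section split

variable {w : E3 → E3 → ℝ}

lemma reindex_box {ι ι' : Type} [Fintype ι] [Fintype ι'] [DecidableEq ι] [DecidableEq ι']
    (e : ι' ≃ ι) (B : ι → Set E3)
    (F : (ι → E3) → ℝ≥0∞) :
    ∫⁻ x in Set.pi Set.univ B, F x
      = ∫⁻ x' in Set.pi Set.univ (fun i' => B (e i')), F (fun i => x' (e.symm i)) := by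
  have hmp : MeasurePreserving (MeasurableEquiv.arrowCongr' e (MeasurableEquiv.refl E3))
      (volume : Measure (ι' → E3)) (volume : Measure (ι → E3)) :=
    volume_preserving_arrowCongr' e (MeasurableEquiv.refl E3) (MeasurePreserving.id _)
  have hpre : (MeasurableEquiv.arrowCongr' e (MeasurableEquiv.refl E3)) ⁻¹' (Set.pi Set.univ B)
      = Set.pi Set.univ (fun i' => B (e i')) := by
    ext x'
    simp only [Set.mem_preimage, Set.mem_pi, Set.mem_univ, true_implies]
    constructor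
    · intro h i'
      have := h (e i')
      simpa [MeasurableEquiv.arrowCongr', Equiv.arrowCongr'] using this
    · intro h i
      have := h (e.symm i)
      simpa [MeasurableEquiv.arrowCongr', Equiv.arrowCongr'] using this
  rw [← hmp.setLIntegral_comp_preimage_emb (MeasurableEquiv.measurableEmbedding _), hpre]
  rfl

lemma lintegral_sum_box {n m : ℕ} (B₁ B₂ : Set E3)
    (G : (Fin n ⊕ Fin m → E3) → ℝ≥0∞) (hG : Measurable G) :
    ∫⁻ x in Set.pi Set.univ (Sum.elim (fun _ : Fin n => B₁) (fun _ : Fin m => B₂)), G x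
      = ∫⁻ a in Set.pi Set.univ (fun _ : Fin n => B₁),
          ∫⁻ b in Set.pi Set.univ (fun _ : Fin m => B₂), G (Sum.elim a b) := by
  have hmp := volume_measurePreserving_sumPiEquivProdPi_symm (ι := Fin n) (ι' := Fin m)
    (fun _ => E3)
  have hpre : (MeasurableEquiv.sumPiEquivProdPi (fun _ : Fin n ⊕ Fin m => E3)).symm ⁻¹'
      (Set.pi Set.univ (Sum.elim (fun _ : Fin n => B₁) (fun _ : Fin m => B₂)))
      = (Set.pi Set.univ (fun _ : Fin n => B₁)) ×ˢ (Set.pi Set.univ (fun _ : Fin m => B₂)) := by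
    ext p
    simp only [Set.mem_preimage, Set.mem_pi, Set.mem_univ, true_implies, Set.mem_prod]
    constructor
    · intro h
      exact ⟨fun i => h (Sum.inl i), fun j => h (Sum.inr j)⟩
    · rintro ⟨h1, h2⟩ (i | j)
      · exact h1 i
      · exact h2 j
  rw [← hmp.setLIntegral_comp_preimage_emb (MeasurableEquiv.measurableEmbedding _), hpre]
  rw [Measure.volume_eq_prod, ← Measure.prod_restrict]
  have hmeas : Measurable (fun p : (Fin n → E3) × (Fin m → E3) =>
      G ((MeasurableEquiv.sumPiEquivProdPi (fun _ : Fin n ⊕ Fin m => E3)).symm p)) :=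
    hG.comp (MeasurableEquiv.measurable _)
  rw [lintegral_prod _ hmeas.aemeasurable]
  refine lintegral_congr fun a => lintegral_congr fun b => ?_
  congr 1

/-- The equivalence sending `Fin n ⊕ Fin m` onto the labels, with left part onto `S`. -/
lemma exists_equiv_of_finset {N n m : ℕ} (S : Finset (Fin N)) (hS : S.card = n) (hm : n + m = N) :
    ∃ e : Fin n ⊕ Fin m ≃ Fin N, (∀ i, e (Sum.inl i) ∈ S) ∧ (∀ j, e (Sum.inr j) ∉ S) := by
  have h1 : Fintype.card {i // i ∈ S} = n := by simp [hS]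
  have h2 : Fintype.card {i // ¬ i ∈ S} = m := by
    rw [Fintype.card_subtype_compl]
    simp [hS]
    omega
  let e1 := Fintype.equivFinOfCardEq h1
  let e2 := Fintype.equivFinOfCardEq h2
  refine ⟨(Equiv.sumCongr e1.symm e2.symm).trans (Equiv.sumCompl (fun i => i ∈ S)), ?_, ?_⟩
  · intro i
    simp
  · intro j
    simpa using (e2.symm j).2

lemma lintegral_box_eq_mix (hw : Measurable (Function.uncurry w)) (hs : ∀ x y, w x y = w y x)
    (B₁ B₂ : Set E3) {N n m : ℕ} (S : Finset (Fin N)) (hS : S.card = n) (hm : n + m = N) :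
    ∫⁻ x in Set.pi Set.univ (fun i : Fin N => if i ∈ S then B₁ else B₂),
        ENNReal.ofReal (Real.exp (-pairE w x))
      = mixInt w B₁ B₂ n m := by
  obtain ⟨e, he1, he2⟩ := exists_equiv_of_finset S hS hm
  rw [reindex_box e]
  have hbox : (fun i' : Fin n ⊕ Fin m => if e i' ∈ S then B₁ else B₂)
      = Sum.elim (fun _ : Fin n => B₁) (fun _ : Fin m => B₂) := by
    funext i'
    cases i' with
    | inl i => simp [he1]
    | inr j => simp [he2]
  rw [hbox]
  have hF : ∀ x' : Fin n ⊕ Fin m → E3,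
      pairE w (fun i => x' (e.symm i)) = pairE w x' := by
    intro x'
    exact pairE_comp_equiv w e.symm x'
  simp only [hF]
  have hG : Measurable (fun x' : Fin n ⊕ Fin m → E3 =>
      ENNReal.ofReal (Real.exp (-pairE w x'))) :=
    ENNReal.measurable_ofReal.comp (Real.measurable_exp.comp (measurable_pairE hw).neg)
  rw [lintegral_sum_box B₁ B₂ _ hG]
  unfold mixInt
  refine lintegral_congr fun a => lintegral_congr fun b => ?_
  rw [pairE_sum_elim w hs]

lemma box_decomp {B₁ B₂ : Set E3} {N : ℕ} :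
    Set.pi Set.univ (fun _ : Fin N => B₁ ∪ B₂)
      = ⋃ S ∈ (Finset.univ : Finset (Finset (Fin N))),
          Set.pi Set.univ (fun i : Fin N => if i ∈ S then B₁ else B₂) := by
  classical
  ext x
  simp only [Set.mem_pi, Set.mem_univ, true_implies, Set.mem_union, Set.mem_iUnion, Finset.mem_univ,
    exists_const]
  constructor
  · intro h
    refine ⟨Finset.univ.filter (fun i => x i ∈ B₁), fun i => ?_⟩
    by_cases hi : x i ∈ B₁
    · simp [hi]
    · simp [hi, (h i).resolve_left hi]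
  · rintro ⟨S, hS⟩ i
    have := hS i
    by_cases hi : i ∈ S
    · simp only [hi, if_true] at this
      exact Or.inl this
    · simp only [hi, if_false] at this
      exact Or.inr this

lemma zInt_union (hw : Measurable (Function.uncurry w)) (hs : ∀ x y, w x y = w y x)
    {B₁ B₂ : Set E3} (h₁ : MeasurableSet B₁) (h₂ : MeasurableSet B₂) (hd : Disjoint B₁ B₂) (N : ℕ) :
    zInt w (B₁ ∪ B₂) (Fin N)
      = ∑ k ∈ Finset.range (N + 1), (N.choose k : ℝ≥0∞) * mixInt w B₁ B₂ k (N - k) := by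
  classical
  unfold zInt
  rw [box_decomp]
  have hmeas : ∀ S ∈ (Finset.univ : Finset (Finset (Fin N))),
      MeasurableSet (Set.pi Set.univ (fun i : Fin N => if i ∈ S then B₁ else B₂)) := by
    intro S _
    refine MeasurableSet.univ_pi fun i => ?_
    by_cases hi : i ∈ S <;> simp [hi, h₁, h₂]
  have hdisj : Set.PairwiseDisjoint (↑(Finset.univ : Finset (Finset (Fin N))))
      (fun S : Finset (Fin N) => Set.pi Set.univ (fun i : Fin N => if i ∈ S then B₁ else B₂)) := by
    intro S _ T _ hST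
    rw [Function.onFun, Set.disjoint_left]
    intro x hxS hxT
    apply hST
    ext i
    have h1 := hxS i (Set.mem_univ i)
    have h2 := hxT i (Set.mem_univ i)
    by_cases hiS : i ∈ S <;> by_cases hiT : i ∈ T <;> simp only [hiS, hiT, if_true, if_false] at h1 h2 ⊢
    · exact (Set.disjoint_left.mp hd h1 h2).elim
    · exact (Set.disjoint_left.mp hd h2 h1).elim
  rw [lintegral_biUnion_finset hdisj hmeas]
  have hval : ∀ S : Finset (Fin N),
      ∫⁻ x in Set.pi Set.univ (fun i : Fin N => if i ∈ S then B₁ else B₂),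
        ENNReal.ofReal (Real.exp (-pairE w x))
      = (fun k => mixInt w B₁ B₂ k (N - k)) S.card := by
    intro S
    have hc : S.card ≤ N := by simpa using S.card_le_univ
    exact lintegral_box_eq_mix hw hs B₁ B₂ S rfl (by omega)
  simp only [hval]
  have := Finset.sum_powerset_apply_card (fun k => mixInt w B₁ B₂ k (N - k))
    (x := (Finset.univ : Finset (Fin N)))
  rw [Finset.powerset_univ] at this
  rw [this]
  simp only [Finset.card_univ, Fintype.card_fin, nsmul_eq_mul]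

lemma coef_mul_choose (μ : ℝ) {N k : ℕ} (hk : k ≤ N) :
    coef μ N * (N.choose k : ℝ≥0∞) = coef μ k * coef μ (N - k) := by
  unfold coef
  have hf : ∀ n : ℕ, (0 : ℝ) < (n.factorial : ℝ) := fun n => by exact_mod_cast n.factorial_pos
  rw [← ENNReal.ofReal_natCast, ← ENNReal.ofReal_mul (by positivity),
    ← ENNReal.ofReal_mul (by positivity)]
  congr 1
  have hN : (N : ℝ) = k + ((N - k : ℕ) : ℝ) := by
    rw [Nat.cast_sub hk]; ring
  have hchoose : ((N.choose k : ℕ) : ℝ) * (k.factorial : ℝ) * ((N - k).factorial : ℝ)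
      = (N.factorial : ℝ) := by
    exact_mod_cast Nat.choose_mul_factorial_mul_factorial hk
  have hexp : Real.exp (μ * N) = Real.exp (μ * k) * Real.exp (μ * ((N - k : ℕ) : ℝ)) := by
    rw [← Real.exp_add]; congr 1; rw [hN]; ring
  rw [hexp, ← hchoose]
  have h1 := hf k
  have h2 := hf (N - k)
  have h3 : ((N.choose k : ℕ) : ℝ) ≠ 0 := by
    have : 0 < N.choose k := Nat.choose_pos hk
    positivity
  field_simp

/-- Splitting the grand-canonical sum over two disjoint regions. -/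
theorem Xi_union (hw : Measurable (Function.uncurry w)) (hs : ∀ x y, w x y = w y x)
    {B₁ B₂ : Set E3} (h₁ : MeasurableSet B₁) (h₂ : MeasurableSet B₂) (hd : Disjoint B₁ B₂) (μ : ℝ) :
    Xi w (B₁ ∪ B₂) μ = ∑' n : ℕ, ∑' m : ℕ, coef μ n * coef μ m * mixInt w B₁ B₂ n m := by
  unfold Xi
  have hterm : ∀ N : ℕ, coef μ N * zInt w (B₁ ∪ B₂) (Fin N)
      = ∑ k ∈ Finset.range (N + 1), coef μ k * coef μ (N - k) * mixInt w B₁ B₂ k (N - k) := by
    intro N
    rw [zInt_union hw hs h₁ h₂ hd N, Finset.mul_sum]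
    refine Finset.sum_congr rfl fun k hk => ?_
    have hk' : k ≤ N := by simpa [Nat.lt_succ_iff] using hk
    rw [← mul_assoc, coef_mul_choose μ hk']
  simp only [hterm]
  rw [← ENNReal.tsum_prod (f := fun n m => coef μ n * coef μ m * mixInt w B₁ B₂ n m)]
  rw [← (Finset.HasAntidiagonal.sigmaAntidiagonalEquivProd (A := ℕ)).tsum_eq]
  rw [ENNReal.tsum_sigma']
  refine tsum_congr fun N => ?_
  rw [tsum_fintype]
  have h := Finset.sum_coe_sort (Finset.HasAntidiagonal.antidiagonal N)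
    (fun p : ℕ × ℕ => coef μ p.1 * coef μ p.2 * mixInt w B₁ B₂ p.1 p.2)
  rw [Finset.Nat.sum_antidiagonal_eq_sum_range_succ_mk] at h
  exact h.symm

end split

section compare

variable {w w' : E3 → E3 → ℝ}

lemma measurable_boltz {ι : Type} [Fintype ι] [DecidableEq ι]
    (hw : Measurable (Function.uncurry w)) :
    Measurable (fun x : ι → E3 => ENNReal.ofReal (Real.exp (-pairE w x))) :=
  ENNReal.measurable_ofReal.comp (Real.measurable_exp.comp (measurable_pairE hw).neg)

lemma measurableSet_box {ι : Type} [Fintype ι] {B : Set E3} (hB : MeasurableSet B) :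
    MeasurableSet (Set.pi Set.univ (fun _ : ι => B)) :=
  MeasurableSet.univ_pi fun _ => hB

lemma crossE_nonneg {ι₁ ι₂ : Type} [Fintype ι₁] [Fintype ι₂] {B₁ B₂ : Set E3}
    (h : ∀ x ∈ B₁, ∀ y ∈ B₂, 0 ≤ w x y) {a : ι₁ → E3} {b : ι₂ → E3}
    (ha : a ∈ Set.pi Set.univ (fun _ : ι₁ => B₁)) (hb : b ∈ Set.pi Set.univ (fun _ : ι₂ => B₂)) :
    0 ≤ crossE w a b :=
  Finset.sum_nonneg fun i _ => Finset.sum_nonneg fun j _ =>
    h _ (ha i (Set.mem_univ i)) _ (hb j (Set.mem_univ j))

lemma crossE_nonpos {ι₁ ι₂ : Type} [Fintype ι₁] [Fintype ι₂] {B₁ B₂ : Set E3}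
    (h : ∀ x ∈ B₁, ∀ y ∈ B₂, w x y ≤ 0) {a : ι₁ → E3} {b : ι₂ → E3}
    (ha : a ∈ Set.pi Set.univ (fun _ : ι₁ => B₁)) (hb : b ∈ Set.pi Set.univ (fun _ : ι₂ => B₂)) :
    crossE w a b ≤ 0 :=
  Finset.sum_nonpos fun i _ => Finset.sum_nonpos fun j _ =>
    h _ (ha i (Set.mem_univ i)) _ (hb j (Set.mem_univ j))

lemma zInt_mul_zInt (hw : Measurable (Function.uncurry w)) (B₁ B₂ : Set E3) (n m : ℕ) :
    zInt w B₁ (Fin n) * zInt w B₂ (Fin m)
      = ∫⁻ a in Set.pi Set.univ (fun _ : Fin n => B₁),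
          ∫⁻ b in Set.pi Set.univ (fun _ : Fin m => B₂),
            ENNReal.ofReal (Real.exp (-pairE w a)) * ENNReal.ofReal (Real.exp (-pairE w b)) := by
  unfold zInt
  rw [← lintegral_mul_const _ (measurable_boltz hw)]
  refine lintegral_congr fun a => ?_
  rw [lintegral_const_mul _ (measurable_boltz hw)]

lemma mixInt_le (hw : Measurable (Function.uncurry w)) {B₁ B₂ : Set E3} (h₁ : MeasurableSet B₁)
    (h₂ : MeasurableSet B₂) (hc : ∀ x ∈ B₁, ∀ y ∈ B₂, 0 ≤ w x y) (n m : ℕ) :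
    mixInt w B₁ B₂ n m ≤ zInt w B₁ (Fin n) * zInt w B₂ (Fin m) := by
  rw [zInt_mul_zInt hw]
  unfold mixInt
  refine setLIntegral_mono' (measurableSet_box h₁) fun a ha => ?_
  refine setLIntegral_mono' (measurableSet_box h₂) fun b hb => ?_
  rw [← ENNReal.ofReal_mul (Real.exp_pos _).le, ← Real.exp_add]
  refine ENNReal.ofReal_le_ofReal (Real.exp_le_exp.mpr ?_)
  have := crossE_nonneg hc ha hb
  linarith

lemma le_mixInt (hw : Measurable (Function.uncurry w)) {B₁ B₂ : Set E3} (h₁ : MeasurableSet B₁)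
    (h₂ : MeasurableSet B₂) (hc : ∀ x ∈ B₁, ∀ y ∈ B₂, w x y ≤ 0) (n m : ℕ) :
    zInt w B₁ (Fin n) * zInt w B₂ (Fin m) ≤ mixInt w B₁ B₂ n m := by
  rw [zInt_mul_zInt hw]
  unfold mixInt
  refine setLIntegral_mono' (measurableSet_box h₁) fun a ha => ?_
  refine setLIntegral_mono' (measurableSet_box h₂) fun b hb => ?_
  rw [← ENNReal.ofReal_mul (Real.exp_pos _).le, ← Real.exp_add]
  refine ENNReal.ofReal_le_ofReal (Real.exp_le_exp.mpr ?_)
  have := crossE_nonpos hc ha hb
  linarith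

lemma Xi_mul_Xi (w : E3 → E3 → ℝ) (B₁ B₂ : Set E3) (μ : ℝ) :
    Xi w B₁ μ * Xi w B₂ μ
      = ∑' n : ℕ, ∑' m : ℕ, coef μ n * coef μ m * (zInt w B₁ (Fin n) * zInt w B₂ (Fin m)) := by
  unfold Xi
  rw [← ENNReal.tsum_mul_right]
  refine tsum_congr fun n => ?_
  rw [← ENNReal.tsum_mul_left]
  refine tsum_congr fun m => ?_
  ring

theorem Xi_union_le (hw : Measurable (Function.uncurry w)) (hs : ∀ x y, w x y = w y x)
    {B₁ B₂ : Set E3} (h₁ : MeasurableSet B₁) (h₂ : MeasurableSet B₂) (hd : Disjoint B₁ B₂) (μ : ℝ)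
    (hc : ∀ x ∈ B₁, ∀ y ∈ B₂, 0 ≤ w x y) :
    Xi w (B₁ ∪ B₂) μ ≤ Xi w B₁ μ * Xi w B₂ μ := by
  rw [Xi_union hw hs h₁ h₂ hd, Xi_mul_Xi]
  exact ENNReal.tsum_le_tsum fun n => ENNReal.tsum_le_tsum fun m =>
    mul_le_mul_right (mixInt_le hw h₁ h₂ hc n m) _

theorem Xi_union_ge (hw : Measurable (Function.uncurry w)) (hs : ∀ x y, w x y = w y x)
    {B₁ B₂ : Set E3} (h₁ : MeasurableSet B₁) (h₂ : MeasurableSet B₂) (hd : Disjoint B₁ B₂) (μ : ℝ)
    (hc : ∀ x ∈ B₁, ∀ y ∈ B₂, w x y ≤ 0) :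
    Xi w B₁ μ * Xi w B₂ μ ≤ Xi w (B₁ ∪ B₂) μ := by
  rw [Xi_union hw hs h₁ h₂ hd, Xi_mul_Xi]
  exact ENNReal.tsum_le_tsum fun n => ENNReal.tsum_le_tsum fun m =>
    mul_le_mul_right (le_mixInt hw h₁ h₂ hc n m) _

lemma zInt_zero (w : E3 → E3 → ℝ) (B : Set E3) : zInt w B (Fin 0) = 1 := by
  unfold zInt
  have h1 : Set.pi Set.univ (fun _ : Fin 0 => B) = Set.univ := by
    ext x
    simp
  rw [h1, Measure.restrict_univ]
  have h2 : ∀ x : Fin 0 → E3, ENNReal.ofReal (Real.exp (-pairE w x)) = 1 := by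
    intro x
    simp [pairE]
  simp only [h2, lintegral_const]
  rw [volume_pi, Measure.pi_of_empty]
  simp

lemma coef_zero (μ : ℝ) : coef μ 0 = 1 := by
  simp [coef]

lemma one_le_Xi (w : E3 → E3 → ℝ) (B : Set E3) (μ : ℝ) : 1 ≤ Xi w B μ := by
  unfold Xi
  calc (1 : ℝ≥0∞) = coef μ 0 * zInt w B (Fin 0) := by rw [coef_zero, zInt_zero, one_mul]
    _ ≤ _ := ENNReal.le_tsum 0

lemma Xi_empty (w : E3 → E3 → ℝ) (μ : ℝ) : Xi w ∅ μ = 1 := by
  unfold Xi
  rw [tsum_eq_single 0]
  · rw [coef_zero, zInt_zero, one_mul]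
  · intro n hn
    have : zInt w ∅ (Fin n) = 0 := by
      unfold zInt
      have h1 : Set.pi Set.univ (fun _ : Fin n => (∅ : Set E3)) = ∅ := by
        obtain ⟨k, rfl⟩ := Nat.exists_eq_succ_of_ne_zero hn
        ext x
        simp only [Set.mem_pi, Set.mem_univ, Set.mem_empty_iff_false, true_implies, iff_false,
          not_forall, not_false_eq_true]
        exact ⟨0, trivial⟩
      rw [h1]
      simp
    rw [this, mul_zero]

lemma Xi_mono_set (w : E3 → E3 → ℝ) {B B' : Set E3} (h : B ⊆ B') (μ : ℝ) :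
    Xi w B μ ≤ Xi w B' μ := by
  unfold Xi zInt
  refine ENNReal.tsum_le_tsum fun n => mul_le_mul_right ?_ _
  exact lintegral_mono_set (Set.pi_mono fun _ _ => h)

lemma pairE_mono {ι : Type} [Fintype ι] [DecidableEq ι] {B : Set E3}
    (h : ∀ x ∈ B, ∀ y ∈ B, w x y ≤ w' x y) {x : ι → E3}
    (hx : x ∈ Set.pi Set.univ (fun _ : ι => B)) : pairE w x ≤ pairE w' x := by
  unfold pairE
  refine mul_le_mul_of_nonneg_left ?_ (by norm_num)
  refine Finset.sum_le_sum fun i _ => Finset.sum_le_sum fun j _ => ?_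
  split_ifs
  · exact le_rfl
  · exact h _ (hx i (Set.mem_univ i)) _ (hx j (Set.mem_univ j))

lemma Xi_mono_kernel {B : Set E3} (hB : MeasurableSet B) (h : ∀ x ∈ B, ∀ y ∈ B, w' x y ≤ w x y)
    (μ : ℝ) : Xi w B μ ≤ Xi w' B μ := by
  unfold Xi zInt
  refine ENNReal.tsum_le_tsum fun n => mul_le_mul_right ?_ _
  refine setLIntegral_mono' (measurableSet_box hB) fun x hx => ?_
  refine ENNReal.ofReal_le_ofReal (Real.exp_le_exp.mpr ?_)
  have := pairE_mono h hx
  linarith

lemma coef_mono (n : ℕ) {μ μ' : ℝ} (h : μ ≤ μ') : coef μ n ≤ coef μ' n := by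
  unfold coef
  refine ENNReal.ofReal_le_ofReal ?_
  have : (0 : ℝ) ≤ (n : ℝ) := Nat.cast_nonneg n
  have h2 : Real.exp (μ * n) ≤ Real.exp (μ' * n) :=
    Real.exp_le_exp.mpr (mul_le_mul_of_nonneg_right h this)
  exact div_le_div_of_nonneg_right h2 (Nat.cast_nonneg _)

lemma Xi_mono_mu (w : E3 → E3 → ℝ) (B : Set E3) {μ μ' : ℝ} (h : μ ≤ μ') :
    Xi w B μ ≤ Xi w B μ' :=
  ENNReal.tsum_le_tsum fun n => mul_le_mul_left (coef_mono n h) _

/-- Translation invariance of the partition function. -/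
lemma zInt_translate {ι : Type} [Fintype ι] [DecidableEq ι] (hinv : ∀ v x y, w (x + v) (y + v) = w x y)
    (B : Set E3) (v : E3) :
    zInt w ((fun x => x + v) ⁻¹' B) ι = zInt w B ι := by
  unfold zInt
  have hmp : MeasurePreserving (fun a : ι → E3 => fun i => a i + v)
      (volume : Measure (ι → E3)) (volume : Measure (ι → E3)) :=
    volume_preserving_pi (fun _ => measurePreserving_add_right volume v)
  have hemb : MeasurableEmbedding (fun a : ι → E3 => fun i => a i + v) :=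
    (MeasurableEquiv.addRight (fun _ : ι => v)).measurableEmbedding
  have hpre : (fun a : ι → E3 => fun i => a i + v) ⁻¹' (Set.pi Set.univ (fun _ : ι => B))
      = Set.pi Set.univ (fun _ : ι => (fun x => x + v) ⁻¹' B) := by
    ext a
    simp
  have hE : ∀ a : ι → E3, pairE w (fun i => a i + v) = pairE w a := by
    intro a
    unfold pairE
    simp only [hinv]
  rw [← hmp.setLIntegral_comp_preimage_emb hemb _ (Set.pi Set.univ (fun _ : ι => B)), hpre]
  simp only [hE]

lemma Xi_translate (hinv : ∀ v x y, w (x + v) (y + v) = w x y) (B : Set E3) (v : E3) (μ : ℝ) :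
    Xi w ((fun x => x + v) ⁻¹' B) μ = Xi w B μ := by
  unfold Xi
  simp only [zInt_translate hinv]

end compare

end Vale.Agent.Lib.P171
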