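import Mathlib

/-!
Pure real analysis for the multi-scale argument: the Hopf-Lax type
sup-convolution `lpS P c mu = sup_nu (P nu - (nu - mu)^2 / (2 c))` of a convex
monotone function with a near-kink has a genuine near-kink at a tie point.
-/

open Set Filter Topology

namespace Vale.Agent.Lib.P171

/-- The sup-convolution of `P` with the quadratic kernel of width `c`. -/
noncomputable def lpS (P : ℝ → ℝ) (c mu : ℝ) : ℝ :=
  iSup (fun nu : ℝ => P nu - (nu - mu)^2 / (2*c))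

lemma quad_le (k b x : ℝ) (hk : 0 < k) : b * x - k * x^2 ≤ b^2 / (4*k) := by
  have h : b^2/(4*k) - (b*x - k*x^2) = (2*k*x - b)^2/(4*k) := by
    field_simp; ring
  have h2 : 0 ≤ (2*k*x-b)^2/(4*k) := by positivity
  linarith

lemma coercive_bound {P : ℝ → ℝ} {c a1 a2 mu : ℝ} (hc : 0 < c) (ha : a1 < 1/(2*c))
    (hb : ∀ nu, P nu ≤ a1*nu^2 + a2) (nu : ℝ) :
    P nu - (nu-mu)^2/(2*c) ≤ a2 - mu^2/(2*c) + (mu/c)^2/(4*(1/(2*c)-a1)) := by
  have hk : 0 < 1/(2*c)-a1 := by linarith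
  have h1 := quad_le (1/(2*c)-a1) (mu/c) nu hk
  have h2 := hb nu
  have h3 : (nu-mu)^2/(2*c) = (1/(2*c))*nu^2 - (mu/c)*nu + mu^2/(2*c) := by
    field_simp; ring
  rw [h3]
  nlinarith

lemma bddAbove_lp (P : ℝ → ℝ) {c a1 a2 mu : ℝ} (hc : 0 < c) (ha : a1 < 1/(2*c))
    (hb : ∀ nu, P nu ≤ a1*nu^2 + a2) :
    BddAbove (Set.range fun nu => P nu - (nu-mu)^2/(2*c)) := by
  refine ⟨a2 - mu^2/(2*c) + (mu/c)^2/(4*(1/(2*c)-a1)), ?_⟩
  rintro _ ⟨nu, rfl⟩
  exact coercive_bound (P := P) (mu := mu) hc ha hb nu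

lemma le_lpS {P : ℝ → ℝ} {c a1 a2 : ℝ} (hc : 0 < c) (ha : a1 < 1/(2*c))
    (hb : ∀ nu, P nu ≤ a1*nu^2 + a2) (mu nu : ℝ) :
    P nu - (nu-mu)^2/(2*c) ≤ lpS P c mu :=
  le_ciSup (bddAbove_lp P hc ha hb) nu

/-- Second differences of a convex function, divided by the step, are monotone. -/
theorem second_diff_scale {P : ℝ → ℝ} (hconv : ConvexOn ℝ Set.univ P) {m h t w : ℝ}
    (hh : 0 < h) (ht : h ≤ t) (hK : w*h ≤ P (m+h) + P (m-h) - 2*P m) :
    w*t ≤ P (m+t) + P (m-t) - 2*P m := by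
  have htpos : 0 < t := lt_of_lt_of_le hh ht
  have hα : 0 ≤ h/t := by positivity
  have hβ : 0 ≤ 1 - h/t := by
    have : h/t ≤ 1 := (div_le_one htpos).2 ht
    linarith
  have hsum : h/t + (1 - h/t) = 1 := by ring
  have e1 := hconv.2 (mem_univ (m+t)) (mem_univ m) hα hβ hsum
  have e2 := hconv.2 (mem_univ (m-t)) (mem_univ m) hα hβ hsum
  have a1 : (h/t) • (m+t) + (1-h/t) • m = m + h := by
    simp only [smul_eq_mul]; field_simp; ring
  have a2 : (h/t) • (m-t) + (1-h/t) • m = m - h := by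
    simp only [smul_eq_mul]; field_simp; ring
  rw [a1] at e1
  rw [a2] at e2
  simp only [smul_eq_mul] at e1 e2
  have key : w*h ≤ h/t * (P (m+t) + P (m-t) - 2*P m) := by nlinarith
  have e3 : t * (w*h) ≤ t * (h/t * (P (m+t) + P (m-t) - 2*P m)) :=
    mul_le_mul_of_nonneg_left key htpos.le
  have e4 : t * (h/t * (P (m+t) + P (m-t) - 2*P m))
      = h * (P (m+t) + P (m-t) - 2*P m) := by
    field_simp
  rw [e4] at e3
  have e5 : h * (w*t) ≤ h * (P (m+t) + P (m-t) - 2*P m) := by nlinarith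
  exact le_of_mul_le_mul_left e5 hh

/-- Weighted convexity inequality. -/
lemma conv3 {P : ℝ → ℝ} (hconv : ConvexOn ℝ Set.univ P) {x y s t : ℝ}
    (hs : 0 ≤ s) (ht : 0 ≤ t) (hst : 0 < s + t) :
    (s+t) * P ((s*x+t*y)/(s+t)) ≤ s * P x + t * P y := by
  have hα : 0 ≤ s/(s+t) := by positivity
  have hβ : 0 ≤ t/(s+t) := by positivity
  have hsum : s/(s+t) + t/(s+t) = 1 := by field_simp
  have e := hconv.2 (mem_univ x) (mem_univ y) hα hβ hsum
  have a : (s/(s+t)) • x + (t/(s+t)) • y = (s*x+t*y)/(s+t) := by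
    simp only [smul_eq_mul]; field_simp
  rw [a] at e
  simp only [smul_eq_mul] at e
  have e2 := mul_le_mul_of_nonneg_left e hst.le
  have e3 : (s+t) * (s/(s+t) * P x + t/(s+t) * P y) = s * P x + t * P y := by
    field_simp
  rwa [e3] at e2

/-- Upper Taylor bound at a global maximiser. -/
lemma max_upper {P : ℝ → ℝ} {c mu nu0 : ℝ} (hc : 0 < c)
    (hmax : ∀ nu, P nu - (nu-mu)^2/(2*c) ≤ P nu0 - (nu0-mu)^2/(2*c)) (nu : ℝ) :
    P nu ≤ P nu0 + (nu0-mu)/c * (nu-nu0) + (nu-nu0)^2/(2*c) := by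
  have h := hmax nu
  have e : (nu-mu)^2/(2*c) - (nu0-mu)^2/(2*c) = (nu0-mu)/c * (nu-nu0) + (nu-nu0)^2/(2*c) := by
    field_simp; ring
  linarith

/-- Lower supporting line at a global maximiser. -/
lemma max_lower {P : ℝ → ℝ} (hconv : ConvexOn ℝ Set.univ P) {c mu nu0 : ℝ} (hc : 0 < c)
    (hmax : ∀ nu, P nu - (nu-mu)^2/(2*c) ≤ P nu0 - (nu0-mu)^2/(2*c)) (nu : ℝ) :
    P nu0 + (nu0-mu)/c * (nu-nu0) ≤ P nu := by
  by_contra hcon
  push Not at hcon
  set p := (nu0-mu)/c with hp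
  set d := nu - nu0 with hd
  set δ := P nu0 + p*d - P nu with hδ
  have hδpos : 0 < δ := by simp only [hδ]; linarith
  set s := δ*c/(d^2+1) with hs
  have hdd : 0 < d^2+1 := by positivity
  have hspos : 0 < s := by positivity
  have h3 := conv3 hconv (x := nu0 - s*d) (y := nu) (s := 1) (t := s) zero_le_one hspos.le
    (by linarith)
  have e1 : (1*(nu0 - s*d) + s*nu)/(1+s) = nu0 := by
    have : nu = nu0 + d := by simp [hd]
    rw [this]; field_simp; ring
  rw [e1] at h3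
  have h4 := max_upper hc hmax (nu0 - s*d)
  have e2 : nu0 - s*d - nu0 = -(s*d) := by ring
  rw [e2] at h4
  have h5 : s * δ ≤ s^2 * d^2/(2*c) := by
    have e3 : (-(s*d))^2/(2*c) = s^2*d^2/(2*c) := by ring
    rw [e3] at h4
    simp only [hδ]
    nlinarith
  have h6 : δ ≤ s * d^2/(2*c) := by
    have e4 : s^2*d^2/(2*c) = s * (s*d^2/(2*c)) := by ring
    rw [e4] at h5
    exact le_of_mul_le_mul_left h5 hspos
  have e5 : s*d^2/(2*c) = δ * (d^2/(2*(d^2+1))) := by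
    simp only [hs]; field_simp
  rw [e5] at h6
  have h7 : d^2/(2*(d^2+1)) < 1 := by
    rw [div_lt_one (by positivity)]
    nlinarith [sq_nonneg d]
  nlinarith

/-- Right-of-point slope bound for a convex function. -/
lemma slope_right {P : ℝ → ℝ} (hconv : ConvexOn ℝ Set.univ P) {m h x : ℝ}
    (hh : 0 < h) (hx : 0 ≤ x) :
    P (m+h) + (P (m+h) - P m)/h * x ≤ P (m+h+x) := by
  have h3 := conv3 hconv (x := m+h+x) (y := m) (s := h) (t := x) hh.le hx (by linarith)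
  have e1 : (h*(m+h+x) + x*m)/(h+x) = m+h := by
    have : h + x ≠ 0 := by linarith
    field_simp; ring
  rw [e1] at h3
  have e2 : P (m+h) + (P (m+h) - P m)/h * x = ((h+x)*P (m+h) - x*P m)/h := by
    field_simp; ring
  rw [e2, div_le_iff₀ hh]
  linarith

/-- Left-of-point slope bound for a convex function. -/
lemma slope_left {P : ℝ → ℝ} (hconv : ConvexOn ℝ Set.univ P) {m h x : ℝ}
    (hh : 0 < h) (hx : 0 ≤ x) :
    P (m-h) - (P m - P (m-h))/h * x ≤ P (m-h-x) := by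
  have h3 := conv3 hconv (x := m-h-x) (y := m) (s := h) (t := x) hh.le hx (by linarith)
  have e1 : (h*(m-h-x) + x*m)/(h+x) = m-h := by
    have : h + x ≠ 0 := by linarith
    field_simp; ring
  rw [e1] at h3
  have e2 : P (m-h) - (P m - P (m-h))/h * x = ((h+x)*P (m-h) - x*P m)/h := by
    field_simp; ring
  rw [e2, div_le_iff₀ hh]
  linarith

lemma gap_of_forall {c u d : ℝ} (hc : 0 < c) (hu : 0 < u)
    (H : ∀ x, 0 ≤ x → u*x ≤ (x+d)^2/(2*c)) : c*u/2 ≤ d := by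
  by_cases hd : c*u ≤ d
  · have : 0 < c*u := by positivity
    linarith
  · push Not at hd
    have h1 := H (c*u-d) (by linarith)
    have e : (c*u-d+d)^2/(2*c) = c*u^2/2 := by
      field_simp; ring
    rw [e] at h1
    have h2 : u*(c*u/2) ≤ u*d := by nlinarith
    exact le_of_mul_le_mul_left h2 hu

/-- A global maximiser of `nu ↦ P nu - (nu-mu)^2/(2c)` avoids the middle window. -/
lemma argmax_gap {P : ℝ → ℝ} (hconv : ConvexOn ℝ Set.univ P) {c mu nu0 m h w : ℝ}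
    (hc : 0 < c) (hh : 0 < h) (hK : w*h ≤ P (m+h) + P (m-h) - 2*P m) (hw : 4*h < c*w)
    (hmax : ∀ nu, P nu - (nu-mu)^2/(2*c) ≤ P nu0 - (nu0-mu)^2/(2*c)) :
    nu0 ≤ m + h - c*w/2 ∨ m - h + c*w/2 ≤ nu0 := by
  have hwpos : 0 < w := by
    by_contra hcon
    push Not at hcon
    nlinarith
  set p := (nu0-mu)/c with hp
  set R := (P (m+h) - P m)/h with hR
  set L := (P m - P (m-h))/h with hL
  have hRL : w ≤ R - L := by
    have e : R - L = (P (m+h) + P (m-h) - 2*P m)/h := by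
      simp only [hR, hL]; field_simp; ring
    rw [e, le_div_iff₀ hh]
    exact hK
  have fact1 : ∀ x, 0 ≤ x → (R-p)*x ≤ (x+(m+h-nu0))^2/(2*c) := by
    intro x hx
    have s1 := slope_right hconv (m := m) hh hx
    have s2 := max_lower hconv hc hmax (m+h)
    have s3 := max_upper hc hmax (m+h+x)
    have e1 : m+h+x-nu0 = x+(m+h-nu0) := by ring
    have e2 : m+h-nu0 = (m+h-nu0) := rfl
    rw [e1] at s3
    simp only [← hp, ← hR] at s1 s2 s3
    nlinarith
  have fact2 : ∀ x, 0 ≤ x → (p-L)*x ≤ (x+(nu0-m+h))^2/(2*c) := by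
    intro x hx
    have s1 := slope_left hconv (m := m) hh hx
    have s2 := max_lower hconv hc hmax (m-h)
    have s3 := max_upper hc hmax (m-h-x)
    have e1 : (m-h-x-nu0)^2 = (x+(nu0-m+h))^2 := by ring
    rw [e1] at s3
    simp only [← hp, ← hL] at s1 s2 s3
    nlinarith
  have hcw : 0 < c*w := by positivity
  by_cases hu : R - p ≤ 0
  · right
    have hv : 0 < p - L := by linarith
    have h1 := gap_of_forall hc hv fact2
    have h2 : c*w/2 ≤ c*(p-L)/2 := by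
      have : w ≤ p - L := by linarith
      nlinarith
    linarith
  · push Not at hu
    by_cases hv : p - L ≤ 0
    · left
      have h1 := gap_of_forall hc hu fact1
      have h2 : c*w/2 ≤ c*(R-p)/2 := by
        have : w ≤ R - p := by linarith
        nlinarith
      linarith
    · push Not at hv
      exfalso
      have h1 := gap_of_forall hc hu fact1
      have h2 := gap_of_forall hc hv fact2
      have h3 : c*w/2 ≤ c*(R-L)/2 := by nlinarith
      have h4 : c*(R-L)/2 = c*(R-p)/2 + c*(p-L)/2 := by ring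
      linarith

/-- Existence of a global maximiser. -/
lemma exists_argmax {P : ℝ → ℝ} (hP : Continuous P) {c a1 a2 : ℝ} (hc : 0 < c)
    (ha : a1 < 1/(2*c)) (hb : ∀ nu, P nu ≤ a1*nu^2 + a2) (mu : ℝ) :
    ∃ nu0, ∀ nu, P nu - (nu-mu)^2/(2*c) ≤ P nu0 - (nu0-mu)^2/(2*c) := by
  have hcont : Continuous (fun nu => P nu - (nu-mu)^2/(2*c)) := by
    fun_prop
  apply hcont.exists_forall_ge
  set κ := 1/(2*c)-a1 with hκ
  have hk : 0 < κ := by simp only [hκ]; linarith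
  have hbd : ∀ nu : ℝ, P nu - (nu-mu)^2/(2*c) ≤
      (a2 - mu^2/(2*c) + (mu/c)^2/(4*(κ/2))) - (κ/2) * ‖nu‖^2 := by
    intro nu
    have h1 := quad_le (κ/2) (mu/c) nu (by positivity)
    have h2 := hb nu
    have h3 : (nu-mu)^2/(2*c) = (1/(2*c))*nu^2 - (mu/c)*nu + mu^2/(2*c) := by
      field_simp; ring
    have h4 : ‖nu‖^2 = nu^2 := by simp
    rw [h3, h4]
    simp only [hκ] at h1 ⊢
    nlinarith
  refine tendsto_atBot_mono hbd ?_
  have h0 : Tendsto (fun nu : ℝ => ‖nu‖) (cocompact ℝ) atTop := tendsto_norm_cocompact_atTop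
  have h1 : Tendsto (fun nu : ℝ => ‖nu‖^2) (cocompact ℝ) atTop :=
    (tendsto_pow_atTop two_ne_zero).comp h0
  have h2 : Tendsto (fun nu : ℝ => (κ/2) * ‖nu‖^2) (cocompact ℝ) atTop :=
    h1.const_mul_atTop (by positivity)
  have h3 : Tendsto (fun nu : ℝ => -((κ/2) * ‖nu‖^2)) (cocompact ℝ) atBot :=
    tendsto_neg_atTop_atBot.comp h2
  have h4 := tendsto_atBot_add_const_left (cocompact ℝ)
    (a2 - mu^2/(2*c) + (mu/c)^2/(4*(κ/2))) h3
  refine h4.congr ?_
  intro x; ring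

/-- The affine-in-`mu` sup over a subset. -/
noncomputable def affSup (P : ℝ → ℝ) (c : ℝ) (s : Set ℝ) (mu : ℝ) : ℝ :=
  ⨆ nu : s, (P nu - (nu:ℝ)^2/(2*c) + (nu:ℝ)*mu/c)

lemma aff_bdd {P : ℝ → ℝ} {c a1 a2 : ℝ} (hc : 0 < c) (ha : a1 < 1/(2*c))
    (hb : ∀ nu, P nu ≤ a1*nu^2 + a2) (s : Set ℝ) (mu : ℝ) :
    BddAbove (Set.range fun nu : s => P nu - (nu:ℝ)^2/(2*c) + (nu:ℝ)*mu/c) := by
  obtain ⟨B, hB⟩ := bddAbove_lp P (mu := mu) hc ha hb
  refine ⟨B + mu^2/(2*c), ?_⟩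
  rintro _ ⟨nu, rfl⟩
  have h1 := hB ⟨(nu:ℝ), rfl⟩
  have e : (((nu:ℝ)-mu)^2)/(2*c) = (nu:ℝ)^2/(2*c) - (nu:ℝ)*mu/c + mu^2/(2*c) := by
    field_simp; ring
  simp only [e] at h1
  simp only
  linarith

lemma le_affSup {P : ℝ → ℝ} {c a1 a2 : ℝ} (hc : 0 < c) (ha : a1 < 1/(2*c))
    (hb : ∀ nu, P nu ≤ a1*nu^2 + a2) {s : Set ℝ} (mu : ℝ) {nu : ℝ} (hnu : nu ∈ s) :
    P nu - nu^2/(2*c) + nu*mu/c ≤ affSup P c s mu :=
  le_ciSup (f := fun nu : s => P nu - (nu:ℝ)^2/(2*c) + (nu:ℝ)*mu/c)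
    (aff_bdd hc ha hb s mu) ⟨nu, hnu⟩

lemma affSup_convex {P : ℝ → ℝ} {c a1 a2 : ℝ} (hc : 0 < c) (ha : a1 < 1/(2*c))
    (hb : ∀ nu, P nu ≤ a1*nu^2 + a2) {s : Set ℝ} (hs : s.Nonempty) :
    ConvexOn ℝ Set.univ (affSup P c s) := by
  refine ⟨convex_univ, ?_⟩
  intro x _ y _ α β hα hβ hαβ
  have : Nonempty s := hs.to_subtype
  simp only [smul_eq_mul]
  apply ciSup_le
  rintro ⟨nu, hnu⟩
  have h1 := le_affSup hc ha hb x hnu
  have h2 := le_affSup hc ha hb y hnu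
  have e : P nu - nu^2/(2*c) + nu*(α*x+β*y)/c
      = α * (P nu - nu^2/(2*c) + nu*x/c) + β * (P nu - nu^2/(2*c) + nu*y/c) := by
    have : β = 1 - α := by linarith
    subst this
    field_simp; ring
  simp only [e]
  exact add_le_add (mul_le_mul_of_nonneg_left h1 hα) (mul_le_mul_of_nonneg_left h2 hβ)

lemma affSup_continuous {P : ℝ → ℝ} {c a1 a2 : ℝ} (hc : 0 < c) (ha : a1 < 1/(2*c))
    (hb : ∀ nu, P nu ≤ a1*nu^2 + a2) {s : Set ℝ} (hs : s.Nonempty) :
    Continuous (affSup P c s) := by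
  have h := (affSup_convex hc ha hb hs).continuousOn isOpen_univ
  exact continuousOn_univ.mp h

lemma right_wins {P : ℝ → ℝ} (hmono : Monotone P) {c a1 a2 a b : ℝ} (hc : 0 < c)
    (ha : a1 < 1/(2*c)) (hb : ∀ nu, P nu ≤ a1*nu^2 + a2) (hab : a < b) :
    0 < affSup P c (Ici b) b - affSup P c (Iic a) b := by
  have hsa : (Iic a).Nonempty := nonempty_Iic
  have h1 : P b - b^2/(2*c) + b*b/c ≤ affSup P c (Ici b) b := le_affSup hc ha hb b (by simp)
  have h2 : affSup P c (Iic a) b ≤ P a - (a-b)^2/(2*c) + b^2/(2*c) := by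
    have : Nonempty (Iic a) := hsa.to_subtype
    apply ciSup_le
    rintro ⟨nu, hnu⟩
    have hnu' : nu ≤ a := hnu
    have h3 : P nu ≤ P a := hmono hnu'
    have h4 : (a-b)^2 ≤ (nu-b)^2 := by nlinarith
    have h5 : (a-b)^2/(2*c) ≤ (nu-b)^2/(2*c) :=
      div_le_div_of_nonneg_right h4 (by positivity)
    have e : P nu - nu^2/(2*c) + nu*b/c = P nu - (nu-b)^2/(2*c) + b^2/(2*c) := by
      field_simp; ring
    simp only
    rw [e]
    linarith
  have h3 : P a ≤ P b := hmono hab.le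
  have h4 : 0 < (a-b)^2/(2*c) := by
    have : a - b ≠ 0 := by linarith
    positivity
  have e : P b - b^2/(2*c) + b*b/c = P b + b^2/(2*c) := by
    field_simp; ring
  rw [e] at h1
  linarith

lemma left_wins_aux {c y b a2 : ℝ} (hc : 0 < c) (hy1 : 1 ≤ y)
    (h9 : 1 + 2*c*(|a2|) ≤ y - 2*(|b|)) : a2 + |b| * y/c ≤ y^2/(2*c) := by
  have e2 : y^2/(2*c) - |b| * y/c = y*(y-2*(|b|))/(2*c) := by
    field_simp
  have h00 : 0 ≤ 2*c*(|a2|) := by positivity
  have h0 : 0 ≤ y-2*(|b|) := by linarith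
  have h01 := mul_le_mul_of_nonneg_right hy1 h0
  have h10 : (1 + 2*c*(|a2|)) ≤ y*(y-2*(|b|)) := by linarith
  have h11 : |a2| ≤ y*(y-2*(|b|))/(2*c) := by
    rw [le_div_iff₀ (by positivity)]
    nlinarith
  have := le_abs_self a2
  linarith

lemma left_wins {P : ℝ → ℝ} (hpos : ∀ nu, 0 ≤ P nu) {c a1 a2 a b : ℝ} (hc : 0 < c)
    (ha : a1 < 1/(2*c)) (hb : ∀ nu, P nu ≤ a1*nu^2 + a2) (hab : a < b) :
    ∃ mu0, mu0 ≤ b ∧ affSup P c (Ici b) mu0 - affSup P c (Iic a) mu0 ≤ 0 := by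
  have hsb : (Ici b).Nonempty := nonempty_Ici
  set y := 2*(|b|) + |a| + 1 + 2*c*(|a2|) with hy
  have hcb : 0 ≤ 2*c*(|a2|) := by positivity
  have hy1 : 1 ≤ y := by
    have := abs_nonneg b; have := abs_nonneg a
    simp only [hy]; linarith
  have hya : -y ≤ a := by
    have := abs_nonneg b; have := neg_abs_le a
    simp only [hy]; linarith
  refine ⟨-y, by linarith, ?_⟩
  have h1 : P (-y) - (-y)^2/(2*c) + (-y)*(-y)/c ≤ affSup P c (Iic a) (-y) :=
    le_affSup hc ha hb (-y) hya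
  have h2 : affSup P c (Ici b) (-y) ≤ (-y)^2/(2*c) := by
    have : Nonempty (Ici b) := hsb.to_subtype
    apply ciSup_le
    rintro ⟨nu, hnu⟩
    have hnu' : b ≤ nu := hnu
    have h3 := hb nu
    have hnuy : nu*(-y) ≤ |b| * y := by
      by_cases hn : 0 ≤ nu
      · have : 0 ≤ |b| * y := by positivity
        nlinarith
      · push Not at hn
        have h5 : -nu ≤ |b| := by
          have := neg_abs_le b
          linarith
        nlinarith
    have h6 : P nu - nu^2/(2*c) ≤ a2 := by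
      have e1 : nu^2/(2*c) = (1/(2*c))*nu^2 := by ring
      rw [e1]; nlinarith [sq_nonneg nu]
    have h7 : nu*(-y)/c ≤ |b| * y/c := div_le_div_of_nonneg_right hnuy hc.le
    have h8 : a2 + |b| * y/c ≤ y^2/(2*c) := by
      apply left_wins_aux hc hy1
      have := abs_nonneg a
      simp only [hy]; linarith
    simp only
    have e3 : (-y)^2 = y^2 := by ring
    rw [e3]
    linarith
  have h3 := hpos (-y)
  have e : P (-y) - (-y)^2/(2*c) + (-y)*(-y)/c = P (-y) + (-y)^2/(2*c) := by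
    field_simp; ring
  rw [e] at h1
  linarith

lemma tie_kink {P : ℝ → ℝ} {c a1 a2 a b mu' H : ℝ} (hc : 0 < c)
    (ha : a1 < 1/(2*c)) (hb : ∀ nu, P nu ≤ a1*nu^2 + a2)
    (hS : lpS P c mu' ≤ H - mu'^2/(2*c))
    (hTp : H ≤ affSup P c (Ici b) mu') (hTm : H ≤ affSup P c (Iic a) mu') {t : ℝ} (ht : 0 < t) :
    t*(b-a)/c - t^2/c ≤ lpS P c (mu'+t) + lpS P c (mu'-t) - 2*lpS P c mu' := by
  have hsa : (Iic a).Nonempty := nonempty_Iic
  have hsb : (Ici b).Nonempty := nonempty_Ici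
  refine le_of_forall_pos_le_add ?_
  intro ε hε
  have : Nonempty (Iic a) := hsa.to_subtype
  have : Nonempty (Ici b) := hsb.to_subtype
  obtain ⟨⟨nup, hnup⟩, hnup2⟩ := exists_lt_of_lt_ciSup (f := fun nu : (Ici b) =>
    P nu - (nu:ℝ)^2/(2*c) + (nu:ℝ)*mu'/c) (show H - ε/2 < _ from by
      change H - ε/2 < affSup P c (Ici b) mu'
      linarith)
  obtain ⟨⟨num, hnum⟩, hnum2⟩ := exists_lt_of_lt_ciSup (f := fun nu : (Iic a) =>
    P nu - (nu:ℝ)^2/(2*c) + (nu:ℝ)*mu'/c) (show H - ε/2 < _ from by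
      change H - ε/2 < affSup P c (Iic a) mu'
      linarith)
  simp only at hnup2 hnum2
  have hp' : b ≤ nup := hnup
  have hm' : num ≤ a := hnum
  have l1 := le_lpS hc ha hb (mu'+t) nup
  have l2 := le_lpS hc ha hb (mu'-t) num
  have e1 : P nup - (nup-(mu'+t))^2/(2*c)
      = (P nup - nup^2/(2*c) + nup*mu'/c) + nup*t/c - (mu'+t)^2/(2*c) := by
    field_simp; ring
  have e2 : P num - (num-(mu'-t))^2/(2*c)
      = (P num - num^2/(2*c) + num*mu'/c) - num*t/c - (mu'-t)^2/(2*c) := by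
    field_simp; ring
  rw [e1] at l1
  rw [e2] at l2
  have e3 : (mu'+t)^2/(2*c) + (mu'-t)^2/(2*c) = mu'^2/c + t^2/c := by
    field_simp; ring
  have e4 : 2*(mu'^2/(2*c)) = mu'^2/c := by
    field_simp
  have h5 : t*(b-a)/c ≤ nup*t/c - num*t/c := by
    have : t*(b-a) ≤ nup*t - num*t := by nlinarith
    have h6 : t*(b-a)/c ≤ (nup*t-num*t)/c := div_le_div_of_nonneg_right this hc.le
    have e5 : (nup*t-num*t)/c = nup*t/c - num*t/c := by ring
    linarith
  linarith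

/-- The kink lemma: a near-kink of `P` of strength `w` on scale `h` yields a tie point `mu'`
of the sup-convolution with second differences at least `t (w - 2h/c) - t^2/c` at
every scale `t`. -/
theorem kink_lemma {P : ℝ → ℝ} (hconv : ConvexOn ℝ Set.univ P) (hmono : Monotone P)
    (hpos : ∀ nu, 0 ≤ P nu) {c a1 a2 m h w : ℝ} (hc : 0 < c) (ha : a1 < 1/(2*c))
    (hb : ∀ nu, P nu ≤ a1*nu^2 + a2) (hh : 0 < h)
    (hK : w*h ≤ P (m+h) + P (m-h) - 2*P m) (hw : 4*h < c*w) :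
    ∃ mu', mu' < m - h + c*w/2 ∧ ∀ t, 0 < t →
      t*(w - 2*h/c) - t^2/c ≤ lpS P c (mu'+t) + lpS P c (mu'-t) - 2*lpS P c mu' := by
  have hPc : Continuous P := continuousOn_univ.mp (hconv.continuousOn isOpen_univ)
  set a := m + h - c*w/2 with ha_def
  set b := m - h + c*w/2 with hb_def
  have hab : a < b := by
    simp only [ha_def, hb_def]; nlinarith
  have hsa : (Iic a).Nonempty := nonempty_Iic
  have hsb : (Ici b).Nonempty := nonempty_Ici
  have cTm : Continuous (affSup P c (Iic a)) := affSup_continuous hc ha hb hsa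
  have cTp : Continuous (affSup P c (Ici b)) := affSup_continuous hc ha hb hsb
  have hDb := right_wins hmono hc ha hb hab
  obtain ⟨mu0, hmu0b, hDmu0⟩ := left_wins hpos hc ha hb hab
  have hDc : ContinuousOn (fun x => affSup P c (Ici b) x - affSup P c (Iic a) x) (Icc mu0 b) :=
    (cTp.sub cTm).continuousOn
  have hivt := intermediate_value_Icc hmu0b hDc
  obtain ⟨mu', hmu'mem, hmu'eq⟩ := hivt (show (0:ℝ) ∈ Icc _ _ from ⟨hDmu0, hDb.le⟩)
  simp only at hmu'eq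
  have hmu'lt : mu' < b := by
    refine lt_of_le_of_ne hmu'mem.2 ?_
    intro hcon
    rw [hcon] at hmu'eq
    linarith
  refine ⟨mu', hmu'lt, ?_⟩
  intro t ht
  have htie : affSup P c (Ici b) mu' = affSup P c (Iic a) mu' := by linarith
  have hS : lpS P c mu' ≤ affSup P c (Iic a) mu' - mu'^2/(2*c) := by
    obtain ⟨nu0, hnu0⟩ := exists_argmax hPc hc ha hb mu'
    have hgap := argmax_gap hconv hc hh hK hw hnu0
    have hsplit : P nu0 - (nu0-mu')^2/(2*c) ≤ affSup P c (Iic a) mu' - mu'^2/(2*c) := by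
      have e : P nu0 - (nu0-mu')^2/(2*c) = (P nu0 - nu0^2/(2*c) + nu0*mu'/c) - mu'^2/(2*c) := by
        field_simp; ring
      rw [e]
      rcases hgap with h1 | h1
      · have := le_affSup hc ha hb mu' (s := Iic a) (nu := nu0) h1
        linarith
      · have := le_affSup hc ha hb mu' (s := Ici b) (nu := nu0) h1
        linarith
    exact ciSup_le (fun nu => (hnu0 nu).trans hsplit)
  have hfin := tie_kink hc ha hb hS htie.ge le_rfl ht
  have e6 : t*(w - 2*h/c) = t*(b-a)/c := by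
    simp only [ha_def, hb_def]; field_simp; ring
  rw [e6]
  exact hfin

end Vale.Agent.Lib.P171
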