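import Vale.Agent.Lib.P171.Kernel

open MeasureTheory Set Filter Topology Metric
open scoped ENNReal

namespace Vale.Agent.Lib.P171

/-- Grid index of a point for the grid of side `l` with diagonal offset `t`. -/
noncomputable def idx (l t : ℝ) (x : E3) : Fin 3 → ℤ := fun j => ⌊(x j - t) / l⌋

/-- A grid cell. -/
def gridCell (l t : ℝ) (m : Fin 3 → ℤ) : Set E3 := {x | idx l t x = m}

lemma gridCell_eq {l : ℝ} (hl : 0 < l) (t : ℝ) (m : Fin 3 → ℤ) :
    gridCell l t m = {x : E3 | ∀ j, x j ∈ Set.Ico (l * m j + t) (l * (m j + 1) + t)} := by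
  ext x
  simp only [gridCell, idx, Set.mem_ofPred_eq, funext_iff, Set.mem_Ico]
  refine forall_congr' fun j => ?_
  rw [Int.floor_eq_iff, le_div_iff₀ hl, div_lt_iff₀ hl]
  constructor
  · rintro ⟨h1, h2⟩
    constructor <;> nlinarith
  · rintro ⟨h1, h2⟩
    constructor <;> nlinarith

lemma measurableSet_gridCell {l : ℝ} (hl : 0 < l) (t : ℝ) (m : Fin 3 → ℤ) :
    MeasurableSet (gridCell l t m) := by
  rw [gridCell_eq hl]
  exact measurableSet_coord_prod _ fun _ => measurableSet_Ico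

lemma volume_gridCell {l : ℝ} (hl : 0 < l) (t : ℝ) (m : Fin 3 → ℤ) :
    volume (gridCell l t m) = ENNReal.ofReal (l ^ 3) := by
  rw [gridCell_eq hl, volume_coord_prod _ (fun _ => measurableSet_Ico)]
  simp only [Real.volume_Ico, Fin.prod_univ_three]
  have h : ∀ z : ℤ, l * ((z : ℝ) + 1) + t - (l * z + t) = l := by intro z; ring
  simp only [h]
  rw [← ENNReal.ofReal_mul hl.le, ← ENNReal.ofReal_mul (by positivity)]
  congr 1
  ring

lemma norm_sub_le_of_idx_eq {l : ℝ} (hl : 0 < l) {t : ℝ} {x y : E3}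
    (h : idx l t x = idx l t y) : ‖x - y‖ ≤ 2 * l := by
  have hx : x ∈ gridCell l t (idx l t y) := h
  have hy : y ∈ gridCell l t (idx l t y) := rfl
  rw [gridCell_eq hl] at hx hy
  simp only [Set.mem_ofPred_eq, Set.mem_Ico] at hx hy
  have hc : ∀ j, (x j - y j) ^ 2 ≤ l ^ 2 := by
    intro j
    have h1 := hx j
    have h2 := hy j
    have h3 : (l * ((idx l t y j : ℝ) + 1) + t) = l * (idx l t y j : ℝ) + t + l := by ring
    rw [h3] at h1 h2
    have h4 : |x j - y j| ≤ l := by
      rw [abs_le]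
      constructor <;> linarith [h1.1, h1.2, h2.1, h2.2]
    calc (x j - y j) ^ 2 = |x j - y j| ^ 2 := (sq_abs _).symm
      _ ≤ l ^ 2 := by gcongr
  rw [EuclideanSpace.norm_eq]
  have hs : ∑ j, ‖(x - y) j‖ ^ 2 ≤ (2 * l) ^ 2 := by
    simp only [PiLp.sub_apply, Real.norm_eq_abs, sq_abs, Fin.sum_univ_three]
    nlinarith [hc 0, hc 1, hc 2, sq_nonneg l]
  calc Real.sqrt (∑ j, ‖(x - y) j‖ ^ 2) ≤ Real.sqrt ((2 * l) ^ 2) := Real.sqrt_le_sqrt hs
    _ = 2 * l := Real.sqrt_sq (by positivity)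

section young

variable {ι : Type} [Fintype ι] [DecidableEq ι]

/-- The number of occupied grid cells near a point is bounded by a volume ratio. -/
lemma card_image_idx_le {l ρ : ℝ} (hl : 0 < l) (hρ : 0 < ρ) (t : ℝ) (x : ι → E3) (s : E3)
    (A : Finset ι) (hA : ∀ i ∈ A, x i ∈ ball s ρ) :
    ((A.image fun i => idx l t (x i)).card : ℝ) ≤ (ρ + 2 * l) ^ 3 * v1 / l ^ 3 := by
  classical
  set T := A.image fun i => idx l t (x i) with hT
  have hv := v1_pos
  have hsub : (⋃ m ∈ T, gridCell l t m) ⊆ ball s (ρ + 2 * l) := by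
    intro z hz
    simp only [Set.mem_iUnion, exists_prop] at hz
    obtain ⟨m, hm, hz⟩ := hz
    rw [hT, Finset.mem_image] at hm
    obtain ⟨i, hi, rfl⟩ := hm
    have h1 := norm_sub_le_of_idx_eq hl (x := z) (y := x i) (t := t) hz
    have h2 := hA i hi
    rw [mem_ball, dist_eq_norm] at h2 ⊢
    have h3 : ‖z - s‖ ≤ ‖z - x i‖ + ‖x i - s‖ := norm_sub_le_norm_sub_add_norm_sub z (x i) s
    linarith
  have hdisj : Set.PairwiseDisjoint (↑T) (gridCell l t) := by
    intro m _ m' _ hmm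
    rw [Function.onFun, Set.disjoint_left]
    intro z hz hz'
    exact hmm (hz.symm.trans hz')
  have hvol : volume (⋃ m ∈ T, gridCell l t m) = (T.card : ℝ≥0∞) * ENNReal.ofReal (l ^ 3) := by
    rw [measure_biUnion_finset hdisj (fun m _ => measurableSet_gridCell hl t m)]
    simp only [volume_gridCell hl, Finset.sum_const, nsmul_eq_mul]
  have hle : (T.card : ℝ≥0∞) * ENNReal.ofReal (l ^ 3) ≤ ENNReal.ofReal ((ρ + 2 * l) ^ 3 * v1) := by
    rw [← hvol, ← volume_ball_E3 s (by positivity)]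
    exact measure_mono hsub
  have hle' : (T.card : ℝ) * l ^ 3 ≤ (ρ + 2 * l) ^ 3 * v1 := by
    rw [← ENNReal.ofReal_natCast, ← ENNReal.ofReal_mul (by positivity),
      ENNReal.ofReal_le_ofReal_iff (by positivity)] at hle
    exact hle
  rw [le_div_iff₀ (by positivity)]
  exact hle'

/-- The combinatorial Cauchy-Schwarz step. -/
lemma card_sq_le_same (A : Finset ι) (g : ι → Fin 3 → ℤ) :
    ((A.card : ℝ)) ^ 2 ≤ ((A.image g).card : ℝ) *
      ∑ i ∈ A, ∑ k ∈ A, (if g i = g k then (1 : ℝ) else 0) := by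
  classical
  set T := A.image g with hT
  set h : (Fin 3 → ℤ) → ℝ := fun m => ((A.filter fun i => g i = m).card : ℝ) with hh
  have h1 : (A.card : ℝ) = ∑ m ∈ T, h m := by
    have := Finset.card_eq_sum_card_image g A
    rw [this]
    push_cast
    rfl
  have h2 : ∑ i ∈ A, ∑ k ∈ A, (if g i = g k then (1 : ℝ) else 0) = ∑ m ∈ T, h m ^ 2 := by
    have h3 : ∀ i ∈ A, ∑ k ∈ A, (if g i = g k then (1 : ℝ) else 0) = h (g i) := by
      intro i _
      simp only [hh]
      rw [Finset.card_filter]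
      push_cast
      refine Finset.sum_congr rfl fun k _ => ?_
      by_cases hk : g i = g k
      · simp [hk]
      · have : ¬ g k = g i := fun h => hk h.symm
        simp [hk, this]
    rw [Finset.sum_congr rfl h3]
    rw [Finset.sum_comp (fun m => h m) g]
    refine Finset.sum_congr rfl fun m _ => ?_
    simp only [hh, nsmul_eq_mul]
    ring
  rw [h1, h2]
  exact sq_sum_le_card_mul_sum_sq

lemma lintegral_ind_inter (B : ι → Set E3) (hB : ∀ i, MeasurableSet (B i)) (c : ι → ι → Prop)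
    [∀ i k, Decidable (c i k)] :
    ∫⁻ s, ∑ i, ∑ k, (if c i k then (B i ∩ B k).indicator (fun _ => (1 : ℝ≥0∞)) s else 0)
      = ∑ i, ∑ k, (if c i k then volume (B i ∩ B k) else 0) := by
  rw [lintegral_finsetSum']
  · refine Finset.sum_congr rfl fun i _ => ?_
    rw [lintegral_finsetSum']
    · refine Finset.sum_congr rfl fun k _ => ?_
      split_ifs with h
      · rw [lintegral_indicator ((hB i).inter (hB k))]
        simp
      · simp
    · intro k _
      split_ifs with h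
      · exact (measurable_const.indicator ((hB i).inter (hB k))).aemeasurable
      · exact aemeasurable_const
  · intro i _
    refine Finset.aemeasurable_fun_sum _ fun k _ => ?_
    split_ifs with h
    · exact (measurable_const.indicator ((hB i).inter (hB k))).aemeasurable
    · exact aemeasurable_const

/-- Pointwise values of the double indicator sum. -/
lemma sum_ind_inter_eq (B : ι → Set E3) (s : E3) (c : ι → ι → Prop) [∀ i k, Decidable (c i k)]
    [∀ i, Decidable (s ∈ B i)] :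
    ∑ i, ∑ k, (if c i k then (B i ∩ B k).indicator (fun _ => (1 : ℝ≥0∞)) s else 0)
      = ENNReal.ofReal (∑ i ∈ Finset.univ.filter (fun i => s ∈ B i),
          ∑ k ∈ Finset.univ.filter (fun i => s ∈ B i), (if c i k then (1 : ℝ) else 0)) := by
  rw [ENNReal.ofReal_sum_of_nonneg]
  · rw [Finset.sum_filter]
    refine Finset.sum_congr rfl fun i _ => ?_
    by_cases hi : s ∈ B i
    · rw [if_pos hi, ENNReal.ofReal_sum_of_nonneg]
      · rw [Finset.sum_filter]
        refine Finset.sum_congr rfl fun k _ => ?_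
        by_cases hk : s ∈ B k
        · by_cases hc : c i k <;> simp [hc, hi, hk, Set.indicator]
        · by_cases hc : c i k <;> simp [hc, hi, hk, Set.indicator]
      · intro k _
        split_ifs <;> norm_num
    · rw [if_neg hi]
      refine Finset.sum_eq_zero fun k _ => ?_
      by_cases hc : c i k <;> simp [hc, hi, Set.indicator]
  · intro i _
    refine Finset.sum_nonneg fun k _ => ?_
    split_ifs <;> norm_num

/-- Young type bound for the Kac kernel against grid occupation numbers. -/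
theorem kac_young {l ρ : ℝ} (hl : 0 < l) (hρ : 0 < ρ) (t : ℝ) (x : ι → E3) :
    ∑ i, ∑ k, kac ρ ‖x i - x k‖
      ≤ ((ρ + 2 * l) ^ 3 / (ρ ^ 3 * l ^ 3)) *
        ∑ i, ∑ k, (if idx l t (x i) = idx l t (x k) then (1 : ℝ) else 0) := by
  classical
  have hv := v1_pos
  set B : ι → Set E3 := fun i => ball (x i) ρ with hB
  have hBm : ∀ i, MeasurableSet (B i) := fun i => measurableSet_ball
  set C : ℝ := (ρ + 2 * l) ^ 3 * v1 / l ^ 3 with hC
  have hCpos : 0 < C := by positivity
  -- pointwise inequality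
  have hpt : ∀ s : E3,
      (∑ i, ∑ k, (if True then (B i ∩ B k).indicator (fun _ => (1 : ℝ≥0∞)) s else 0))
        ≤ ENNReal.ofReal C * ∑ i, ∑ k, (if idx l t (x i) = idx l t (x k) then
            (B i ∩ B k).indicator (fun _ => (1 : ℝ≥0∞)) s else 0) := by
    intro s
    rw [sum_ind_inter_eq B s, sum_ind_inter_eq B s, ← ENNReal.ofReal_mul hCpos.le]
    refine ENNReal.ofReal_le_ofReal ?_
    set A := Finset.univ.filter (fun i => s ∈ B i) with hA
    have hAmem : ∀ i ∈ A, x i ∈ ball s ρ := by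
      intro i hi
      have : s ∈ B i := (Finset.mem_filter.mp hi).2
      rw [hB] at this
      simpa [mem_ball, dist_comm] using this
    have h1 := card_sq_le_same A (fun i => idx l t (x i))
    have h2 := card_image_idx_le hl hρ t x s A hAmem
    have h3 : (0 : ℝ) ≤ ∑ i ∈ A, ∑ k ∈ A,
        (if idx l t (x i) = idx l t (x k) then (1 : ℝ) else 0) :=
      Finset.sum_nonneg fun _ _ => Finset.sum_nonneg fun _ _ => by split_ifs <;> norm_num
    have h4 : ∑ i ∈ A, ∑ k ∈ A, (if True then (1 : ℝ) else 0) = (A.card : ℝ) ^ 2 := by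
      simp [sq]
    rw [h4]
    calc (A.card : ℝ) ^ 2 ≤ _ := h1
      _ ≤ C * _ := mul_le_mul_of_nonneg_right h2 h3
  -- integrate
  have hint := lintegral_mono (μ := (volume : Measure E3)) hpt
  rw [lintegral_ind_inter B hBm (fun _ _ => True), lintegral_const_mul' _ _ ENNReal.ofReal_ne_top,
    lintegral_ind_inter B hBm (fun i k => idx l t (x i) = idx l t (x k))] at hint
  have hfin : ∀ i k, volume (B i ∩ B k) ≠ ⊤ := fun i k =>
    ((measure_mono Set.inter_subset_left).trans_lt measure_ball_lt_top).ne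
  have hreal : ∑ i, ∑ k, (lensVol ρ ‖x i - x k‖)
      ≤ C * ∑ i, ∑ k, (if idx l t (x i) = idx l t (x k) then lensVol ρ ‖x i - x k‖ else 0) := by
    have hL : ∀ i k, volume (B i ∩ B k) = ENNReal.ofReal (lensVol ρ ‖x i - x k‖) := fun i k =>
      volume_inter_ball _ _ _
    have e1 : ∑ i, ∑ k, (if True then volume (B i ∩ B k) else 0)
        = ENNReal.ofReal (∑ i, ∑ k, lensVol ρ ‖x i - x k‖) := by
      rw [ENNReal.ofReal_sum_of_nonneg fun _ _ => Finset.sum_nonneg fun _ _ => lensVol_nonneg _ _]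
      refine Finset.sum_congr rfl fun i _ => ?_
      rw [ENNReal.ofReal_sum_of_nonneg fun _ _ => lensVol_nonneg _ _]
      refine Finset.sum_congr rfl fun k _ => ?_
      simp [hL]
    have e2 : ∑ i, ∑ k, (if idx l t (x i) = idx l t (x k) then volume (B i ∩ B k) else 0)
        = ENNReal.ofReal (∑ i, ∑ k, (if idx l t (x i) = idx l t (x k) then
            lensVol ρ ‖x i - x k‖ else 0)) := by
      rw [ENNReal.ofReal_sum_of_nonneg fun _ _ => Finset.sum_nonneg fun _ _ => by
        split_ifs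
        · exact lensVol_nonneg _ _
        · exact le_rfl]
      refine Finset.sum_congr rfl fun i _ => ?_
      rw [ENNReal.ofReal_sum_of_nonneg fun _ _ => by
        split_ifs
        · exact lensVol_nonneg _ _
        · exact le_rfl]
      refine Finset.sum_congr rfl fun k _ => ?_
      split_ifs
      · exact hL i k
      · simp
    rw [e1, e2, ← ENNReal.ofReal_mul hCpos.le] at hint
    have hnn : 0 ≤ C * ∑ i, ∑ k, (if idx l t (x i) = idx l t (x k) then
        lensVol ρ ‖x i - x k‖ else 0) :=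
      mul_nonneg hCpos.le (Finset.sum_nonneg fun _ _ => Finset.sum_nonneg fun _ _ => by
        split_ifs
        · exact lensVol_nonneg _ _
        · exact le_rfl)
    exact (ENNReal.ofReal_le_ofReal_iff hnn).mp hint
  -- pass from lens volumes to the kernel
  have hV : 0 < ρ ^ 3 * v1 := by positivity
  have hsame : ∑ i, ∑ k, (if idx l t (x i) = idx l t (x k) then lensVol ρ ‖x i - x k‖ else 0)
      ≤ (ρ ^ 3 * v1) * ∑ i, ∑ k, (if idx l t (x i) = idx l t (x k) then (1 : ℝ) else 0) := by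
    rw [Finset.mul_sum]
    refine Finset.sum_le_sum fun i _ => ?_
    rw [Finset.mul_sum]
    refine Finset.sum_le_sum fun k _ => ?_
    split_ifs
    · simpa using lensVol_le hρ.le _
    · simp
  have hkac : ∑ i, ∑ k, kac ρ ‖x i - x k‖
      = (∑ i, ∑ k, lensVol ρ ‖x i - x k‖) / (ρ ^ 3 * v1) ^ 2 := by
    unfold kac
    rw [Finset.sum_div]
    refine Finset.sum_congr rfl fun i _ => ?_
    rw [Finset.sum_div]
  rw [hkac, div_le_iff₀ (by positivity)]
  calc ∑ i, ∑ k, lensVol ρ ‖x i - x k‖ ≤ C * _ := hreal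
    _ ≤ C * ((ρ ^ 3 * v1) * ∑ i, ∑ k, (if idx l t (x i) = idx l t (x k) then (1 : ℝ) else 0)) :=
        mul_le_mul_of_nonneg_left hsame hCpos.le
    _ = _ := by
        rw [hC]
        field_simp

/-- Pointwise value of the simple indicator sum. -/
lemma sum_ind_eq (B : ι → Set E3) (s : E3) [∀ i, Decidable (s ∈ B i)] :
    ∑ i, (B i).indicator (fun _ => (1 : ℝ≥0∞)) s
      = ENNReal.ofReal ((Finset.univ.filter (fun i => s ∈ B i)).card : ℝ) := by
  rw [ENNReal.ofReal_natCast, Finset.card_filter]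
  push_cast
  refine Finset.sum_congr rfl fun i _ => ?_
  by_cases hi : s ∈ B i <;> simp [hi, Set.indicator]

/-- Lower bound for the Kac energy from completing the square against a constant field. -/
theorem kac_field_lower {ρ L y : ℝ} (hρ : 0 < ρ) (hL : 0 ≤ L) (hy : 0 ≤ y) (x : ι → E3)
    (hx : ∀ i, x i ∈ cube L) :
    2 * y * (Fintype.card ι : ℝ) ≤ ∑ i, ∑ k, kac ρ ‖x i - x k‖ + y ^ 2 * (L + 2 * ρ) ^ 3 := by
  classical
  have hv := v1_pos
  set v : ℝ := ρ ^ 3 * v1 with hvdef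
  have hvpos : 0 < v := by positivity
  set B : ι → Set E3 := fun i => ball (x i) ρ with hB
  have hBm : ∀ i, MeasurableSet (B i) := fun i => measurableSet_ball
  set S : Set E3 := {s | ∀ j, s j ∈ Set.Icc (-ρ) (L + ρ)} with hS
  have hSm : MeasurableSet S := measurableSet_coord_prod _ fun _ => measurableSet_Icc
  have hSvol : volume S = ENNReal.ofReal ((L + 2 * ρ) ^ 3) := by
    rw [hS, volume_coord_prod _ (fun _ => measurableSet_Icc)]
    simp only [Real.volume_Icc, Fin.prod_univ_three]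
    have : L + ρ - -ρ = L + 2 * ρ := by ring
    rw [this, ← ENNReal.ofReal_mul (by positivity), ← ENNReal.ofReal_mul (by positivity)]
    congr 1
    ring
  have hBS : ∀ i, B i ⊆ S := by
    intro i s hs j
    have h1 : ‖s - x i‖ < ρ := by simpa [dist_eq_norm, hB] using hs
    have h2 := PiLp.norm_apply_le (s - x i) j
    have h3 : |s j - x i j| < ρ := by
      have : ‖(s - x i) j‖ = |s j - x i j| := by simp [Real.norm_eq_abs]
      linarith
    have h4 := hx i j
    rw [abs_lt] at h3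
    exact ⟨by linarith [h4.1], by linarith [h4.2]⟩
  -- pointwise inequality
  have hpt : ∀ s : E3,
      ENNReal.ofReal (2 * (y * v)) * ∑ i, (B i).indicator (fun _ => (1 : ℝ≥0∞)) s
        ≤ ∑ i, ∑ k, (if True then (B i ∩ B k).indicator (fun _ => (1 : ℝ≥0∞)) s else 0)
          + ENNReal.ofReal ((y * v) ^ 2) * S.indicator (fun _ => (1 : ℝ≥0∞)) s := by
    intro s
    rw [sum_ind_eq B s, sum_ind_inter_eq B s, ← ENNReal.ofReal_mul (by positivity)]
    set A := Finset.univ.filter (fun i => s ∈ B i) with hA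
    have h4 : ∑ i ∈ A, ∑ k ∈ A, (if True then (1 : ℝ) else 0) = (A.card : ℝ) ^ 2 := by
      simp [sq]
    rw [h4]
    by_cases hs : s ∈ S
    · rw [Set.indicator_of_mem hs, mul_one, ← ENNReal.ofReal_add (by positivity) (by positivity)]
      refine ENNReal.ofReal_le_ofReal ?_
      nlinarith [sq_nonneg ((A.card : ℝ) - y * v)]
    · have hA0 : A = ∅ := by
        rw [hA, Finset.filter_eq_empty_iff]
        intro i _ hi
        exact hs (hBS i hi)
      rw [hA0]
      simp
  have hint := lintegral_mono (μ := (volume : Measure E3)) hpt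
  have hL1 : ∫⁻ s, ENNReal.ofReal (2 * (y * v)) * ∑ i, (B i).indicator (fun _ => (1 : ℝ≥0∞)) s
      = ENNReal.ofReal (2 * (y * v)) * ((Fintype.card ι : ℝ≥0∞) * ENNReal.ofReal v) := by
    rw [lintegral_const_mul' _ _ ENNReal.ofReal_ne_top, lintegral_finsetSum']
    · congr 1
      have : ∀ i ∈ (Finset.univ : Finset ι),
          ∫⁻ s, (B i).indicator (fun _ => (1 : ℝ≥0∞)) s = ENNReal.ofReal v := by
        intro i _
        rw [lintegral_indicator (hBm i)]
        simp only [lintegral_const, MeasurableSet.univ, Measure.restrict_apply, Set.univ_inter,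
          one_mul]
        rw [hB]
        exact volume_ball_E3 _ hρ.le
      rw [Finset.sum_congr rfl this]
      simp
    · intro i _
      exact (measurable_const.indicator (hBm i)).aemeasurable
  have hR : ∫⁻ s, (∑ i, ∑ k, (if True then (B i ∩ B k).indicator (fun _ => (1 : ℝ≥0∞)) s else 0)
          + ENNReal.ofReal ((y * v) ^ 2) * S.indicator (fun _ => (1 : ℝ≥0∞)) s)
      = ENNReal.ofReal (∑ i, ∑ k, lensVol ρ ‖x i - x k‖)
        + ENNReal.ofReal ((y * v) ^ 2) * ENNReal.ofReal ((L + 2 * ρ) ^ 3) := by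
    rw [lintegral_add_right _ ((measurable_const.indicator hSm).const_mul _)]
    congr 1
    · rw [lintegral_ind_inter B hBm (fun _ _ => True)]
      rw [ENNReal.ofReal_sum_of_nonneg fun _ _ => Finset.sum_nonneg fun _ _ => lensVol_nonneg _ _]
      refine Finset.sum_congr rfl fun i _ => ?_
      rw [ENNReal.ofReal_sum_of_nonneg fun _ _ => lensVol_nonneg _ _]
      refine Finset.sum_congr rfl fun k _ => ?_
      simp only [if_true]
      exact volume_inter_ball _ _ _
    · rw [lintegral_const_mul' _ _ ENNReal.ofReal_ne_top, lintegral_indicator hSm]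
      simp [hSvol]
  rw [hL1, hR] at hint
  have hlens : 0 ≤ ∑ i, ∑ k, lensVol ρ ‖x i - x k‖ :=
    Finset.sum_nonneg fun _ _ => Finset.sum_nonneg fun _ _ => lensVol_nonneg _ _
  have hreal : 2 * (y * v) * ((Fintype.card ι : ℝ) * v)
      ≤ ∑ i, ∑ k, lensVol ρ ‖x i - x k‖ + (y * v) ^ 2 * (L + 2 * ρ) ^ 3 := by
    rw [← ENNReal.ofReal_natCast, ← ENNReal.ofReal_mul (by positivity),
      ← ENNReal.ofReal_mul (by positivity), ← ENNReal.ofReal_mul (by positivity),
      ← ENNReal.ofReal_add hlens (by positivity)] at hint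
    exact (ENNReal.ofReal_le_ofReal_iff (by positivity)).mp hint
  have hkac : ∑ i, ∑ k, kac ρ ‖x i - x k‖ = (∑ i, ∑ k, lensVol ρ ‖x i - x k‖) / v ^ 2 := by
    unfold kac
    rw [Finset.sum_div]
    refine Finset.sum_congr rfl fun i _ => ?_
    rw [Finset.sum_div]
  rw [hkac]
  have hv2 : 0 < v ^ 2 := by positivity
  have : (2 * y * (Fintype.card ι : ℝ)) * v ^ 2
      ≤ ((∑ i, ∑ k, lensVol ρ ‖x i - x k‖) / v ^ 2 + y ^ 2 * (L + 2 * ρ) ^ 3) * v ^ 2 := by
    rw [add_mul, div_mul_cancel₀ _ hv2.ne']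
    nlinarith [hreal]
  exact le_of_mul_le_mul_right this hv2

end young

section fraction

lemma card_bad_floor {l : ℕ} (hl : 0 < l) {a b : ℝ} (hab : a ≤ b) :
    (((Finset.range l).filter (fun t : ℕ => ⌊(a - t) / (l : ℝ)⌋ ≠ ⌊(b - t) / (l : ℝ)⌋)).card : ℝ)
      ≤ b - a + 1 := by
  classical
  have hl' : (0 : ℝ) < (l : ℝ) := by exact_mod_cast hl
  set f : ℕ → ℤ := fun t => (t : ℤ) + ⌊(b - t) / (l : ℝ)⌋ * (l : ℤ) with hf
  have hmaps : ∀ t ∈ (Finset.range l).filter (fun t : ℕ => ⌊(a - t) / (l : ℝ)⌋ ≠ ⌊(b - t) / (l : ℝ)⌋),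
      f t ∈ Finset.Ioc ⌊a⌋ ⌊b⌋ := by
    intro t ht
    have hne := (Finset.mem_filter.mp ht).2
    have hle : ⌊(a - t) / (l : ℝ)⌋ ≤ ⌊(b - t) / (l : ℝ)⌋ :=
      Int.floor_le_floor (div_le_div_of_nonneg_right (by linarith) hl'.le)
    have hlt : ⌊(a - t) / (l : ℝ)⌋ < ⌊(b - t) / (l : ℝ)⌋ := lt_of_le_of_ne hle hne
    set k := ⌊(b - t) / (l : ℝ)⌋ with hk
    have h1 : (a - t) / (l : ℝ) < k := Int.floor_lt.mp hlt
    have h2 : (k : ℝ) ≤ (b - t) / (l : ℝ) := Int.floor_le _
    rw [div_lt_iff₀ hl'] at h1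
    rw [le_div_iff₀ hl'] at h2
    rw [Finset.mem_Ioc]
    constructor
    · rw [Int.floor_lt]
      simp only [hf]
      push_cast
      linarith
    · rw [Int.le_floor]
      simp only [hf]
      push_cast
      linarith
  have hinj : Set.InjOn f (↑((Finset.range l).filter
      (fun t : ℕ => ⌊(a - t) / (l : ℝ)⌋ ≠ ⌊(b - t) / (l : ℝ)⌋))) := by
    intro t ht t' ht' heq
    have ht1 : t < l := Finset.mem_range.mp (Finset.mem_filter.mp ht).1
    have ht2 : t' < l := Finset.mem_range.mp (Finset.mem_filter.mp ht').1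
    simp only [hf] at heq
    have h3 : ((t : ℤ) - t') = (⌊(b - t') / (l : ℝ)⌋ - ⌊(b - t) / (l : ℝ)⌋) * (l : ℤ) := by
      linarith
    have h4 : (l : ℤ) ∣ ((t : ℤ) - t') := Dvd.intro_left _ h3.symm
    have h5 : |(t : ℤ) - t'| < l := by
      rw [abs_lt]
      constructor <;> omega
    have h6 := Int.eq_zero_of_abs_lt_dvd h4 h5
    omega
  have hcard := Finset.card_le_card_of_injOn f hmaps hinj
  rw [Int.card_Ioc] at hcard
  have h7 : (((Finset.range l).filter
      (fun t : ℕ => ⌊(a - t) / (l : ℝ)⌋ ≠ ⌊(b - t) / (l : ℝ)⌋)).card : ℤ) ≤ ⌊b⌋ - ⌊a⌋ := by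
    have h8 : ⌊a⌋ ≤ ⌊b⌋ := Int.floor_le_floor hab
    have := Int.toNat_of_nonneg (sub_nonneg.mpr h8)
    omega
  have h9 : (((Finset.range l).filter
      (fun t : ℕ => ⌊(a - t) / (l : ℝ)⌋ ≠ ⌊(b - t) / (l : ℝ)⌋)).card : ℝ) ≤ (⌊b⌋ : ℝ) - ⌊a⌋ := by
    exact_mod_cast h7
  have h10 := Int.floor_le b
  have h11 := Int.lt_floor_add_one a
  linarith

lemma card_bad_floor_abs {l : ℕ} (hl : 0 < l) (a b : ℝ) :
    (((Finset.range l).filter (fun t : ℕ => ⌊(a - t) / (l : ℝ)⌋ ≠ ⌊(b - t) / (l : ℝ)⌋)).card : ℝ)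
      ≤ |a - b| + 1 := by
  rcases le_total a b with h | h
  · have := card_bad_floor hl h
    rw [abs_of_nonpos (by linarith)]
    linarith
  · have := card_bad_floor hl h
    rw [abs_of_nonneg (by linarith)]
    simp only [ne_comm] at this ⊢
    have e : (fun t : ℕ => ¬ ⌊(a - t) / (l : ℝ)⌋ = ⌊(b - t) / (l : ℝ)⌋)
        = (fun t : ℕ => ¬ ⌊(b - t) / (l : ℝ)⌋ = ⌊(a - t) / (l : ℝ)⌋) := by
      funext t
      simp [eq_comm]
    linarith [this]

/-- Few diagonal offsets separate two nearby points. -/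
lemma card_idx_ne_le {l : ℕ} (hl : 0 < l) (x y : E3) :
    (((Finset.range l).filter (fun t : ℕ => idx (l : ℝ) (t : ℝ) x ≠ idx (l : ℝ) (t : ℝ) y)).card : ℝ)
      ≤ 3 * (‖x - y‖ + 1) := by
  classical
  have hsub : (Finset.range l).filter (fun t : ℕ => idx (l : ℝ) (t : ℝ) x ≠ idx (l : ℝ) (t : ℝ) y)
      ⊆ Finset.univ.biUnion (fun j : Fin 3 => (Finset.range l).filter
          (fun t : ℕ => ⌊(x j - t) / (l : ℝ)⌋ ≠ ⌊(y j - t) / (l : ℝ)⌋)) := by
    intro t ht
    rw [Finset.mem_filter] at ht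
    obtain ⟨ht1, ht2⟩ := ht
    rw [Finset.mem_biUnion]
    have : ∃ j, idx (l : ℝ) (t : ℝ) x j ≠ idx (l : ℝ) (t : ℝ) y j := by
      by_contra hcon
      simp only [not_exists, not_not] at hcon
      exact ht2 (funext hcon)
    obtain ⟨j, hj⟩ := this
    exact ⟨j, Finset.mem_univ j, Finset.mem_filter.mpr ⟨ht1, hj⟩⟩
  have h1 := Finset.card_le_card hsub
  have h2 := Finset.card_biUnion_le (s := (Finset.univ : Finset (Fin 3)))
    (t := fun j : Fin 3 => (Finset.range l).filter
          (fun t : ℕ => ⌊(x j - t) / (l : ℝ)⌋ ≠ ⌊(y j - t) / (l : ℝ)⌋))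
  have h3 : ((Finset.range l).filter (fun t : ℕ => idx (l : ℝ) (t : ℝ) x ≠ idx (l : ℝ) (t : ℝ) y)).card
      ≤ ∑ j : Fin 3, ((Finset.range l).filter
          (fun t : ℕ => ⌊(x j - t) / (l : ℝ)⌋ ≠ ⌊(y j - t) / (l : ℝ)⌋)).card := h1.trans h2
  have h4 : ∀ j : Fin 3, (((Finset.range l).filter
          (fun t : ℕ => ⌊(x j - t) / (l : ℝ)⌋ ≠ ⌊(y j - t) / (l : ℝ)⌋)).card : ℝ) ≤ ‖x - y‖ + 1 := by
    intro j
    have h5 := card_bad_floor_abs hl (x j) (y j)
    have h6 := PiLp.norm_apply_le (x - y) j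
    have h7 : ‖(x - y) j‖ = |x j - y j| := by simp [Real.norm_eq_abs]
    linarith
  calc (((Finset.range l).filter (fun t : ℕ => idx (l : ℝ) (t : ℝ) x ≠ idx (l : ℝ) (t : ℝ) y)).card : ℝ)
      ≤ ((∑ j : Fin 3, ((Finset.range l).filter
          (fun t : ℕ => ⌊(x j - t) / (l : ℝ)⌋ ≠ ⌊(y j - t) / (l : ℝ)⌋)).card : ℕ) : ℝ) := by
        exact_mod_cast h3
    _ ≤ 3 * (‖x - y‖ + 1) := by
        push_cast
        rw [Fin.sum_univ_three]
        linarith [h4 0, h4 1, h4 2]

end fraction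

end Vale.Agent.Lib.P171
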