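import Vale.Agent.Lib.P171.LP

open MeasureTheory Set Filter Topology Metric
open scoped ENNReal

namespace Vale.Agent.Lib.P171

/-- Strength of the attraction at stage `J`. -/
noncomputable def cj (J : ℕ) : ℝ := 4400 / 2 ^ J

/-- Relative width of the near-kink at stage `J`. -/
noncomputable def ej (J : ℕ) : ℝ := (1 / 400) / 4 ^ J

/-- Width of the near-kink at stage `J`. -/
noncomputable def hj (J : ℕ) : ℝ := ej J * cj J

/-- Strength of the near-kink at stage `J`. -/
noncomputable def wj (J : ℕ) : ℝ := 29 / 400 + 3 * ej J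

/-- The height of the repulsive core. -/
noncomputable def A0 : ℝ := 4000000

/-- Partial sums of the strengths. -/
noncomputable def Tj (J : ℕ) : ℝ := 8800 - 8800 / 2 ^ J

/-- The attraction after `J` stages. -/
noncomputable def chiJ (ρ : ℕ → ℝ) (J : ℕ) : ℝ → ℝ :=
  fun r => ∑ j ∈ Finset.range J, cj j * kac (ρ j) r

/-- The pressure after `J` stages. -/
noncomputable def PJ (ρ : ℕ → ℝ) (J : ℕ) : ℝ → ℝ := pr (pot A0 (chiJ ρ J))

lemma cj_pos (J : ℕ) : 0 < cj J := by
  unfold cj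
  positivity

lemma ej_pos (J : ℕ) : 0 < ej J := by
  unfold ej
  positivity

lemma hj_pos (J : ℕ) : 0 < hj J := mul_pos (ej_pos J) (cj_pos J)

lemma cj_succ (J : ℕ) : cj (J + 1) = cj J / 2 := by
  unfold cj
  rw [pow_succ]
  field_simp

lemma ej_succ (J : ℕ) : ej (J + 1) = ej J / 4 := by
  unfold ej
  rw [pow_succ]
  field_simp

lemma ej_le (J : ℕ) : ej J ≤ 1 / 400 := by
  unfold ej
  have : (1 : ℝ) ≤ 4 ^ J := one_le_pow₀ (by norm_num)
  exact div_le_self (by norm_num) this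

lemma cj_le (J : ℕ) : cj J ≤ 4400 := by
  unfold cj
  have : (1 : ℝ) ≤ 2 ^ J := one_le_pow₀ (by norm_num)
  exact div_le_self (by norm_num) this

lemma hj_le (J : ℕ) : hj J ≤ 11 := by
  unfold hj
  have h1 := ej_le J
  have h2 := cj_le J
  have h3 := ej_pos J
  have h4 := cj_pos J
  nlinarith

lemma wj_ge (J : ℕ) : 29 / 400 ≤ wj J := by
  unfold wj
  have := ej_pos J
  linarith

lemma wj_le (J : ℕ) : wj J ≤ 2 / 25 := by
  unfold wj
  have := ej_le J
  linarith

lemma Tj_succ (J : ℕ) : Tj (J + 1) = Tj J + cj J := by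
  unfold Tj cj
  rw [pow_succ]
  field_simp
  ring

lemma Tj_zero : Tj 0 = 0 := by
  unfold Tj
  norm_num

lemma Tj_nonneg (J : ℕ) : 0 ≤ Tj J := by
  unfold Tj
  have : (1 : ℝ) ≤ 2 ^ J := one_le_pow₀ (by norm_num)
  have h2 : 8800 / (2 : ℝ) ^ J ≤ 8800 := div_le_self (by norm_num) this
  linarith

lemma Tj_le (J : ℕ) : Tj J ≤ 8800 := by
  unfold Tj
  have : 0 < 8800 / (2 : ℝ) ^ J := by positivity
  linarith

lemma attr_chiJ {ρ : ℕ → ℝ} {J : ℕ} (hρ : ∀ j < J, 1 ≤ ρ j) :
    Attr (chiJ ρ J) (125 * Tj J) := by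
  induction J with
  | zero =>
    have e : chiJ ρ 0 = fun _ => 0 := by
      funext r
      simp [chiJ]
    rw [e, Tj_zero]
    simpa using Attr.zero
  | succ J ih =>
    have e : chiJ ρ (J + 1) = fun r => chiJ ρ J r + cj J * kac (ρ J) r := by
      funext r
      simp [chiJ, Finset.sum_range_succ]
    rw [e, Tj_succ]
    have h1 := ih fun j hj => hρ j (by omega)
    have h2 := (attr_kac (hρ J (by omega))).smul (cj_pos J).le
    refine (h1.add h2).mono (le_of_eq ?_)
    ring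

/-- A cutoff radius for the attraction after `J` stages. -/
noncomputable def Rj (ρ : ℕ → ℝ) (J : ℕ) : ℝ := 1 + 2 * ∑ j ∈ Finset.range J, ρ j

lemma Rj_ge {ρ : ℕ → ℝ} {J : ℕ} (hρ : ∀ j < J, 1 ≤ ρ j) : 1 ≤ Rj ρ J := by
  unfold Rj
  have : 0 ≤ ∑ j ∈ Finset.range J, ρ j := Finset.sum_nonneg fun j hj => by
    have := hρ j (Finset.mem_range.mp hj)
    linarith
  linarith

lemma chiJ_supp {ρ : ℕ → ℝ} {J : ℕ} (hρ : ∀ j < J, 1 ≤ ρ j) (r : ℝ) (hr : Rj ρ J ≤ r) :
    chiJ ρ J r = 0 := by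
  unfold chiJ
  refine Finset.sum_eq_zero fun j hj => ?_
  have hj' := Finset.mem_range.mp hj
  have h1 := hρ j hj'
  have h2 : ρ j ≤ ∑ i ∈ Finset.range J, ρ i :=
    Finset.single_le_sum (f := ρ) (fun i hi => by
      have := hρ i (Finset.mem_range.mp hi)
      linarith) hj
  have h3 : 2 * ρ j ≤ r := by
    unfold Rj at hr
    linarith
  rw [kac_eq_zero h3 (by linarith), mul_zero]

lemma setup_J {ρ : ℕ → ℝ} {J : ℕ} (hρ : ∀ j < J, 1 ≤ ρ j) :
    Setup A0 (125 * Tj J) (cj J) (Rj ρ J) (chiJ ρ J) := by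
  have h1 := Tj_nonneg J
  have h2 := Tj_le J
  have h3 := cj_le J
  refine ⟨attr_chiJ hρ, by positivity, cj_pos J, Rj_ge hρ, chiJ_supp hρ, ?_, ?_⟩
  · unfold A0
    linarith
  · unfold A0
    linarith

lemma chiJ_congr {ρ ρ' : ℕ → ℝ} {J : ℕ} (h : ∀ j < J, ρ j = ρ' j) : chiJ ρ J = chiJ ρ' J := by
  funext r
  refine Finset.sum_congr rfl fun j hj => ?_
  rw [h j (Finset.mem_range.mp hj)]

lemma chiJ_update (ρ : ℕ → ℝ) (J : ℕ) (x : ℝ) :
    chiJ (Function.update ρ J x) (J + 1) = fun r => chiJ ρ J r + cj J * kac x r := by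
  funext r
  simp only [chiJ, Finset.sum_range_succ, Function.update_self]
  congr 1
  refine Finset.sum_congr rfl fun j hj => ?_
  have : j ≠ J := (Finset.mem_range.mp hj).ne
  rw [Function.update_of_ne this]

/-- The inductive statement. -/
structure Inv (J : ℕ) (ρ : ℕ → ℝ) (m : ℝ) : Prop where
  rho : ∀ j < J, 1 ≤ ρ j
  loc : m + (2 / 25) * cj J ≤ 349
  K : wj J * hj J ≤ PJ ρ J (m + hj J) + PJ ρ J (m - hj J) - 2 * PJ ρ J m

lemma Inv.congr {J : ℕ} {ρ ρ' : ℕ → ℝ} {m : ℝ} (h : Inv J ρ m) (e : ∀ j < J, ρ j = ρ' j) :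
    Inv J ρ' m := by
  have e' : PJ ρ' J = PJ ρ J := by
    unfold PJ
    rw [chiJ_congr e]
  refine ⟨fun j hj => ?_, h.loc, ?_⟩
  · rw [← e j hj]
    exact h.rho j hj
  · rw [e']
    exact h.K

/-- The arithmetic of one step of the induction. -/
lemma step_arith {J : ℕ} {Pp Pm P0 Sp Sm S0 t : ℝ} (ht : t = hj (J + 1))
    (hS : t * (wj J - 2 * hj J / cj J) - t ^ 2 / cj J ≤ Sp + Sm - 2 * S0)
    (h1 : Sp - t * ej (J + 1) / 8 < Pp) (h2 : Sm - t * ej (J + 1) / 8 < Pm)
    (h3 : P0 < S0 + t * ej (J + 1) / 8) :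
    wj (J + 1) * t ≤ Pp + Pm - 2 * P0 := by
  have hc := cj_pos J
  have e1 : 2 * hj J / cj J = 2 * ej J := by
    unfold hj
    field_simp
  have e2 : t ^ 2 / cj J = t * (ej (J + 1) / 2) := by
    rw [ht]
    unfold hj
    rw [cj_succ]
    field_simp
  rw [e1, e2] at hS
  have e3 : wj (J + 1) = wj J - 2 * ej J - ej (J + 1) := by
    unfold wj
    rw [ej_succ]
    ring
  rw [e3]
  nlinarith

/-- One step of the induction. -/
theorem Inv.step {J : ℕ} {ρ : ℕ → ℝ} {m : ℝ} (h : Inv J ρ m) :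
    ∃ x m', Inv (J + 1) (Function.update ρ J x) m' := by
  have hs := setup_J h.rho
  have hadm := hs.adm
  have hc := cj_pos J
  have hw4 : 4 * hj J < cj J * wj J := by
    have h1 := ej_le J
    have h2 := wj_ge J
    unfold hj
    nlinarith
  have hb0 : ∀ ν, pr (pot A0 (chiJ ρ J)) ν ≤ (1 / (4 * cj J)) * ν ^ 2
      + (27 * (0 + A0 / 2) ^ 2 / (A0 - 2 * (125 * Tj J)) + 1) := by
    intro ν
    have := hs.bound 0 ν
    simpa using this
  have ha1 : 1 / (4 * cj J) < 1 / (2 * cj J) :=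
    one_div_lt_one_div_of_lt (by positivity) (by linarith)
  obtain ⟨μ', hμ', hkink⟩ := kink_lemma (pr_convex hadm) (pr_mono hadm) (pr_nonneg hadm) hc ha1 hb0
    (hj_pos J) h.K hw4
  set t : ℝ := hj (J + 1) with ht
  have ht0 : 0 < t := hj_pos _
  have hη : 0 < t * ej (J + 1) / 8 := by
    have := ej_pos (J + 1)
    positivity
  set η : ℝ := t * ej (J + 1) / 8 with hηdef
  have hk := hkink t ht0
  set S := lpS (pr (pot A0 (chiJ ρ J))) (cj J) with hSdef
  have e1 := lp_lower hs (μ' + t) (b' := S (μ' + t) - η) (by linarith)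
  have e2 := lp_lower hs (μ' - t) (b' := S (μ' - t) - η) (by linarith)
  have e3 := lp_upper hs μ' (b' := S μ' + η) (by linarith)
  obtain ⟨x, h1, h2, h3, hx⟩ := (e1.and (e2.and (e3.and (eventually_ge_atTop (1 : ℝ))))).exists
  have hP : PJ (Function.update ρ J x) (J + 1) = pr (addKac (pot A0 (chiJ ρ J)) (cj J) x) := by
    unfold PJ
    rw [addKac_pot, chiJ_update]
  have hρ' : ∀ j < J + 1, 1 ≤ Function.update ρ J x j := by
    intro j hj
    by_cases hjJ : j = J
    · subst hjJ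
      simpa using hx
    · rw [Function.update_of_ne hjJ]
      exact h.rho j (by omega)
  refine ⟨x, μ', hρ', ?_, ?_⟩
  · rw [cj_succ]
    have h4 := h.loc
    have h5 := wj_le J
    have h6 := hj_pos J
    nlinarith
  · rw [hP, ← ht]
    exact step_arith ht hk h1 h2 h3

/-- Pressure of the purely repulsive potential is small for negative log-activity. -/
lemma base_K (ρ : ℕ → ℝ) : wj 0 * hj 0 ≤ PJ ρ 0 (-3 + hj 0) + PJ ρ 0 (-3 - hj 0) - 2 * PJ ρ 0 (-3) := by
  have e0 : chiJ ρ 0 = fun _ => 0 := by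
    funext r
    simp [chiJ]
  have hh : hj 0 = 11 := by
    unfold hj ej cj
    norm_num
  have hw : wj 0 = 2 / 25 := by
    unfold wj ej
    norm_num
  have hattr : Attr (chiJ ρ 0) 0 := by
    rw [e0]
    exact Attr.zero
  have hA : (0 : ℝ) < A0 := by
    unfold A0
    norm_num
  have hadm := pot_adm hattr hA hA.le
  rw [hh, hw]
  unfold PJ
  have h1 : 1 ≤ pr (pot A0 (chiJ ρ 0)) (-3 + 11) := by
    refine le_trans ?_ (pr_ge_one_particle hadm _)
    rw [le_div_iff₀ (by norm_num)]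
    have e : (-3 + 11 : ℝ) = 8 := by norm_num
    rw [e]
    have h2 : (8 : ℝ) = Real.log (Real.exp 8) := (Real.log_exp 8).symm
    have h3 : Real.log (Real.exp 8) ≤ Real.log (1 + Real.exp 8) :=
      Real.log_le_log (Real.exp_pos _) (by linarith)
    linarith
  have h2 := pr_nonneg hadm (-3 - 11)
  have h3 : pr (pot A0 (chiJ ρ 0)) (-3) ≤ Real.exp (-3 + 0) := by
    refine pr_le_exp hadm (fun N x => ?_) (-3)
    rw [e0]
    have : 0 ≤ pairE (radK (pot A0 fun _ => 0)) x := by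
      unfold pairE
      refine mul_nonneg (by norm_num) (Finset.sum_nonneg fun i _ => Finset.sum_nonneg fun j _ => ?_)
      split_ifs
      · exact le_rfl
      · exact pot_zero_nonneg hA.le _
    simpa using this
  have h4 : Real.exp (-3 + 0) ≤ 3 / 50 := by
    have e : (-3 + 0 : ℝ) = -3 := by norm_num
    rw [e, Real.exp_neg, inv_le_comm₀ (Real.exp_pos _) (by norm_num)]
    have h5 : Real.exp 3 = Real.exp 1 ^ 3 := by
      rw [← Real.exp_nat_mul]
      norm_num
    rw [h5]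
    have h6 := Real.exp_one_gt_d9
    have h7 : (2.7 : ℝ) ≤ Real.exp 1 := by linarith
    have h8 : (2.7 : ℝ) ^ 3 ≤ Real.exp 1 ^ 3 := pow_le_pow_left₀ (by norm_num) h7 3
    norm_num at h8 ⊢
    linarith
  norm_num at h1 h2 h3 h4 ⊢
  linarith

lemma base_Inv (ρ : ℕ → ℝ) : Inv 0 ρ (-3) := by
  refine ⟨fun j hj => absurd hj (Nat.not_lt_zero j), ?_, base_K ρ⟩
  unfold cj
  norm_num

/-- The states of the recursive construction. -/
noncomputable def seqState : (J : ℕ) → {p : (ℕ → ℝ) × ℝ // Inv J p.1 p.2}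
  | 0 => ⟨(fun _ => 1, -3), base_Inv _⟩
  | J + 1 =>
    let s := seqState J
    let hex := Inv.step s.2
    ⟨(Function.update s.1.1 J (Classical.choose hex),
      Classical.choose (Classical.choose_spec hex)),
      Classical.choose_spec (Classical.choose_spec hex)⟩

/-- The radii of the construction. -/
noncomputable def rhoInf (j : ℕ) : ℝ := (seqState (j + 1)).1.1 j

/-- The near-kink locations of the construction. -/
noncomputable def mSeq (J : ℕ) : ℝ := (seqState J).1.2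

lemma seqState_rho (J j : ℕ) (hj : j < J) : (seqState J).1.1 j = rhoInf j := by
  induction J with
  | zero => exact absurd hj (Nat.not_lt_zero j)
  | succ J ih =>
    by_cases hjJ : j = J
    · subst hjJ
      rfl
    · have : j < J := by omega
      have e : (seqState (J + 1)).1.1 j = (seqState J).1.1 j := by
        simp only [seqState]
        rw [Function.update_of_ne hjJ]
      rw [e, ih this]

theorem inv_rhoInf (J : ℕ) : Inv J rhoInf (mSeq J) :=
  (seqState J).2.congr fun j hj => seqState_rho J j hj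

lemma rhoInf_ge (j : ℕ) : 1 ≤ rhoInf j := (inv_rhoInf (j + 1)).rho j (by omega)

end Vale.Agent.Lib.P171
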