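import Vale.Agent.Lib.P171.Blocks

open MeasureTheory Set Filter Topology Metric
open scoped ENNReal

namespace Vale.Agent.Lib.P171

/-- Volume of the unit ball. -/
noncomputable def v1 : ℝ := (volume (ball (0 : E3) 1)).toReal

lemma v1_pos : 0 < v1 := by
  unfold v1
  refine ENNReal.toReal_pos ?_ measure_ball_lt_top.ne
  exact (measure_ball_pos volume _ one_pos).ne'

lemma volume_ball_E3 (x : E3) {r : ℝ} (hr : 0 ≤ r) :
    volume (ball x r) = ENNReal.ofReal (r ^ 3 * v1) := by
  rw [Measure.addHaar_ball volume x hr]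
  have hf : Module.finrank ℝ E3 = 3 := by simp
  rw [hf, ENNReal.ofReal_mul (by positivity)]
  congr 1
  unfold v1
  rw [ENNReal.ofReal_toReal measure_ball_lt_top.ne]

/-- The unit vector along the first axis. -/
noncomputable def e0 : E3 := EuclideanSpace.single 0 1

lemma norm_e0 : ‖e0‖ = 1 := by simp [e0]

/-- Volume of the intersection of two balls of radius `ρ` with centres `r` apart. -/
noncomputable def lensVol (ρ r : ℝ) : ℝ :=
  (volume (ball (0 : E3) ρ ∩ ball (r • e0) ρ)).toReal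

lemma volume_inter_ball (x y : E3) (ρ : ℝ) :
    volume (ball x ρ ∩ ball y ρ) = ENNReal.ofReal (lensVol ρ ‖x - y‖) := by
  unfold lensVol
  rw [ENNReal.ofReal_toReal ((measure_mono Set.inter_subset_left).trans_lt measure_ball_lt_top).ne]
  set d := x - y with hd
  have hn : ‖d‖ = ‖‖d‖ • e0‖ := by
    rw [norm_smul, norm_e0]; simp
  set T := Submodule.reflection (Submodule.span ℝ {d - ‖d‖ • e0})ᗮ with hT
  have hTd : T d = ‖d‖ • e0 := Submodule.reflection_sub hn
  have hmp1 : MeasurePreserving (fun s : E3 => T (s - y)) volume volume := by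
    have h1 : MeasurePreserving (fun s : E3 => s - y) volume volume :=
      measurePreserving_sub_right volume y
    exact (T.measurePreserving).comp h1
  have hset : (fun s : E3 => T (s - y)) ⁻¹' (ball (0 : E3) ρ ∩ ball (‖d‖ • e0) ρ)
      = ball x ρ ∩ ball y ρ := by
    ext s
    simp only [Set.mem_preimage, Set.mem_inter_iff, mem_ball, dist_eq_norm, sub_zero]
    have h2 : T (s - y) - ‖d‖ • e0 = T (s - x) := by
      rw [← hTd, ← map_sub]
      congr 1
      rw [hd]
      abel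
    rw [h2, LinearIsometryEquiv.norm_map, LinearIsometryEquiv.norm_map]
    tauto
  rw [← hset]
  exact (hmp1.measure_preimage (measurableSet_ball.inter measurableSet_ball).nullMeasurableSet)

lemma lensVol_nonneg (ρ r : ℝ) : 0 ≤ lensVol ρ r := ENNReal.toReal_nonneg

lemma lensVol_le {ρ : ℝ} (hρ : 0 ≤ ρ) (r : ℝ) : lensVol ρ r ≤ ρ ^ 3 * v1 := by
  unfold lensVol
  have h1 : volume (ball (0 : E3) ρ ∩ ball (r • e0) ρ) ≤ ENNReal.ofReal (ρ ^ 3 * v1) := by
    rw [← volume_ball_E3 0 hρ]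
    exact measure_mono Set.inter_subset_left
  have hv := v1_pos
  exact ENNReal.toReal_le_of_le_ofReal (by positivity) h1

lemma lensVol_eq_zero {ρ r : ℝ} (hr : 2 * ρ ≤ r) (hρ : 0 ≤ ρ) : lensVol ρ r = 0 := by
  unfold lensVol
  have : ball (0 : E3) ρ ∩ ball (r • e0) ρ = ∅ := by
    rw [Set.eq_empty_iff_forall_notMem]
    rintro s ⟨h1, h2⟩
    simp only [mem_ball, dist_eq_norm, sub_zero] at h1 h2
    have h3 : ‖r • e0‖ ≤ ‖s‖ + ‖s - r • e0‖ := by
      have := norm_sub_le s (s - r • e0)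
      simpa using this
    rw [norm_smul, norm_e0, mul_one, Real.norm_eq_abs, abs_of_nonneg (by linarith)] at h3
    linarith
  rw [this]
  simp

lemma lensVol_zero {ρ : ℝ} (hρ : 0 ≤ ρ) : lensVol ρ 0 = ρ ^ 3 * v1 := by
  unfold lensVol
  simp only [zero_smul, Set.inter_self]
  rw [volume_ball_E3 0 hρ, ENNReal.toReal_ofReal]
  have := v1_pos
  positivity

lemma measurable_lensVol (ρ : ℝ) : Measurable (lensVol ρ) := by
  unfold lensVol
  have hC : MeasurableSet {p : ℝ × E3 | ‖p.2‖ < ρ ∧ ‖p.2 - p.1 • e0‖ < ρ} := by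
    apply IsOpen.measurableSet
    apply IsOpen.inter
    · exact isOpen_lt (f := fun p : ℝ × E3 => ‖p.2‖) (g := fun _ => ρ) (by fun_prop) continuous_const
    · exact isOpen_lt (f := fun p : ℝ × E3 => ‖p.2 - p.1 • e0‖) (g := fun _ => ρ) (by fun_prop)
        continuous_const
  have := measurable_measure_prodMk_left (ν := (volume : Measure E3)) hC
  have heq : (fun r : ℝ => volume (ball (0 : E3) ρ ∩ ball (r • e0) ρ))
      = fun r => volume (Prod.mk r ⁻¹' {p : ℝ × E3 | ‖p.2‖ < ρ ∧ ‖p.2 - p.1 • e0‖ < ρ}) := by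
    funext r
    congr 1
    ext s
    simp [dist_eq_norm]
  apply Measurable.ennreal_toReal
  rw [heq]
  exact this

/-- The Kac kernel at radius `ρ`: convolution square of the normalized ball indicator. -/
noncomputable def kac (ρ r : ℝ) : ℝ := lensVol ρ r / (ρ ^ 3 * v1) ^ 2

lemma kac_nonneg (ρ r : ℝ) : 0 ≤ kac ρ r :=
  div_nonneg (lensVol_nonneg _ _) (by positivity)

lemma kac_le {ρ : ℝ} (hρ : 0 < ρ) (r : ℝ) : kac ρ r ≤ 1 / (ρ ^ 3 * v1) := by
  unfold kac
  have hv := v1_pos
  have hp : 0 < ρ ^ 3 * v1 := by positivity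
  rw [div_le_div_iff₀ (by positivity) hp]
  have := lensVol_le hρ.le r
  nlinarith

lemma kac_eq_zero {ρ r : ℝ} (hr : 2 * ρ ≤ r) (hρ : 0 ≤ ρ) : kac ρ r = 0 := by
  unfold kac
  rw [lensVol_eq_zero hr hρ, zero_div]

lemma kac_zero {ρ : ℝ} (hρ : 0 < ρ) : kac ρ 0 = 1 / (ρ ^ 3 * v1) := by
  unfold kac
  have hv := v1_pos
  have hp : 0 < ρ ^ 3 * v1 := by positivity
  rw [lensVol_zero hρ.le]
  field_simp

lemma measurable_kac (ρ : ℝ) : Measurable (kac ρ) :=
  (measurable_lensVol ρ).div_const _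

/-- Volume of a coordinate product set in three-space. -/
lemma volume_coord_prod (s : Fin 3 → Set ℝ) (hs : ∀ j, MeasurableSet (s j)) :
    volume {x : E3 | ∀ j, x j ∈ s j} = ∏ j, volume (s j) := by
  have hmp := EuclideanSpace.volume_preserving_symm_measurableEquiv_toLp (Fin 3)
  have hset : {x : E3 | ∀ j, x j ∈ s j}
      = ((MeasurableEquiv.toLp 2 (Fin 3 → ℝ)).symm) ⁻¹' (Set.pi Set.univ s) := by
    ext x
    simp [Set.mem_pi]
  rw [hset, hmp.measure_preimage (MeasurableSet.univ_pi hs).nullMeasurableSet]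
  rw [volume_pi, Measure.pi_pi]

lemma measurableSet_coord_prod (s : Fin 3 → Set ℝ) (hs : ∀ j, MeasurableSet (s j)) :
    MeasurableSet {x : E3 | ∀ j, x j ∈ s j} := by
  have : {x : E3 | ∀ j, x j ∈ s j} = ⋂ j, {x : E3 | x j ∈ s j} := by
    ext x; simp
  rw [this]
  refine MeasurableSet.iInter fun j => ?_
  have hm : Measurable (fun x : E3 => x j) := by fun_prop
  exact hm (hs j)

/-- The cube with corner at the origin and side `L`. -/
def cube (L : ℝ) : Set E3 := {x | ∀ j, x j ∈ Set.Icc 0 L}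

lemma measurableSet_cube (L : ℝ) : MeasurableSet (cube L) :=
  measurableSet_coord_prod _ fun _ => measurableSet_Icc

lemma volume_cube {L : ℝ} (hL : 0 ≤ L) : volume (cube L) = ENNReal.ofReal (L ^ 3) := by
  unfold cube
  rw [volume_coord_prod _ (fun _ => measurableSet_Icc)]
  simp only [Real.volume_Icc, sub_zero, Fin.prod_univ_three]
  rw [← ENNReal.ofReal_mul hL, ← ENNReal.ofReal_mul (by positivity)]
  congr 1
  ring

lemma cube_mono {L L' : ℝ} (h : L ≤ L') : cube L ⊆ cube L' := by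
  intro x hx j
  exact ⟨(hx j).1, (hx j).2.trans h⟩

end Vale.Agent.Lib.P171
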