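import Vale.Agent.Lib.P171.MeanField
import Vale.Agent.Lib.P171.Convex

open MeasureTheory Set Filter Topology Metric
open scoped ENNReal

namespace Vale.Agent.Lib.P171

lemma bdd_lp_of {P : ℝ → ℝ} {c μ C : ℝ} (h : ∀ ν, P ν - (ν - μ) ^ 2 / (2 * c) ≤ C) :
    BddAbove (Set.range fun ν : ℝ => P ν - (ν - μ) ^ 2 / (2 * c)) := by
  refine ⟨C, ?_⟩
  rintro _ ⟨ν, rfl⟩
  exact h ν

lemma lpS_le_of {P : ℝ → ℝ} {c μ C : ℝ} (h : ∀ ν, P ν - (ν - μ) ^ 2 / (2 * c) ≤ C) :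
    lpS P c μ ≤ C :=
  ciSup_le h

lemma le_lpS' {P : ℝ → ℝ} {c μ : ℝ}
    (h : BddAbove (Set.range fun ν : ℝ => P ν - (ν - μ) ^ 2 / (2 * c))) (ν : ℝ) :
    P ν - (ν - μ) ^ 2 / (2 * c) ≤ lpS P c μ :=
  le_ciSup h ν

/-- Quadratic control of the bound `Mb` around a given point. -/
lemma Mb_le_center {a b : ℝ} (ha : 0 < a) (μ ν : ℝ) :
    Mb a b ν ≤ (27 / a) * (ν - μ) ^ 2 + (27 * (μ + b) ^ 2 / a + 1) := by
  unfold Mb
  have h1 : (ν + b) ^ 2 ≤ 2 * (ν - μ) ^ 2 + 2 * (μ + b) ^ 2 := by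
    nlinarith [sq_nonneg ((ν - μ) - (μ + b))]
  have h2 : 27 * (ν + b) ^ 2 / (2 * a) ≤ 27 * (2 * (ν - μ) ^ 2 + 2 * (μ + b) ^ 2) / (2 * a) := by
    apply div_le_div_of_nonneg_right _ (by positivity)
    linarith
  have h3 : 27 * (2 * (ν - μ) ^ 2 + 2 * (μ + b) ^ 2) / (2 * a)
      = (27 / a) * (ν - μ) ^ 2 + 27 * (μ + b) ^ 2 / a := by
    field_simp
  linarith

section setup

/-- Standing assumptions for one mean field step. -/
structure Setup (A K c R : ℝ) (χ : ℝ → ℝ) : Prop where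
  attr : Attr χ K
  K0 : 0 ≤ K
  c0 : 0 < c
  R1 : 1 ≤ R
  supp : ∀ r, R ≤ r → χ r = 0
  hA1 : 2 * K + 125 * c < A
  hA2 : 108 * c ≤ A - 2 * K

variable {A K c R : ℝ} {χ : ℝ → ℝ}

lemma Setup.A0 (h : Setup A K c R χ) : 0 ≤ A := by
  have := h.K0
  have := h.c0
  have := h.hA1
  linarith

lemma Setup.a0 (h : Setup A K c R χ) : 0 < A - 2 * K := by
  have := h.c0
  have := h.hA2
  linarith

lemma Setup.adm (h : Setup A K c R χ) : Adm (pot A χ) (A - 2 * K) (A / 2) :=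
  pot_adm (h.attr.mono (by linarith [h.K0])) (by linarith [h.a0]) h.A0

lemma Setup.adm' (h : Setup A K c R χ) {ρ : ℝ} (hρ : 1 ≤ ρ) :
    Adm (addKac (pot A χ) c ρ) (A - (K + c * 125)) (A / 2) := by
  rw [addKac_pot]
  refine pot_adm (h.attr.add ((attr_kac hρ).smul h.c0.le)) ?_ h.A0
  nlinarith [h.K0, h.hA1]

lemma Setup.adm_ray (h : Setup A K c R χ) {τ : ℝ} (h0 : 0 ≤ τ) (h1 : τ ≤ 1) :
    Adm (pot A fun r => (1 + τ) * χ r) (A - 2 * K) (A / 2) := by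
  refine pot_adm ((h.attr.smul (by linarith)).mono ?_) (by linarith [h.a0]) h.A0
  nlinarith [h.K0]

lemma Setup.adm_two (h : Setup A K c R χ) : Adm (pot A fun r => 2 * χ r) (A - 2 * K) (A / 2) :=
  pot_adm (h.attr.smul (by norm_num)) (by linarith [h.a0]) h.A0

lemma Setup.bound (h : Setup A K c R χ) (μ ν : ℝ) :
    pr (pot A χ) ν ≤ (1 / (4 * c)) * (ν - μ) ^ 2 + (27 * (μ + A / 2) ^ 2 / (A - 2 * K) + 1) := by
  have h1 := pr_le_Mb h.adm ν
  have h2 := Mb_le_center h.a0 μ ν (b := A / 2)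
  have h3 : 27 / (A - 2 * K) ≤ 1 / (4 * c) := by
    rw [div_le_div_iff₀ h.a0 (by have := h.c0; positivity)]
    have := h.hA2
    linarith
  have h4 := mul_le_mul_of_nonneg_right h3 (sq_nonneg (ν - μ))
  linarith

lemma Setup.bdd (h : Setup A K c R χ) (μ : ℝ) :
    BddAbove (Set.range fun ν : ℝ => pr (pot A χ) ν - (ν - μ) ^ 2 / (2 * c)) := by
  refine bdd_lp_of (C := 27 * (μ + A / 2) ^ 2 / (A - 2 * K) + 1) fun ν => ?_
  have h1 := h.bound μ ν
  have hc := h.c0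
  have h2 : (1 / (4 * c)) * (ν - μ) ^ 2 ≤ (ν - μ) ^ 2 / (2 * c) := by
    rw [mul_comm, ← div_eq_mul_one_div]
    apply div_le_div_of_nonneg_left (sq_nonneg _) (by positivity)
    linarith
  linarith

lemma Setup.lp_nonneg (h : Setup A K c R χ) (μ : ℝ) : 0 ≤ lpS (pr (pot A χ)) c μ := by
  have h1 := le_lpS' (h.bdd μ) μ
  have h2 := pr_nonneg h.adm μ
  simp only [sub_self, ne_eq, OfNat.ofNat_ne_zero, not_false_eq_true, zero_pow, zero_div,
    sub_zero] at h1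
  linarith

/-- Lower half of the mean field limit. -/
theorem lp_lower (h : Setup A K c R χ) (μ : ℝ) {b' : ℝ} (hb : b' < lpS (pr (pot A χ)) c μ) :
    ∀ᶠ ρ in atTop, b' < pr (addKac (pot A χ) c ρ) μ := by
  have hc := h.c0
  have hv := v1_pos
  obtain ⟨ν, hν⟩ := exists_lt_of_lt_ciSup hb
  -- reduce to a point to the right of μ
  obtain ⟨ν₀, hν₀, hν₀'⟩ : ∃ ν₀, μ ≤ ν₀ ∧ b' < pr (pot A χ) ν₀ - (ν₀ - μ) ^ 2 / (2 * c) := by
    by_cases hc' : μ ≤ ν
    · exact ⟨ν, hc', hν⟩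
    · refine ⟨μ, le_rfl, ?_⟩
      have h1 := pr_mono h.adm (le_of_not_ge hc')
      have h2 : 0 ≤ (ν - μ) ^ 2 / (2 * c) := by positivity
      simp only [sub_self, ne_eq, OfNat.ofNat_ne_zero, not_false_eq_true, zero_pow, zero_div,
        sub_zero]
      linarith
  set u : ℝ := ν₀ - μ with hu
  have hu0 : 0 ≤ u := by rw [hu]; linarith
  have hpow : Tendsto (fun ρ : ℝ => 2 * (ρ ^ 3 * v1)) atTop atTop :=
    ((tendsto_pow_atTop (by norm_num)).atTop_mul_const hv).const_mul_atTop (by norm_num)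
  have he : Tendsto (fun ρ : ℝ => c / (2 * (ρ ^ 3 * v1))) atTop (𝓝 0) :=
    Tendsto.const_div_atTop hpow c
  have hlim : Tendsto (fun ρ : ℝ => pr (pot A χ) ν₀ - (u + c / (2 * (ρ ^ 3 * v1))) ^ 2 / (2 * c)) atTop
      (𝓝 (pr (pot A χ) ν₀ - (u + 0) ^ 2 / (2 * c))) := by
    refine tendsto_const_nhds.sub (Tendsto.div_const (Tendsto.pow (tendsto_const_nhds.add he) 2) _)
  have hgt : b' < pr (pot A χ) ν₀ - (u + 0) ^ 2 / (2 * c) := by
    simpa [hu] using hν₀'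
  filter_upwards [hlim.eventually (lt_mem_nhds hgt), eventually_ge_atTop (1 : ℝ)] with ρ h1 hρ
  refine lt_of_lt_of_le h1 ?_
  have hρ0 : 0 < ρ := by linarith
  set e : ℝ := c / (2 * (ρ ^ 3 * v1)) with he'
  have he0 : 0 ≤ e := by positivity
  have hy : 0 ≤ (u + e) / c := by positivity
  have hmain := pr_addKac_ge (y := (u + e) / c) h.adm (h.adm' hρ) hc.le hρ0 hy μ
  have e1 : μ + (c * ((u + e) / c) - c / (2 * (ρ ^ 3 * v1))) = ν₀ := by
    rw [← he', mul_div_cancel₀ _ hc.ne', hu]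
    ring
  rw [e1] at hmain
  refine le_trans (le_of_eq ?_) hmain
  congr 1
  field_simp


/-- The comparison between `pot A χ` and its slight strengthening. -/
lemma Setup.hfg (h : Setup A K c R χ) {l : ℕ} (hl : 0 < l) {τ : ℝ} (hτ0 : 0 ≤ τ)
    (hτ : 1 ≤ (1 - 3 * (R + 1) / (l : ℝ)) * (1 + τ)) (r : ℝ) (_hr : 0 ≤ r) (q : ℝ)
    (hq : 1 - 3 * (r + 1) / (l : ℝ) ≤ q) (hq1 : q ≤ 1) (_hq0 : 0 ≤ q) :
    -pot A χ r ≤ -(q * pot A (fun r => (1 + τ) * χ r) r) := by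
  have hl' : (0 : ℝ) < l := by exact_mod_cast hl
  have hA := h.A0
  have hχ := h.attr.nonneg r
  have hmain : χ r ≤ q * ((1 + τ) * χ r) := by
    by_cases hrR : R ≤ r
    · rw [h.supp r hrR]
      simp
    · have hr' : r < R := not_le.mp hrR
      have h1 : 1 - 3 * (R + 1) / (l : ℝ) ≤ q := by
        refine le_trans ?_ hq
        have : 3 * (r + 1) / (l : ℝ) ≤ 3 * (R + 1) / (l : ℝ) :=
          div_le_div_of_nonneg_right (by linarith) hl'.le
        linarith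
      have h2 : 1 ≤ q * (1 + τ) :=
        hτ.trans (mul_le_mul_of_nonneg_right h1 (by linarith))
      have h3 := mul_le_mul_of_nonneg_right h2 hχ
      linarith
  simp only [pot]
  split_ifs
  · nlinarith [mul_nonneg (sub_nonneg.mpr hq1) hA]
  · simpa using hmain

/-- First comparison: the pressure of the strengthened potential. -/
lemma Setup.pr_ray (h : Setup A K c R χ) {τ : ℝ} (h0 : 0 < τ) (h1 : τ < 1) (ν : ℝ) :
    pr (pot A fun r => (1 + τ) * χ r) ν ≤ pr (pot A χ) ν + τ * Mb (A - 2 * K) (A / 2) ν := by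
  have e : (1 - τ) * ν + τ * ν = ν := by ring
  have hm := pr_mix h.adm h.adm_two h0 h1 ν ν
  rw [e, ← pot_ray] at hm
  refine hm.trans ?_
  have h2 := pr_le_Mb h.adm_two ν
  have h3 := pr_nonneg h.adm ν
  have h4 := mul_le_mul_of_nonneg_left h2 h0.le
  nlinarith

/-- The real-variable inequality behind the upper bound. -/
lemma feed_real {i c τ σ θ m₁ m₂ S₀ u pf pg M : ℝ}
    (hi0 : 0 < i) (hi1 : i ≤ 1) (hc : 0 < c) (hτ0 : 0 < τ) (hσ : 7 * i + 8 * τ = σ)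
    (hθ : θ = 4 * i + σ) (hθ1 : θ ≤ 1) (hm₁c : m₁ ≤ 1 / (4 * c)) (hS₀ : 0 ≤ S₀)
    (hg : pg ≤ pf + τ * M) (hg0 : 0 ≤ pg) (hpf : pf ≤ M) (hM : M ≤ m₁ * u ^ 2 + m₂) (hM0 : 0 ≤ M)
    (h1 : pf - (1 / (2 * c)) * u ^ 2 ≤ S₀) (h2 : pf - (1 / (4 * c)) * u ^ 2 ≤ m₂) :
    (1 + i) ^ 3 * pg ≤ (S₀ + θ * m₂ + σ * m₂ + i / (2 * (c * (1 + i))))
      + (u - i) ^ 2 / (2 * (c * (1 + i))) := by
  have hσ0 : 0 < σ := by rw [← hσ]; positivity
  have hθ0 : 0 < θ := by rw [hθ]; positivity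
  set c' : ℝ := c * (1 + i) with hc'
  have hc'0 : 0 < c' := by positivity
  have hC1 : (1 + i) ^ 3 * pg ≤ pf + σ * M := by
    have hcube : (1 + i) ^ 3 ≤ 1 + 7 * i := by
      nlinarith [mul_nonneg hi0.le hi0.le, mul_nonneg (mul_nonneg hi0.le hi0.le) hi0.le]
    have hτM : 0 ≤ τ * M := by positivity
    calc (1 + i) ^ 3 * pg ≤ (1 + 7 * i) * pg := mul_le_mul_of_nonneg_right hcube hg0
      _ ≤ (1 + 7 * i) * (pf + τ * M) := mul_le_mul_of_nonneg_left hg (by positivity)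
      _ ≤ pf + σ * M := by
          rw [← hσ]
          have h3 : (7 * i) * pf ≤ (7 * i) * M := mul_le_mul_of_nonneg_left hpf (by positivity)
          have h4 : (7 * i) * (τ * M) ≤ 7 * (τ * M) := by nlinarith
          nlinarith
  have hC5' : (1 - i) * u ^ 2 / (2 * c') - i / (2 * c') ≤ (u - i) ^ 2 / (2 * c') := by
    rw [← sub_div]
    refine div_le_div_of_nonneg_right ?_ (by positivity)
    nlinarith [mul_nonneg hi0.le (sq_nonneg (u - 1)), sq_nonneg i]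
  have hMb' : σ * M ≤ σ * (m₁ * u ^ 2 + m₂) := mul_le_mul_of_nonneg_left hM hσ0.le
  have hsq : 0 ≤ u ^ 2 := sq_nonneg u
  have hx : (1 - θ) * (1 / (2 * c)) + θ * (1 / (4 * c)) ≤ (1 - i) / (2 * c') - σ * m₁ := by
    have e1 : (1 - i) / (2 * c') = (1 / (2 * c)) * ((1 - i) / (1 + i)) := by
      rw [hc']
      field_simp
    have e2 : 1 - 2 * i ≤ (1 - i) / (1 + i) := by
      rw [le_div_iff₀ (by positivity)]
      nlinarith [sq_nonneg i]
    have e3 : 0 < 1 / (2 * c) := by positivity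
    have e4 := mul_le_mul_of_nonneg_left e2 e3.le
    have e5 : σ * m₁ ≤ σ * (1 / (4 * c)) := mul_le_mul_of_nonneg_left hm₁c hσ0.le
    have e6 : (1 / (4 * c)) = (1 / (2 * c)) * (1 / 2) := by
      field_simp
      norm_num
    rw [e1]
    rw [e6] at e5 ⊢
    rw [hθ]
    generalize (1 / (2 * c)) = y at *
    nlinarith
  have hcomb : pf - ((1 - i) / (2 * c') - σ * m₁) * u ^ 2 ≤ S₀ + θ * m₂ := by
    have h3 := mul_le_mul_of_nonneg_right hx hsq
    have h4 := mul_le_mul_of_nonneg_left h1 (sub_nonneg.mpr hθ1)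
    have h5 := mul_le_mul_of_nonneg_left h2 hθ0.le
    have h6 : (1 - θ) * S₀ ≤ S₀ := by nlinarith
    nlinarith
  have e2 : (1 - i) / (2 * c') * u ^ 2 = (1 - i) * u ^ 2 / (2 * c') := by ring
  have hexp : ((1 - i) / (2 * c') - σ * m₁) * u ^ 2
      = (1 - i) * u ^ 2 / (2 * c') - σ * (m₁ * u ^ 2) := by
    rw [sub_mul, e2]
    ring
  rw [hexp] at hcomb
  have hMb2 : σ * (m₁ * u ^ 2 + m₂) = σ * (m₁ * u ^ 2) + σ * m₂ := by ring
  linarith

/-- Size of the logarithmic error. -/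
lemma log_err_le {l : ℕ} (hl : 1 ≤ l) :
    Real.log (1 / (1 - Real.exp (-(1 / (l : ℝ))))) / (l : ℝ) ^ 3 ≤ 2 * (1 / (l : ℝ)) := by
  have hl' : (0 : ℝ) < l := by exact_mod_cast hl
  have hl1 : (1 : ℝ) ≤ l := by exact_mod_cast hl
  set i : ℝ := 1 / (l : ℝ) with hi
  have hi0 : 0 < i := by positivity
  have hi1 : i ≤ 1 := by
    rw [hi, div_le_one hl']
    exact hl1
  have h1 : i / 2 ≤ 1 - Real.exp (-i) := by
    have h2 : 1 + i ≤ Real.exp i := by linarith [Real.add_one_le_exp i]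
    have h3 : Real.exp (-i) = (Real.exp i)⁻¹ := Real.exp_neg i
    have h4 : Real.exp (-i) ≤ 1 / (1 + i) := by
      rw [h3, ← one_div]
      exact one_div_le_one_div_of_le (by positivity) h2
    have h5 : 1 / (1 + i) ≤ 1 - i / 2 := by
      rw [div_le_iff₀ (by positivity)]
      nlinarith
    linarith
  have h2 : 1 / (1 - Real.exp (-i)) ≤ 2 * l := by
    have h3 : 0 < i / 2 := by positivity
    calc 1 / (1 - Real.exp (-i)) ≤ 1 / (i / 2) := one_div_le_one_div_of_le h3 h1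
      _ = 2 * l := by
          rw [hi]
          field_simp
  have h3 : 0 < 1 / (1 - Real.exp (-i)) := by
    have : 0 < 1 - Real.exp (-i) := lt_of_lt_of_le (by positivity) h1
    positivity
  have h4 : Real.log (1 / (1 - Real.exp (-i))) ≤ 2 * l :=
    (Real.log_le_self h3.le).trans h2
  rw [div_le_iff₀ (by positivity)]
  refine h4.trans ?_
  have e : 2 * i * (l : ℝ) ^ 3 = 2 * (l : ℝ) ^ 2 := by
    rw [hi]
    field_simp
  rw [e]
  nlinarith

/-- Explicit upper bound at a finite grid size `l` and large `ρ`. -/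
theorem Setup.upper_param (h : Setup A K c R χ) (μ : ℝ) {l : ℕ} (hl : 1 ≤ l)
    (hlD : 4 + (7 + 48 * (R + 1)) ≤ (l : ℝ)) {ρ : ℝ} (hρ : 1 ≤ ρ)
    (hρl : ((ρ + 2 * l) / ρ) ^ 3 ≤ 1 + 1 / (l : ℝ)) :
    pr (addKac (pot A χ) c ρ) μ ≤ lpS (pr (pot A χ)) c μ
      + (((4 + 2 * (7 + 48 * (R + 1))) * (27 * (μ + A / 2) ^ 2 / (A - 2 * K) + 1) + 1 / (2 * c) + 2)
        * (1 / (l : ℝ))) := by
  have hc := h.c0
  have hR := h.R1
  have hl' : (0 : ℝ) < l := by exact_mod_cast hl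
  have hl1 : (1 : ℝ) ≤ l := by exact_mod_cast hl
  have hρ0 : 0 < ρ := by linarith
  set i : ℝ := 1 / (l : ℝ) with hi
  have hi0 : 0 < i := by positivity
  have hi1 : i ≤ 1 := by
    rw [hi, div_le_one hl']
    exact hl1
  set D : ℝ := 7 + 48 * (R + 1) with hD
  have hD0 : 0 < D := by rw [hD]; linarith
  have hDi : (4 + D) * i ≤ 1 := by
    rw [hi, mul_one_div, div_le_one hl']
    exact hlD
  set τ : ℝ := 6 * (R + 1) * i with hτ
  have hτ0 : 0 < τ := by positivity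
  have hRi : 48 * ((R + 1) * i) ≤ 1 := by
    have e : (4 + D) * i = 11 * i + 48 * ((R + 1) * i) := by
      rw [hD]
      ring
    linarith
  have hτ1 : τ < 1 := by
    have e : τ = 6 * ((R + 1) * i) := by
      rw [hτ]
      ring
    rw [e]
    linarith
  set m₂ : ℝ := 27 * (μ + A / 2) ^ 2 / (A - 2 * K) + 1 with hm₂
  have hm₂0 : 0 < m₂ := by
    have : 0 ≤ 27 * (μ + A / 2) ^ 2 / (A - 2 * K) := by
      have := h.a0
      positivity
    rw [hm₂]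
    linarith
  set σ : ℝ := D * i with hσ
  have hσ78 : 7 * i + 8 * τ = σ := by
    rw [hσ, hD, hτ]
    ring
  set θ : ℝ := (4 + D) * i with hθ
  have hθσ : θ = 4 * i + σ := by
    rw [hθ, hσ]
    ring
  set m₁ : ℝ := 27 / (A - 2 * K) with hm₁
  have hm₁c : m₁ ≤ 1 / (4 * c) := by
    rw [hm₁, div_le_div_iff₀ h.a0 (by positivity)]
    have := h.hA2
    linarith
  set c' : ℝ := c * (1 + i) with hc'
  have hc'0 : 0 < c' := by positivity
  set S₀ : ℝ := lpS (pr (pot A χ)) c μ with hS₀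
  have hS₀0 : 0 ≤ S₀ := h.lp_nonneg μ
  have hfeed : ∀ ν : ℝ, (1 + 1 / (l : ℝ)) ^ 3 * pr (pot A fun r => (1 + τ) * χ r) (ν + i)
      ≤ (S₀ + θ * m₂ + σ * m₂ + i / (2 * c')) + (ν - μ) ^ 2 / (2 * (c' / (l : ℝ) ^ 3 * (l : ℝ) ^ 3)) := by
    intro ν
    have e0 : c' / (l : ℝ) ^ 3 * (l : ℝ) ^ 3 = c' := by
      field_simp
    rw [e0, ← hi]
    set ν' : ℝ := ν + i with hν'
    set u : ℝ := ν' - μ with hu
    have hνμ : ν - μ = u - i := by
      rw [hu, hν']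
      ring
    rw [hνμ]
    have hMb0 : 0 ≤ Mb (A - 2 * K) (A / 2) ν' := by
      have := h.a0
      unfold Mb
      positivity
    have hbd1 : pr (pot A χ) ν' - (1 / (2 * c)) * u ^ 2 ≤ S₀ := by
      have := le_lpS' (h.bdd μ) ν'
      have e : (ν' - μ) ^ 2 / (2 * c) = (1 / (2 * c)) * u ^ 2 := by
        rw [hu]
        ring
      rw [e] at this
      exact this
    have hbd2 : pr (pot A χ) ν' - (1 / (4 * c)) * u ^ 2 ≤ m₂ := by
      have := h.bound μ ν'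
      rw [← hu, ← hm₂] at this
      linarith
    exact feed_real hi0 hi1 hc hτ0 hσ78 hθσ hDi hm₁c hS₀0 (h.pr_ray hτ0 hτ1 ν')
      (pr_nonneg (h.adm_ray hτ0.le hτ1.le) ν') (pr_le_Mb h.adm ν')
      (Mb_le_center h.a0 μ ν' (b := A / 2)) hMb0 hbd1 hbd2
  have hκ : c * ((ρ + 2 * l) ^ 3 / (ρ ^ 3 * (l : ℝ) ^ 3)) ≤ c' / (l : ℝ) ^ 3 := by
    have e : (ρ + 2 * l) ^ 3 / (ρ ^ 3 * (l : ℝ) ^ 3) = ((ρ + 2 * l) / ρ) ^ 3 / (l : ℝ) ^ 3 := by
      field_simp
    rw [e, ← mul_div_assoc]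
    refine div_le_div_of_nonneg_right ?_ (by positivity)
    rw [hc']
    exact mul_le_mul_of_nonneg_left hρl hc.le
  have hτ3 : 1 ≤ (1 - 3 * (R + 1) / (l : ℝ)) * (1 + τ) := by
    have e : 3 * (R + 1) / (l : ℝ) = 3 * (R + 1) * i := by
      rw [hi]
      ring
    rw [e, hτ]
    set w : ℝ := (R + 1) * i with hw
    have hw0 : 0 ≤ w := by positivity
    have e2 : (1 - 3 * (R + 1) * i) * (1 + 6 * (R + 1) * i) = (1 - 3 * w) * (1 + 6 * w) := by
      rw [hw]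
      ring
    rw [e2]
    nlinarith
  have hub := pr_addKac_le (h.adm' hρ) (h.adm_ray hτ0.le hτ1.le) hl (κ := c' / (l : ℝ) ^ 3) (ε := i)
    (μ := μ) (S := S₀ + θ * m₂ + σ * m₂ + i / (2 * c')) hc.le hρ0 hκ (by positivity) hi0
    (h.hfg hl hτ0.le hτ3) hfeed
  refine hub.trans ?_
  have hlog := log_err_le hl
  rw [← hi] at hlog
  have hc'c : i / (2 * c') ≤ i * (1 / (2 * c)) := by
    rw [mul_one_div]
    refine div_le_div_of_nonneg_left hi0.le (by positivity) ?_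
    rw [hc']
    nlinarith
  have hθm : θ * m₂ + σ * m₂ = (4 + 2 * D) * m₂ * i := by
    rw [hθ, hσ]
    ring
  have hfin : (4 + 2 * D) * m₂ * i + i * (1 / (2 * c)) + 2 * i
      = ((4 + 2 * D) * m₂ + 1 / (2 * c) + 2) * i := by ring
  linarith

/-- Upper half of the mean field limit. -/
theorem lp_upper (h : Setup A K c R χ) (μ : ℝ) {b' : ℝ} (hb : lpS (pr (pot A χ)) c μ < b') :
    ∀ᶠ ρ in atTop, pr (addKac (pot A χ) c ρ) μ < b' := by
  have hc := h.c0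
  have hR := h.R1
  set C : ℝ := (4 + 2 * (7 + 48 * (R + 1))) * (27 * (μ + A / 2) ^ 2 / (A - 2 * K) + 1) + 1 / (2 * c) + 2
    with hC
  set η : ℝ := b' - lpS (pr (pot A χ)) c μ with hη
  have hη0 : 0 < η := sub_pos.mpr hb
  obtain ⟨l, hl⟩ := exists_nat_gt (max (max (4 + (7 + 48 * (R + 1))) (C / η)) 1)
  have hl1 : 1 < (l : ℝ) := lt_of_le_of_lt (le_max_right _ _) hl
  have hl2 : 4 + (7 + 48 * (R + 1)) < (l : ℝ) :=
    lt_of_le_of_lt ((le_max_left _ _).trans (le_max_left _ _)) hl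
  have hl3 : C / η < (l : ℝ) := lt_of_le_of_lt ((le_max_right _ _).trans (le_max_left _ _)) hl
  have hl' : 1 ≤ l := by
    have : (1 : ℝ) < l := hl1
    exact_mod_cast this.le
  have hlpos : (0 : ℝ) < l := by linarith
  have hlim : Tendsto (fun ρ : ℝ => (1 + (2 * (l : ℝ)) * (1 / ρ)) ^ 3) atTop
      (𝓝 ((1 + (2 * (l : ℝ)) * 0) ^ 3)) :=
    Tendsto.pow (tendsto_const_nhds.add (tendsto_one_div_atTop.const_mul _)) 3
  have hlt : (1 + (2 * (l : ℝ)) * 0) ^ 3 < 1 + 1 / (l : ℝ) := by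
    have : 0 < 1 / (l : ℝ) := by positivity
    simp only [mul_zero, add_zero, one_pow]
    linarith
  filter_upwards [hlim.eventually (gt_mem_nhds hlt), eventually_ge_atTop (1 : ℝ)] with ρ h1 hρ
  have hρ0 : 0 < ρ := by linarith
  have e : ((ρ + 2 * l) / ρ) ^ 3 = (1 + (2 * (l : ℝ)) * (1 / ρ)) ^ 3 := by
    congr 1
    field_simp
  have hub := h.upper_param μ hl' hl2.le hρ (by rw [e]; exact h1.le)
  rw [← hC] at hub
  have hCl : C * (1 / (l : ℝ)) < η := by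
    rw [mul_one_div, div_lt_iff₀ hlpos]
    rw [div_lt_iff₀ hη0] at hl3
    linarith
  linarith

/-- The mean field limit for a single very long range Kac term. -/
theorem lp_limit (h : Setup A K c R χ) (μ : ℝ) :
    Tendsto (fun ρ : ℝ => pr (addKac (pot A χ) c ρ) μ) atTop (𝓝 (lpS (pr (pot A χ)) c μ)) :=
  tendsto_order.2 ⟨fun _ hb => lp_lower h μ hb, fun _ hb => lp_upper h μ hb⟩

end setup

end Vale.Agent.Lib.P171
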