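import Vale.Agent.Lib.P171.Induct

open MeasureTheory Set Filter Topology Metric
open scoped ENNReal

namespace Vale.Agent.Lib.P171

/-- The full attraction. -/
noncomputable def chiInf (r : ℝ) : ℝ := ∑' j, cj j * kac (rhoInf j) r

/-- The pressure of the full potential. -/
noncomputable def PInf : ℝ → ℝ := pr (pot A0 chiInf)

lemma kac_le_v {ρ : ℝ} (hρ : 1 ≤ ρ) (r : ℝ) : kac ρ r ≤ 1 / v1 := by
  have hv := v1_pos
  refine (kac_le (by linarith) r).trans ?_
  refine one_div_le_one_div_of_le hv ?_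
  have h1 : (1 : ℝ) ≤ ρ ^ 3 := one_le_pow₀ hρ
  nlinarith

lemma cj_eq (j : ℕ) : cj j = 4400 * (1 / 2) ^ j := by
  unfold cj
  rw [one_div, inv_pow]
  rfl

lemma term_nonneg (r : ℝ) (j : ℕ) : 0 ≤ cj j * kac (rhoInf j) r :=
  mul_nonneg (cj_pos j).le (kac_nonneg _ _)

lemma summable_chi (r : ℝ) : Summable fun j => cj j * kac (rhoInf j) r := by
  have hg : Summable fun j : ℕ => cj j * (1 / v1) := by
    simp only [cj_eq]
    exact (summable_geometric_two.mul_left 4400).mul_right _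
  refine Summable.of_nonneg_of_le (term_nonneg r) (fun j => ?_) hg
  exact mul_le_mul_of_nonneg_left (kac_le_v (rhoInf_ge j) r) (cj_pos j).le

lemma tendsto_chi (r : ℝ) : Tendsto (fun J => chiJ rhoInf J r) atTop (𝓝 (chiInf r)) :=
  (summable_chi r).hasSum.tendsto_sum_nat

lemma attr_chiInf : Attr chiInf (125 * 8800) := by
  refine Attr.of_tendsto (χs := fun J => chiJ rhoInf J) (fun J => ?_) tendsto_chi
  refine (attr_chiJ fun j _ => rhoInf_ge j).mono ?_
  have := Tj_le J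
  linarith

lemma chiJ_le_chiInf (J : ℕ) (r : ℝ) : chiJ rhoInf J r ≤ chiInf r :=
  (summable_chi r).sum_le_tsum _ fun j _ => term_nonneg r j

lemma chiJ_le_T (J : ℕ) (r : ℝ) : chiJ rhoInf J r ≤ Tj J * (1 / v1) := by
  induction J with
  | zero =>
    simp [chiJ, Tj_zero]
  | succ J ih =>
    have e : chiJ rhoInf (J + 1) r = chiJ rhoInf J r + cj J * kac (rhoInf J) r := by
      simp [chiJ, Finset.sum_range_succ]
    rw [e, Tj_succ, add_mul]
    have := mul_le_mul_of_nonneg_left (kac_le_v (rhoInf_ge J) r) (cj_pos J).le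
    linarith

lemma chiInf_nonneg (r : ℝ) : 0 ≤ chiInf r := tsum_nonneg (term_nonneg r)

lemma chiInf_le (r : ℝ) : chiInf r ≤ 8800 * (1 / v1) := by
  refine le_of_tendsto' (tendsto_chi r) fun J => (chiJ_le_T J r).trans ?_
  exact mul_le_mul_of_nonneg_right (Tj_le J) (by have := v1_pos; positivity)

lemma tail_attr (J n : ℕ) :
    Attr (fun r => chiJ rhoInf J r + (2 : ℝ) ^ J * (chiJ rhoInf (J + n) r - chiJ rhoInf J r))
      (125 * Tj J + (2 : ℝ) ^ J * 125 * (Tj (J + n) - Tj J)) := by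
  induction n with
  | zero =>
    have e : (fun r => chiJ rhoInf J r + (2 : ℝ) ^ J * (chiJ rhoInf (J + 0) r - chiJ rhoInf J r))
        = chiJ rhoInf J := by
      funext r
      simp
    rw [e]
    simpa using attr_chiJ (fun j _ => rhoInf_ge j)
  | succ n ih =>
    have e : (fun r => chiJ rhoInf J r + (2 : ℝ) ^ J * (chiJ rhoInf (J + (n + 1)) r - chiJ rhoInf J r))
        = fun r => (chiJ rhoInf J r + (2 : ℝ) ^ J * (chiJ rhoInf (J + n) r - chiJ rhoInf J r))
          + ((2 : ℝ) ^ J * cj (J + n)) * kac (rhoInf (J + n)) r := by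
      funext r
      have e2 : chiJ rhoInf (J + (n + 1)) r
          = chiJ rhoInf (J + n) r + cj (J + n) * kac (rhoInf (J + n)) r := by
        rw [← add_assoc]
        simp [chiJ, Finset.sum_range_succ]
      rw [e2]
      ring
    rw [e]
    have h2 := (attr_kac (rhoInf_ge (J + n))).smul
      (c := (2 : ℝ) ^ J * cj (J + n)) (by have := cj_pos (J + n); positivity)
    refine (ih.add h2).mono (le_of_eq ?_)
    rw [← add_assoc J n 1, Tj_succ]
    ring

lemma tail_bound (J n : ℕ) : 125 * Tj J + (2 : ℝ) ^ J * 125 * (Tj (J + n) - Tj J) ≤ 2200000 := by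
  have h1 := Tj_le J
  have h2 : Tj (J + n) - Tj J ≤ 8800 / 2 ^ J := by
    unfold Tj
    have : 0 < 8800 / (2 : ℝ) ^ (J + n) := by positivity
    linarith
  have h3 : (2 : ℝ) ^ J * 125 * (Tj (J + n) - Tj J) ≤ (2 : ℝ) ^ J * 125 * (8800 / 2 ^ J) :=
    mul_le_mul_of_nonneg_left h2 (by positivity)
  have h4 : (2 : ℝ) ^ J * 125 * (8800 / 2 ^ J) = 1100000 := by
    field_simp
    norm_num
  linarith

lemma tail_attr_inf (J : ℕ) :
    Attr (fun r => chiJ rhoInf J r + (2 : ℝ) ^ J * (chiInf r - chiJ rhoInf J r)) 2200000 := by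
  refine Attr.of_tendsto (χs := fun n r => chiJ rhoInf J r
    + (2 : ℝ) ^ J * (chiJ rhoInf (J + n) r - chiJ rhoInf J r)) (fun n => ?_) (fun r => ?_)
  · exact (tail_attr J n).mono (tail_bound J n)
  · refine tendsto_const_nhds.add (Tendsto.const_mul _ (Tendsto.sub_const ?_ _))
    have hJ : Tendsto (fun n : ℕ => J + n) atTop atTop := by
      simpa [add_comm] using tendsto_add_atTop_nat J
    exact (tendsto_chi r).comp hJ

lemma A0_eq : A0 = 4000000 := rfl

lemma adm_PJ (J : ℕ) : Adm (pot A0 (chiJ rhoInf J)) (A0 - 2 * (125 * Tj J)) (A0 / 2) :=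
  (setup_J fun j _ => rhoInf_ge j).adm

lemma adm_PInf : Adm (pot A0 chiInf) (A0 - 125 * 8800) (A0 / 2) :=
  pot_adm attr_chiInf (by rw [A0_eq]; norm_num) (by rw [A0_eq]; norm_num)

lemma PJ_le_PInf (J : ℕ) (μ : ℝ) : PJ rhoInf J μ ≤ PInf μ := by
  refine pr_anti (adm_PJ J) adm_PInf (fun r => ?_) μ
  simp only [pot]
  linarith [chiJ_le_chiInf J r]

/-- Uniform control of the limit by the finite stages. -/
lemma PInf_le (J : ℕ) (hJ : 1 ≤ J) (μ : ℝ) :
    PInf μ ≤ PJ rhoInf J μ + (1 / 2 ^ J) * Mb (A0 - 2200000) (A0 / 2) μ := by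
  have h2J : (1 : ℝ) < 2 ^ J := one_lt_pow₀ (by norm_num) (by omega)
  have hθ0 : (0 : ℝ) < 1 / 2 ^ J := by positivity
  have hθ1 : (1 : ℝ) / 2 ^ J < 1 := by
    rw [div_lt_one (by positivity)]
    exact h2J
  have h1 : Attr (fun r => chiJ rhoInf J r + (1 / ((1 : ℝ) / 2 ^ J)) * (chiInf r - chiJ rhoInf J r))
      2200000 := by
    have e : (1 / ((1 : ℝ) / 2 ^ J)) = 2 ^ J := by
      field_simp
    rw [e]
    exact tail_attr_inf J
  have hT := Tj_le J
  have hmain := pr_ray_le (A := A0) (σ := fun r => chiInf r - chiJ rhoInf J r) (K₀ := 125 * Tj J)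
    (K₁ := 2200000) (attr_chiJ fun j _ => rhoInf_ge j) h1
    (by rw [A0_eq]; linarith) (by rw [A0_eq]; norm_num) (by rw [A0_eq]; norm_num) hθ0 hθ1 μ
  have e : (fun r => chiJ rhoInf J r + (chiInf r - chiJ rhoInf J r)) = chiInf := by
    funext r
    ring
  rw [e] at hmain
  exact hmain

lemma continuous_Mb (a b : ℝ) : Continuous (Mb a b) := by
  unfold Mb
  fun_prop

lemma tendsto_eval {φ : ℕ → ℕ} (hφ : StrictMono φ) {x : ℕ → ℝ} {x₀ : ℝ}
    (hx : Tendsto x atTop (𝓝 x₀)) :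
    Tendsto (fun k => PJ rhoInf (φ k) (x k)) atTop (𝓝 (PInf x₀)) := by
  have hP : Continuous PInf := pr_continuous adm_PInf
  have h1 : Tendsto (fun k => PInf (x k)) atTop (𝓝 (PInf x₀)) := hP.continuousAt.tendsto.comp hx
  have h2 : Tendsto (fun k => Mb (A0 - 2200000) (A0 / 2) (x k)) atTop
      (𝓝 (Mb (A0 - 2200000) (A0 / 2) x₀)) := (continuous_Mb _ _).continuousAt.tendsto.comp hx
  have h3 : Tendsto (fun k => (1 : ℝ) / 2 ^ φ k) atTop (𝓝 0) := by
    have h4 : Tendsto (fun n : ℕ => (1 / 2 : ℝ) ^ n) atTop (𝓝 0) :=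
      tendsto_pow_atTop_nhds_zero_of_lt_one (by norm_num) (by norm_num)
    have h5 := h4.comp hφ.tendsto_atTop
    refine h5.congr fun k => ?_
    simp [Function.comp]
  have h6 : Tendsto (fun k => PInf (x k) - (1 / 2 ^ φ k) * Mb (A0 - 2200000) (A0 / 2) (x k)) atTop
      (𝓝 (PInf x₀ - 0 * Mb (A0 - 2200000) (A0 / 2) x₀)) := h1.sub (h3.mul h2)
  rw [zero_mul, sub_zero] at h6
  refine tendsto_of_tendsto_of_tendsto_of_le_of_le' h6 h1 ?_ ?_
  · filter_upwards [eventually_ge_atTop 1] with k hk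
    have h7 : 1 ≤ φ k := hk.trans (hφ.id_le k)
    have := PInf_le (φ k) h7 (x k)
    linarith
  · exact Eventually.of_forall fun k => PJ_le_PInf _ _

lemma convex_PJ (J : ℕ) : ConvexOn ℝ Set.univ (PJ rhoInf J) := pr_convex (adm_PJ J)

lemma mSeq_le (J : ℕ) : mSeq J ≤ 349 := by
  have h1 := (inv_rhoInf J).loc
  have h2 := cj_pos J
  linarith

lemma mSeq_ge (J : ℕ) : -13 - A0 / 2 ≤ mSeq J := by
  have hK := (inv_rhoInf J).K
  have h12 := second_diff_scale (convex_PJ J) (hj_pos J) ((hj_le J).trans (by norm_num : (11 : ℝ) ≤ 12)) hK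
  set m := mSeq J with hm
  have hw := wj_ge J
  have hadm := adm_PJ J
  have h1 : PJ rhoInf J (m - 12) ≤ PJ rhoInf J (m + 12) := pr_mono hadm (by linarith)
  have h2 : 0 ≤ PJ rhoInf J m := pr_nonneg hadm m
  have hT := Tj_le J
  have hT0 := Tj_nonneg J
  have h3 : PJ rhoInf J (m + 12) ≤ Real.exp (m + 12 + A0 / 2) :=
    pr_le_exp hadm (fun N x => pot_stable (attr_chiJ fun j _ => rhoInf_ge j)
      (by rw [A0_eq]; linarith) (by rw [A0_eq]; norm_num) x) _
  have h4 : (2 / 5 : ℝ) ≤ PJ rhoInf J (m + 12) := by nlinarith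
  have h5 : Real.exp (-1) ≤ 2 / 5 := by
    rw [Real.exp_neg, inv_le_comm₀ (Real.exp_pos _) (by norm_num)]
    have h6 := Real.exp_one_gt_d9
    norm_num at h6 ⊢
    linarith
  have h7 : Real.exp (-1) ≤ Real.exp (m + 12 + A0 / 2) := by linarith
  have h8 := Real.exp_le_exp.mp h7
  linarith

lemma hj_le_geom (J : ℕ) : hj J ≤ 11 * (1 / 2) ^ J := by
  have h1 := ej_le J
  have h2 := cj_pos J
  have h3 := ej_pos J
  have h4 : hj J ≤ (1 / 400) * cj J := by
    unfold hj
    nlinarith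
  rw [cj_eq] at h4
  refine h4.trans (le_of_eq ?_)
  ring

/-- The limit pressure has a genuine kink at a limit point of the near-kink locations. -/
theorem PInf_kink : ∃ m : ℝ, ∀ t : ℝ, 0 < t →
    (29 / 400) * t ≤ PInf (m + t) + PInf (m - t) - 2 * PInf m := by
  obtain ⟨m, -, φ, hφ, hm⟩ := (isCompact_Icc (a := -13 - A0 / 2) (b := (349 : ℝ))).tendsto_subseq
    (x := mSeq) (fun J => ⟨mSeq_ge J, mSeq_le J⟩)
  refine ⟨m, fun t ht => ?_⟩
  have e1 := tendsto_eval hφ (hm.add_const t)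
  have e2 := tendsto_eval hφ (hm.sub_const t)
  have e3 := tendsto_eval hφ hm
  have hlim := (e1.add e2).sub (e3.const_mul 2)
  refine ge_of_tendsto hlim ?_
  have hsmall : Tendsto (fun J : ℕ => 11 * (1 / 2 : ℝ) ^ J) atTop (𝓝 (11 * 0)) :=
    (tendsto_pow_atTop_nhds_zero_of_lt_one (by norm_num) (by norm_num)).const_mul _
  rw [mul_zero] at hsmall
  have hev := (hφ.tendsto_atTop).eventually (hsmall.eventually (gt_mem_nhds ht))
  filter_upwards [hev] with k hk
  have h1 : hj (φ k) ≤ t := (hj_le_geom _).trans hk.le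
  have h2 := second_diff_scale (convex_PJ (φ k)) (hj_pos _) h1 (inv_rhoInf (φ k)).K
  have h3 := wj_ge (φ k)
  have h4 := mul_le_mul_of_nonneg_right h3 ht.le
  simp only [Function.comp] at *
  linarith

end Vale.Agent.Lib.P171
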