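import Vale.Agent.Lib.P171.Class

open MeasureTheory Set Filter Topology Metric
open scoped ENNReal

namespace Vale.Agent.Lib.P171

/-- Adding one weighted Kac attraction to a potential. -/
noncomputable def addKac (f : ℝ → ℝ) (c ρ : ℝ) : ℝ → ℝ := fun r => f r - c * kac ρ r

lemma addKac_pot (A : ℝ) (χ : ℝ → ℝ) (c ρ : ℝ) :
    addKac (pot A χ) c ρ = pot A (fun r => χ r + c * kac ρ r) := by
  funext r
  simp only [addKac, pot]
  ring

lemma pairE_radK_sub (f g : ℝ → ℝ) (c : ℝ) {N : ℕ} (x : Fin N → E3) :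
    pairE (radK fun r => f r - c * g r) x = pairE (radK f) x - c * pairE (radK g) x := by
  unfold pairE radK
  have : ∀ i j : Fin N, (if i = j then (0 : ℝ) else f ‖x i - x j‖ - c * g ‖x i - x j‖)
      = (if i = j then 0 else f ‖x i - x j‖) - c * (if i = j then 0 else g ‖x i - x j‖) := by
    intro i j
    split_ifs <;> simp
  simp only [this, Finset.sum_sub_distrib, ← Finset.mul_sum]
  ring

lemma pairE_radK_eq (g : ℝ → ℝ) {N : ℕ} (x : Fin N → E3) :
    pairE (radK g) x = (1 / 2) * (∑ i, ∑ k, g ‖x i - x k‖ - N * g 0) := by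
  unfold pairE radK
  congr 1
  have : ∀ i j : Fin N, (if i = j then (0 : ℝ) else g ‖x i - x j‖)
      = g ‖x i - x j‖ - (if i = j then g 0 else 0) := by
    intro i j
    by_cases h : i = j
    · subst h
      simp
    · simp [h]
  simp only [this, Finset.sum_sub_distrib, Finset.sum_ite_eq, Finset.mem_univ, if_true,
    Finset.sum_const, Finset.card_univ, Fintype.card_fin, nsmul_eq_mul]

lemma coef_add (μ s : ℝ) (n : ℕ) :
    coef (μ + s) n = ENNReal.ofReal (Real.exp (s * n)) * coef μ n := by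
  unfold coef
  rw [← ENNReal.ofReal_mul (Real.exp_pos _).le]
  congr 1
  rw [add_mul, Real.exp_add]
  ring

/-- Comparison of partition functions from a pointwise energy bound, with a linear
shift of the log-activity. -/
lemma Xi_shift_le {w w' : E3 → E3 → ℝ} {B : Set E3} (hB : MeasurableSet B) {s E μ : ℝ}
    (h : ∀ (N : ℕ) (x : Fin N → E3), (∀ i, x i ∈ B) → pairE w' x ≤ pairE w x - s * N + E) :
    ENNReal.ofReal (Real.exp (-E)) * Xi w B (μ + s) ≤ Xi w' B μ := by
  unfold Xi
  rw [← ENNReal.tsum_mul_left]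
  refine ENNReal.tsum_le_tsum fun N => ?_
  rw [coef_add]
  calc ENNReal.ofReal (Real.exp (-E)) * (ENNReal.ofReal (Real.exp (s * N)) * coef μ N * zInt w B (Fin N))
      = coef μ N * (ENNReal.ofReal (Real.exp (-E + s * N)) * zInt w B (Fin N)) := by
        rw [Real.exp_add, ENNReal.ofReal_mul (Real.exp_pos _).le]
        ring
    _ ≤ coef μ N * zInt w' B (Fin N) := by
        refine mul_le_mul_right ?_ _
        unfold zInt
        rw [← lintegral_const_mul' _ _ ENNReal.ofReal_ne_top]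
        refine setLIntegral_mono' (measurableSet_box hB) fun x hx => ?_
        rw [← ENNReal.ofReal_mul (Real.exp_pos _).le, ← Real.exp_add]
        refine ENNReal.ofReal_le_ofReal (Real.exp_le_exp.mpr ?_)
        have := h N x (fun i => hx i (Set.mem_univ i))
        linarith

/-- Lower bound of the pressure of `f - c kac ρ` for a trial density `y`. -/
theorem pr_addKac_ge {f : ℝ → ℝ} {a b a' b' c ρ y : ℝ} (hf : Adm f a b)
    (hf' : Adm (addKac f c ρ) a' b') (hc : 0 ≤ c) (hρ : 0 < ρ) (hy : 0 ≤ y) (μ : ℝ) :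
    pr f (μ + (c * y - c / (2 * (ρ ^ 3 * v1)))) - c / 2 * y ^ 2 ≤ pr (addKac f c ρ) μ := by
  have hv := v1_pos
  set s : ℝ := c * y - c / (2 * (ρ ^ 3 * v1)) with hs
  -- the finite volume comparison
  have hfin : ∀ L : ℝ, 1 ≤ L →
      lg f L (μ + s) - c / 2 * y ^ 2 * (L + 2 * ρ) ^ 3 ≤ lg (addKac f c ρ) L μ := by
    intro L hL
    have hL0 : 0 ≤ L := by linarith
    have hX := Xi_shift_le (w := radK f) (w' := radK (addKac f c ρ)) (measurableSet_cube L)
      (s := s) (E := c / 2 * y ^ 2 * (L + 2 * ρ) ^ 3) (μ := μ) (fun N x hx => by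
        have h1 := kac_field_lower hρ hL0 hy x hx
        simp only [Fintype.card_fin] at h1
        have h2 : radK (addKac f c ρ) = radK (fun r => f r - c * kac ρ r) := rfl
        rw [h2, pairE_radK_sub, pairE_radK_eq (kac ρ), kac_zero hρ]
        have h3 := mul_le_mul_of_nonneg_left h1 hc
        have h4 : (c / (2 * (ρ ^ 3 * v1))) * N = c * (1 / 2) * (N * (1 / (ρ ^ 3 * v1))) := by
          field_simp
        rw [hs]
        nlinarith)
    refine le_lg_of_le_Xi hf' hL (le_trans (le_of_eq ?_) hX)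
    rw [ofReal_lg hf hL, ← ENNReal.ofReal_mul (Real.exp_pos _).le, ← Real.exp_add]
    congr 2
    ring
  -- pass to the limit
  have hlim1 : Tendsto (fun L : ℝ => lg f L (μ + s) / L ^ 3 - c / 2 * y ^ 2 * (1 + 2 * ρ * (1 / L)) ^ 3)
      atTop (𝓝 (pr f (μ + s) - c / 2 * y ^ 2 * (1 + 2 * ρ * 0) ^ 3)) := by
    refine (tendsto_lg hf _).sub (Tendsto.const_mul _ (Tendsto.pow ?_ 3))
    exact tendsto_const_nhds.add (tendsto_one_div_atTop.const_mul _)
  have hlim2 := tendsto_lg hf' μ
  have hle := le_of_tendsto_of_tendsto hlim1 hlim2 ?_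
  · simpa using hle
  · filter_upwards [eventually_ge_atTop (1 : ℝ)] with L hL
    have hLpos : 0 < L := by linarith
    have h3 := hfin L hL
    rw [le_div_iff₀ (by positivity)]
    have e : (lg f L (μ + s) / L ^ 3 - c / 2 * y ^ 2 * (1 + 2 * ρ * (1 / L)) ^ 3) * L ^ 3
        = lg f L (μ + s) - c / 2 * y ^ 2 * (L + 2 * ρ) ^ 3 := by
      field_simp
    rw [e]
    exact h3


/-- Interaction restricted to pairs in a common grid cell. -/
noncomputable def cellK (l t : ℝ) (h : ℝ → ℝ) : E3 → E3 → ℝ :=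
  fun x y => if idx l t x = idx l t y then h ‖x - y‖ else 0

lemma cellK_symm (l t : ℝ) (h : ℝ → ℝ) (x y : E3) : cellK l t h x y = cellK l t h y x := by
  unfold cellK
  by_cases hxy : idx l t x = idx l t y
  · rw [if_pos hxy, if_pos hxy.symm, norm_sub_rev]
  · rw [if_neg hxy, if_neg (fun e => hxy e.symm)]

lemma measurable_idx (l t : ℝ) : Measurable (idx l t) := by
  refine measurable_pi_iff.mpr fun j => ?_
  unfold idx
  refine Measurable.floor ?_
  fun_prop

lemma measurable_cellK (l t : ℝ) {h : ℝ → ℝ} (hm : Measurable h) :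
    Measurable (Function.uncurry (cellK l t h)) := by
  unfold cellK Function.uncurry
  refine Measurable.ite ?_ (hm.comp (by fun_prop)) measurable_const
  have hset : {a : E3 × E3 | idx l t a.1 = idx l t a.2}
      = ⋂ j : Fin 3, {a : E3 × E3 | idx l t a.1 j = idx l t a.2 j} := by
    ext a
    simp [funext_iff]
  rw [hset]
  refine MeasurableSet.iInter fun j => ?_
  refine measurableSet_eq_fun ?_ ?_
  · exact (measurable_pi_iff.mp (measurable_idx l t) j).comp measurable_fst
  · exact (measurable_pi_iff.mp (measurable_idx l t) j).comp measurable_snd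

section avg

variable {N : ℕ}

/-- Number of diagonal offsets for which two points share a cell. -/
noncomputable def qCount (l : ℕ) (x y : E3) : ℝ :=
  ∑ t ∈ Finset.range l, (if idx (l : ℝ) (t : ℝ) x = idx (l : ℝ) (t : ℝ) y then (1 : ℝ) else 0)

lemma qCount_le (l : ℕ) (x y : E3) : qCount l x y ≤ l := by
  unfold qCount
  calc ∑ t ∈ Finset.range l, (if idx (l : ℝ) (t : ℝ) x = idx (l : ℝ) (t : ℝ) y then (1 : ℝ) else 0)
      ≤ ∑ _t ∈ Finset.range l, (1 : ℝ) :=
        Finset.sum_le_sum fun t _ => by split_ifs <;> norm_num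
    _ = l := by simp

lemma qCount_nonneg (l : ℕ) (x y : E3) : 0 ≤ qCount l x y := by
  unfold qCount
  exact Finset.sum_nonneg fun t _ => by split_ifs <;> norm_num

lemma qCount_self (l : ℕ) (x : E3) : qCount l x x = l := by
  unfold qCount
  simp

lemma qCount_ge {l : ℕ} (hl : 0 < l) (x y : E3) : (l : ℝ) - 3 * (‖x - y‖ + 1) ≤ qCount l x y := by
  classical
  have h1 := card_idx_ne_le hl x y
  have h2 : qCount l x y + ((Finset.range l).filter
      (fun t : ℕ => idx (l : ℝ) (t : ℝ) x ≠ idx (l : ℝ) (t : ℝ) y)).card = l := by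
    unfold qCount
    rw [Finset.card_filter]
    push_cast
    rw [← Finset.sum_add_distrib]
    have : ∀ t ∈ Finset.range l, ((if idx (l : ℝ) (t : ℝ) x = idx (l : ℝ) (t : ℝ) y then (1 : ℝ) else 0)
        + (if idx (l : ℝ) (t : ℝ) x ≠ idx (l : ℝ) (t : ℝ) y then (1 : ℝ) else 0)) = 1 := by
      intro t _
      by_cases h : idx (l : ℝ) (t : ℝ) x = idx (l : ℝ) (t : ℝ) y <;> simp [h]
    rw [Finset.sum_congr rfl this]
    simp
  linarith

/-- Averaging the cell kernels over the offsets. -/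
lemma sum_pairE_cellK (l : ℕ) (h : ℝ → ℝ) (x : Fin N → E3) :
    ∑ t ∈ Finset.range l, pairE (cellK (l : ℝ) (t : ℝ) h) x
      = (1 / 2) * ∑ i, ∑ k, if i = k then 0 else qCount l (x i) (x k) * h ‖x i - x k‖ := by
  unfold pairE cellK
  rw [← Finset.mul_sum]
  congr 1
  rw [Finset.sum_comm]
  refine Finset.sum_congr rfl fun i _ => ?_
  rw [Finset.sum_comm]
  refine Finset.sum_congr rfl fun k _ => ?_
  by_cases hik : i = k
  · simp [hik]
  · simp only [hik, if_false]
    unfold qCount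
    rw [Finset.sum_mul]
    refine Finset.sum_congr rfl fun t _ => ?_
    split_ifs <;> simp

/-- Averaged form of the Young bound. -/
lemma kac_young_avg {l : ℕ} (hl : 0 < l) {ρ : ℝ} (hρ : 0 < ρ) (x : Fin N → E3) :
    (l : ℝ) * ∑ i, ∑ k, kac ρ ‖x i - x k‖
      ≤ ((ρ + 2 * l) ^ 3 / (ρ ^ 3 * (l : ℝ) ^ 3)) * ∑ i, ∑ k, qCount l (x i) (x k) := by
  have hl' : (0 : ℝ) < l := by exact_mod_cast hl
  have h1 : ∀ t ∈ Finset.range l, ∑ i, ∑ k, kac ρ ‖x i - x k‖
      ≤ ((ρ + 2 * l) ^ 3 / (ρ ^ 3 * (l : ℝ) ^ 3)) *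
        ∑ i, ∑ k, (if idx (l : ℝ) (t : ℝ) (x i) = idx (l : ℝ) (t : ℝ) (x k) then (1 : ℝ) else 0) :=
    fun t _ => kac_young hl' hρ (t : ℝ) x
  have h2 := Finset.sum_le_sum h1
  simp only [Finset.sum_const, Finset.card_range, nsmul_eq_mul, ← Finset.mul_sum] at h2
  refine h2.trans (le_of_eq ?_)
  congr 1
  unfold qCount
  rw [Finset.sum_comm]
  refine Finset.sum_congr rfl fun i _ => ?_
  rw [Finset.sum_comm]

/-- The key pointwise inequality: mean field decoupling of the long range term and of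
the cross-cell part of the short range term. -/
theorem energy_avg {f g : ℝ → ℝ} {l : ℕ} (hl : 0 < l) {c ρ κ : ℝ} (hc : 0 ≤ c) (hρ : 0 < ρ)
    (hκ : c * ((ρ + 2 * l) ^ 3 / (ρ ^ 3 * (l : ℝ) ^ 3)) ≤ κ)
    (hfg : ∀ r : ℝ, 0 ≤ r → ∀ q : ℝ, 1 - 3 * (r + 1) / (l : ℝ) ≤ q → q ≤ 1 → 0 ≤ q →
      -f r ≤ -(q * g r))
    (x : Fin N → E3) :
    -pairE (radK (addKac f c ρ)) x
      ≤ (1 / (l : ℝ)) * ∑ t ∈ Finset.range l,
          (-pairE (cellK (l : ℝ) (t : ℝ) (fun r => g r - κ)) x + κ / 2 * N) := by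
  have hl' : (0 : ℝ) < l := by exact_mod_cast hl
  have hA : radK (addKac f c ρ) = radK (fun r => f r - c * kac ρ r) := rfl
  rw [Finset.sum_add_distrib, Finset.sum_neg_distrib, sum_pairE_cellK]
  simp only [Finset.sum_const, Finset.card_range, nsmul_eq_mul]
  rw [hA, pairE_radK_sub]
  -- abbreviations for the sums
  set q : Fin N → Fin N → ℝ := fun i k => qCount l (x i) (x k) / l with hq
  have hq1 : ∀ i k, q i k ≤ 1 := fun i k => by
    rw [hq]
    exact (div_le_one hl').mpr (qCount_le l _ _)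
  have hq0 : ∀ i k, 0 ≤ q i k := fun i k => div_nonneg (qCount_nonneg l _ _) hl'.le
  have hqge : ∀ i k, 1 - 3 * (‖x i - x k‖ + 1) / l ≤ q i k := by
    intro i k
    have h1 := qCount_ge hl (x i) (x k)
    have e : 1 - 3 * (‖x i - x k‖ + 1) / (l : ℝ) = ((l : ℝ) - 3 * (‖x i - x k‖ + 1)) / l := by
      field_simp
    rw [e]
    exact div_le_div_of_nonneg_right h1 hl'.le
  -- kinetic-free comparison of the short range term
  have hS : -pairE (radK f) x
      ≤ (1 / 2) * ∑ i, ∑ k, if i = k then 0 else -(q i k * g ‖x i - x k‖) := by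
    have : -pairE (radK f) x = (1 / 2) * ∑ i, ∑ k, if i = k then 0 else -f ‖x i - x k‖ := by
      unfold pairE radK
      rw [← mul_neg]
      congr 1
      rw [← Finset.sum_neg_distrib]
      refine Finset.sum_congr rfl fun i _ => ?_
      rw [← Finset.sum_neg_distrib]
      refine Finset.sum_congr rfl fun k _ => ?_
      split_ifs <;> simp
    rw [this]
    refine mul_le_mul_of_nonneg_left ?_ (by norm_num)
    refine Finset.sum_le_sum fun i _ => Finset.sum_le_sum fun k _ => ?_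
    split_ifs
    · exact le_rfl
    · exact hfg _ (norm_nonneg _) _ (hqge i k) (hq1 i k) (hq0 i k)
  -- the Kac term
  have hK : c * pairE (radK (kac ρ)) x ≤ κ / 2 * ∑ i, ∑ k, q i k := by
    rw [pairE_radK_eq (kac ρ)]
    have h1 := kac_young_avg hl hρ x
    have h2 : 0 ≤ (N : ℝ) * kac ρ 0 := mul_nonneg (Nat.cast_nonneg _) (kac_nonneg _ _)
    have h3 : ∑ i, ∑ k, kac ρ ‖x i - x k‖
        ≤ ((ρ + 2 * l) ^ 3 / (ρ ^ 3 * (l : ℝ) ^ 3)) * ∑ i, ∑ k, q i k := by
      have e : ∑ i, ∑ k, q i k = (∑ i, ∑ k, qCount l (x i) (x k)) / l := by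
        rw [hq, Finset.sum_div]
        refine Finset.sum_congr rfl fun i _ => ?_
        rw [Finset.sum_div]
      rw [e, ← mul_div_assoc, le_div_iff₀ hl', mul_comm]
      exact h1
    have hSq : 0 ≤ ∑ i, ∑ k, q i k :=
      Finset.sum_nonneg fun i _ => Finset.sum_nonneg fun k _ => hq0 i k
    have h4 := mul_le_mul_of_nonneg_left h3 hc
    have h5 := mul_le_mul_of_nonneg_right hκ hSq
    have h6 : c * ((N : ℝ) * kac ρ 0) ≥ 0 := mul_nonneg hc h2
    nlinarith
  -- splitting the diagonal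
  have hD : ∑ i, ∑ k, q i k = N + ∑ i, ∑ k, if i = k then 0 else q i k := by
    have : ∀ i k, q i k = (if i = k then (1 : ℝ) else 0) + (if i = k then 0 else q i k) := by
      intro i k
      by_cases hik : i = k
      · subst hik
        simp only [if_true, add_zero, hq]
        rw [qCount_self, div_self hl'.ne']
      · simp [hik]
    calc ∑ i, ∑ k, q i k
        = ∑ i, ∑ k, ((if i = k then (1 : ℝ) else 0) + (if i = k then 0 else q i k)) :=
          Finset.sum_congr rfl fun i _ => Finset.sum_congr rfl fun k _ => this i k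
      _ = _ := by
          simp only [Finset.sum_add_distrib, Finset.sum_ite_eq, Finset.mem_univ, if_true,
            Finset.sum_const, Finset.card_univ, Fintype.card_fin, nsmul_eq_mul, mul_one]
  -- the cell energy expressed through q
  have hC : (1 / (l : ℝ)) * -((1 / 2) * ∑ i, ∑ k, if i = k then 0 else
        qCount l (x i) (x k) * (g ‖x i - x k‖ - κ))
      = (1 / 2) * ∑ i, ∑ k, if i = k then 0 else (-(q i k * g ‖x i - x k‖) + κ * q i k) := by
    have e : ∀ i k : Fin N, (if i = k then (0 : ℝ) else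
        (-(q i k * g ‖x i - x k‖) + κ * q i k))
        = -(1 / (l : ℝ)) * (if i = k then 0 else
          qCount l (x i) (x k) * (g ‖x i - x k‖ - κ)) := by
      intro i k
      by_cases hik : i = k
      · simp [hik]
      · simp only [hik, if_false, hq]
        field_simp
        ring
    simp only [e, ← Finset.mul_sum]
    ring
  have hC2 : (1 / 2) * ∑ i, ∑ k, (if i = k then 0 else (-(q i k * g ‖x i - x k‖) + κ * q i k))
      = (1 / 2) * (∑ i, ∑ k, if i = k then 0 else -(q i k * g ‖x i - x k‖))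
        + κ / 2 * (∑ i, ∑ k, if i = k then 0 else q i k) := by
    have e : ∀ i k : Fin N, (if i = k then (0 : ℝ) else (-(q i k * g ‖x i - x k‖) + κ * q i k))
        = (if i = k then 0 else -(q i k * g ‖x i - x k‖)) + κ * (if i = k then 0 else q i k) := by
      intro i k
      split_ifs <;> simp
    simp only [e, Finset.sum_add_distrib, ← Finset.mul_sum]
    ring
  have hfin : (1 / (l : ℝ)) * (-((1 / 2) * ∑ i, ∑ k, if i = k then 0 else
        qCount l (x i) (x k) * (g ‖x i - x k‖ - κ)) + (l : ℝ) * (κ / 2 * N))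
      = (1 / 2) * (∑ i, ∑ k, if i = k then 0 else -(q i k * g ‖x i - x k‖))
        + κ / 2 * (∑ i, ∑ k, if i = k then 0 else q i k) + κ / 2 * N := by
    rw [mul_add, hC, hC2]
    field_simp
  rw [hfin]
  rw [hD] at hK
  nlinarith

end avg


/-- A partition function bounded through an average of Boltzmann factors. -/
lemma Xi_avg_le {w : E3 → E3 → ℝ} {W : ℕ → E3 → E3 → ℝ} {B : Set E3} (hB : MeasurableSet B)
    (hW : ∀ t, Measurable (Function.uncurry (W t))) {l : ℕ} (hl : 0 < l) {s μ : ℝ}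
    (h : ∀ (N : ℕ) (x : Fin N → E3), (∀ i, x i ∈ B) →
      Real.exp (-pairE w x) ≤ (1 / (l : ℝ)) * ∑ t ∈ Finset.range l, Real.exp (-pairE (W t) x + s * N))
    {Y : ℝ≥0∞} (hY : ∀ t ∈ Finset.range l, Xi (W t) B (μ + s) ≤ Y) : Xi w B μ ≤ Y := by
  have hl' : (0 : ℝ) < l := by exact_mod_cast hl
  have hterm : ∀ N : ℕ, coef μ N * zInt w B (Fin N)
      ≤ ∑ t ∈ Finset.range l, ENNReal.ofReal (1 / (l : ℝ)) * (coef (μ + s) N * zInt (W t) B (Fin N)) := by
    intro N
    have hz : zInt w B (Fin N) ≤ ∑ t ∈ Finset.range l,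
        ENNReal.ofReal (1 / (l : ℝ)) * (ENNReal.ofReal (Real.exp (s * N)) * zInt (W t) B (Fin N)) := by
      unfold zInt
      simp only [← lintegral_const_mul' _ _ ENNReal.ofReal_ne_top]
      rw [← lintegral_finsetSum']
      · refine setLIntegral_mono' (measurableSet_box hB) fun x hx => ?_
        have hx' := h N x (fun i => hx i (Set.mem_univ i))
        refine (ENNReal.ofReal_le_ofReal hx').trans (le_of_eq ?_)
        rw [ENNReal.ofReal_mul (by positivity),
          ENNReal.ofReal_sum_of_nonneg (fun t _ => (Real.exp_pos _).le), Finset.mul_sum]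
        refine Finset.sum_congr rfl fun t _ => ?_
        rw [← ENNReal.ofReal_mul (Real.exp_pos _).le, ← Real.exp_add]
        congr 3
        ring
      · intro t _
        exact ((measurable_boltz (hW t)).const_mul _ |>.const_mul _).aemeasurable
    refine (mul_le_mul_right hz _).trans (le_of_eq ?_)
    rw [Finset.mul_sum]
    refine Finset.sum_congr rfl fun t _ => ?_
    rw [coef_add]
    ring
  unfold Xi at hY ⊢
  refine (ENNReal.tsum_le_tsum hterm).trans ?_
  rw [Summable.tsum_finsetSum (fun _ _ => ENNReal.summable)]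
  simp only [ENNReal.tsum_mul_left]
  calc ∑ t ∈ Finset.range l, ENNReal.ofReal (1 / (l : ℝ)) * ∑' N : ℕ, coef (μ + s) N * zInt (W t) B (Fin N)
      ≤ ∑ _t ∈ Finset.range l, ENNReal.ofReal (1 / (l : ℝ)) * Y :=
        Finset.sum_le_sum fun t ht => mul_le_mul_right (hY t ht) _
    _ = Y := by
        rw [Finset.sum_const, Finset.card_range, nsmul_eq_mul, ← mul_assoc,
          ← ENNReal.ofReal_natCast, ← ENNReal.ofReal_mul hl'.le, mul_one_div_cancel hl'.ne']
        simp

/-- Translation moving a grid cell into the standard cube. -/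
noncomputable def cellShift (l t : ℝ) (m : Fin 3 → ℤ) : E3 :=
  WithLp.toLp 2 (fun j => -(l * (m j : ℝ) + t))

lemma cell_subset {l t : ℝ} (hl : 0 < l) (m : Fin 3 → ℤ) :
    gridCell l t m ⊆ (fun x => x + cellShift l t m) ⁻¹' cube l := by
  intro x hx
  rw [gridCell_eq hl] at hx
  intro j
  have h1 := hx j
  simp only [Set.mem_Ico] at h1
  simp only [cellShift, PiLp.add_apply, Set.mem_Icc]
  constructor
  · linarith [h1.1]
  · nlinarith [h1.2]

/-- Decoupling over the cells of the grid. -/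
lemma Xi_cell_le {h : ℝ → ℝ} (hm : Measurable h) {l : ℕ} (hl : 0 < l) {t : ℕ} (ht : t < l) (k : ℕ)
    (μ : ℝ) :
    Xi (cellK (l : ℝ) (t : ℝ) h) (cube ((k : ℝ) * l)) μ
      ≤ Xi (radK h) (cube (l : ℝ)) μ ^ ((k + 2) ^ 3) := by
  classical
  have hl' : (0 : ℝ) < l := by exact_mod_cast hl
  set I : Finset (Fin 3 → ℤ) := Fintype.piFinset (fun _ : Fin 3 => Finset.Icc (-1 : ℤ) k) with hI
  have hcard : I.card = (k + 2) ^ 3 := by
    rw [hI, Fintype.card_piFinset]
    simp only [Int.card_Icc, Finset.prod_const, Finset.card_univ, Fintype.card_fin]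
    congr 1
  set B : (Fin 3 → ℤ) → Set E3 := fun m => cube ((k : ℝ) * l) ∩ gridCell (l : ℝ) (t : ℝ) m with hB
  have hBm : ∀ m ∈ I, MeasurableSet (B m) := fun m _ =>
    (measurableSet_cube _).inter (measurableSet_gridCell hl' _ m)
  have hcover : cube ((k : ℝ) * l) ⊆ ⋃ m ∈ I, B m := by
    intro x hx
    simp only [Set.mem_iUnion, exists_prop]
    refine ⟨idx (l : ℝ) (t : ℝ) x, ?_, hx, rfl⟩
    rw [hI, Fintype.mem_piFinset]
    intro j
    have hxj := hx j
    have htl : (t : ℝ) < l := by exact_mod_cast ht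
    have ht0 : (0 : ℝ) ≤ t := Nat.cast_nonneg t
    simp only [Finset.mem_Icc, idx]
    constructor
    · rw [Int.le_floor, le_div_iff₀ hl']
      push_cast
      linarith [hxj.1]
    · refine Int.lt_add_one_iff.mp ?_
      rw [Int.floor_lt, div_lt_iff₀ hl']
      push_cast
      have := hxj.2
      nlinarith
  have hd : Set.PairwiseDisjoint (↑I) B := by
    intro m _ m' _ hmm
    rw [Function.onFun, Set.disjoint_left]
    intro z hz hz'
    exact hmm (hz.2.symm.trans hz'.2)
  have hbi := Xi_biUnion_le (w := cellK (l : ℝ) (t : ℝ) h) (measurable_cellK _ _ hm) (cellK_symm _ _ h)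
    I B hBm hd μ (fun m _ m' _ hmm x hx y hy => by
      have hne : idx (l : ℝ) (t : ℝ) x ≠ idx (l : ℝ) (t : ℝ) y := fun e =>
        hmm (hx.2.symm.trans (e.trans hy.2))
      simp [cellK, hne])
  refine (Xi_mono_set _ hcover μ).trans (hbi.trans ?_)
  rw [← hcard]
  refine Finset.prod_le_pow_card _ _ _ fun m _ => ?_
  calc Xi (cellK (l : ℝ) (t : ℝ) h) (B m) μ
      ≤ Xi (radK h) (B m) μ := by
        refine Xi_mono_kernel ((measurableSet_cube _).inter (measurableSet_gridCell hl' _ m))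
          (fun x hx y hy => ?_) μ
        have : idx (l : ℝ) (t : ℝ) x = idx (l : ℝ) (t : ℝ) y := hx.2.trans hy.2.symm
        simp [cellK, radK, this]
    _ ≤ Xi (radK h) ((fun x => x + cellShift (l : ℝ) (t : ℝ) m) ⁻¹' cube (l : ℝ)) μ :=
        Xi_mono_set _ ((Set.inter_subset_right).trans (cell_subset hl' m)) μ
    _ = Xi (radK h) (cube (l : ℝ)) μ := Xi_translate (radK_translate h) _ _ _

lemma pairE_radK_sub_const (g : ℝ → ℝ) (κ : ℝ) {N : ℕ} (x : Fin N → E3) :
    pairE (radK fun r => g r - κ) x = pairE (radK g) x - κ * (((N : ℝ) ^ 2 - N) / 2) := by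
  have h1 := pairE_radK_sub g (fun _ => 1) κ x
  simp only [mul_one] at h1
  rw [h1, pairE_radK_eq (fun _ => (1 : ℝ))]
  simp only [Finset.sum_const, Finset.card_univ, Fintype.card_fin, nsmul_eq_mul, mul_one]
  ring

/-- The one cell partition function of the mean field problem. -/
lemma Xi_meanfield_le {g : ℝ → ℝ} {a b : ℝ} (hg : Adm g a b) {l : ℝ} (hl : 1 ≤ l) {κ ε μ C : ℝ}
    (_hκ : 0 < κ) (hε : 0 < ε)
    (hC : ∀ ν : ℝ, lg g l (ν + ε) ≤ C + (ν - μ) ^ 2 / (2 * κ)) :
    Xi (radK fun r => g r - κ) (cube l) (μ + κ / 2)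
      ≤ ENNReal.ofReal (Real.exp C / (1 - Real.exp (-ε))) := by
  have hr : Real.exp (-ε) < 1 := by
    rw [Real.exp_lt_one_iff]
    linarith
  have hgeo : HasSum (fun N : ℕ => Real.exp C * Real.exp (-ε) ^ N)
      (Real.exp C * (1 - Real.exp (-ε))⁻¹) :=
    (hasSum_geometric_of_lt_one (Real.exp_pos _).le hr).mul_left _
  have hdiv : Real.exp C / (1 - Real.exp (-ε)) = Real.exp C * (1 - Real.exp (-ε))⁻¹ :=
    div_eq_mul_inv _ _
  rw [hdiv, ← hgeo.tsum_eq, ENNReal.ofReal_tsum_of_nonneg (fun n => by positivity)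
    hgeo.summable]
  unfold Xi
  refine ENNReal.tsum_le_tsum fun N => ?_
  have hz : zInt (radK fun r => g r - κ) (cube l) (Fin N)
      = ENNReal.ofReal (Real.exp (κ * (((N : ℝ) ^ 2 - N) / 2))) * zInt (radK g) (cube l) (Fin N) := by
    unfold zInt
    rw [← lintegral_const_mul' _ _ ENNReal.ofReal_ne_top]
    refine lintegral_congr fun x => ?_
    rw [pairE_radK_sub_const, ← ENNReal.ofReal_mul (Real.exp_pos _).le, ← Real.exp_add]
    congr 2
    ring
  have hc : coef (μ + κ / 2) N * ENNReal.ofReal (Real.exp (κ * (((N : ℝ) ^ 2 - N) / 2)))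
      = ENNReal.ofReal (Real.exp (-ε * N - κ * (N : ℝ) ^ 2 / 2)) * coef (μ + κ * N + ε) N := by
    unfold coef
    rw [← ENNReal.ofReal_mul (by positivity), ← ENNReal.ofReal_mul (Real.exp_pos _).le]
    congr 1
    have e1 : ∀ A B F : ℝ, Real.exp A / F * Real.exp B = Real.exp (A + B) / F := by
      intro A B F
      rw [Real.exp_add]
      ring
    have e2 : ∀ A B F : ℝ, Real.exp A * (Real.exp B / F) = Real.exp (A + B) / F := by
      intro A B F
      rw [Real.exp_add]
      ring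
    rw [e1, e2]
    congr 2
    ring
  rw [hz, ← mul_assoc, hc, mul_assoc]
  have hb : coef (μ + κ * N + ε) N * zInt (radK g) (cube l) (Fin N)
      ≤ ENNReal.ofReal (Real.exp (C + (κ * N) ^ 2 / (2 * κ))) := by
    have h1 : coef (μ + κ * N + ε) N * zInt (radK g) (cube l) (Fin N)
        ≤ Xi (radK g) (cube l) (μ + κ * N + ε) :=
      ENNReal.le_tsum (f := fun n : ℕ => coef (μ + κ * N + ε) n * zInt (radK g) (cube l) (Fin n)) N
    refine h1.trans ?_
    rw [ofReal_lg hg hl]
    refine ENNReal.ofReal_le_ofReal (Real.exp_le_exp.mpr ?_)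
    have h2 := hC (μ + κ * N)
    have e : μ + κ * N - μ = κ * N := by ring
    rwa [e] at h2
  refine (mul_le_mul_right hb _).trans ?_
  rw [← ENNReal.ofReal_mul (Real.exp_pos _).le, ← Real.exp_add]
  refine ENNReal.ofReal_le_ofReal (le_of_eq ?_)
  rw [← Real.exp_nat_mul, ← Real.exp_add]
  congr 1
  field_simp
  ring

/-- The upper bound for the pressure of `f - c kac ρ`, with explicit errors. -/
theorem pr_addKac_le {f g : ℝ → ℝ} {a b a' b' c ρ : ℝ} (hf' : Adm (addKac f c ρ) a' b') (hg : Adm g a b)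
    {l : ℕ} (hl : 1 ≤ l) {κ ε μ S : ℝ} (hc : 0 ≤ c) (hρ : 0 < ρ)
    (hκ : c * ((ρ + 2 * l) ^ 3 / (ρ ^ 3 * (l : ℝ) ^ 3)) ≤ κ) (hκ0 : 0 < κ) (hε : 0 < ε)
    (hfg : ∀ r : ℝ, 0 ≤ r → ∀ q : ℝ, 1 - 3 * (r + 1) / (l : ℝ) ≤ q → q ≤ 1 → 0 ≤ q →
      -f r ≤ -(q * g r))
    (hS : ∀ ν : ℝ, (1 + 1 / (l : ℝ)) ^ 3 * pr g (ν + ε) ≤ S + (ν - μ) ^ 2 / (2 * (κ * (l : ℝ) ^ 3))) :
    pr (addKac f c ρ) μ ≤ S + Real.log (1 / (1 - Real.exp (-ε))) / (l : ℝ) ^ 3 := by
  have hl0 : 0 < l := hl
  have hl' : (0 : ℝ) < l := by exact_mod_cast hl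
  have hl1 : (1 : ℝ) ≤ l := by exact_mod_cast hl
  set V : ℝ := (l : ℝ) ^ 3 with hV
  have hVpos : 0 < V := by positivity
  have hr : 0 < 1 - Real.exp (-ε) := by
    have : Real.exp (-ε) < 1 := by
      rw [Real.exp_lt_one_iff]
      linarith
    linarith
  set Λ : ℝ := Real.log (1 / (1 - Real.exp (-ε))) with hΛ
  have hexpΛ : Real.exp Λ = 1 / (1 - Real.exp (-ε)) := by
    rw [hΛ, Real.exp_log (by positivity)]
  set h : ℝ → ℝ := fun r => g r - κ with hh
  have hhm : Measurable h := hg.meas.sub measurable_const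
  have hY : Xi (radK h) (cube (l : ℝ)) (μ + κ / 2) ≤ ENNReal.ofReal (Real.exp (V * S + Λ)) := by
    refine (Xi_meanfield_le (C := V * S) hg hl1 hκ0 hε fun ν => ?_).trans (le_of_eq ?_)
    · refine (lg_le_pr hg hl1 _).trans ?_
      have h1 := mul_le_mul_of_nonneg_left (hS ν) hVpos.le
      have e1 : V * ((1 + 1 / (l : ℝ)) ^ 3 * pr g (ν + ε)) = ((l : ℝ) + 1) ^ 3 * pr g (ν + ε) := by
        rw [hV]
        field_simp
      have e2 : V * (S + (ν - μ) ^ 2 / (2 * (κ * V))) = V * S + (ν - μ) ^ 2 / (2 * κ) := by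
        field_simp
      rw [e1, e2] at h1
      exact h1
    · rw [Real.exp_add, hexpΛ]
      congr 1
      ring
  have hmain : ∀ k : ℕ, 1 ≤ k → lg (addKac f c ρ) ((k : ℝ) * l) μ
      ≤ (((k : ℝ) + 2) ^ 3) * (V * S + Λ) := by
    intro k hk
    have hk1 : (1 : ℝ) ≤ k := by exact_mod_cast hk
    have hL : 1 ≤ (k : ℝ) * l := by nlinarith
    refine lg_le_of_Xi_le hf' hL ?_
    have hX := Xi_avg_le (w := radK (addKac f c ρ))
      (W := fun t : ℕ => cellK (l : ℝ) (t : ℝ) h) (B := cube ((k : ℝ) * l)) (measurableSet_cube _)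
      (fun t => measurable_cellK _ _ hhm) hl0 (s := κ / 2) (μ := μ) (fun N x _ => by
        have h1 := energy_avg hl0 hc hρ hκ hfg x
        have h2 := Real.exp_le_exp.mpr h1
        refine h2.trans ?_
        have hJ := convexOn_exp.map_sum_le (t := Finset.range l) (w := fun _ => 1 / (l : ℝ))
          (p := fun t : ℕ => -pairE (cellK (l : ℝ) (t : ℝ) h) x + κ / 2 * N)
          (fun _ _ => by positivity)
          (by simp [hl'.ne']) (fun _ _ => Set.mem_univ _)
        simp only [smul_eq_mul, ← Finset.mul_sum] at hJ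
        exact hJ)
      (Y := ENNReal.ofReal (Real.exp (V * S + Λ)) ^ ((k + 2) ^ 3)) (fun t ht => by
        refine (Xi_cell_le hhm hl0 (Finset.mem_range.mp ht) k _).trans ?_
        exact pow_le_pow_left' hY _)
    refine hX.trans (le_of_eq ?_)
    rw [← ENNReal.ofReal_pow (Real.exp_pos _).le, ← Real.exp_nat_mul]
    push_cast
    rfl
  -- pass to the limit
  have hcomp : Tendsto (fun k : ℕ => (k : ℝ) * l) atTop atTop :=
    tendsto_natCast_atTop_atTop.atTop_mul_const hl'
  have hlim1 := (tendsto_lg hf' μ).comp hcomp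
  have hinv : Tendsto (fun k : ℕ => 1 / (k : ℝ)) atTop (𝓝 0) :=
    tendsto_one_div_atTop.comp tendsto_natCast_atTop_atTop
  have hlim2 : Tendsto (fun k : ℕ => (1 / (l : ℝ) + (2 / l) * (1 / (k : ℝ))) ^ 3 * (V * S + Λ)) atTop
      (𝓝 ((1 / (l : ℝ) + (2 / l) * 0) ^ 3 * (V * S + Λ))) :=
    Tendsto.mul_const _ (Tendsto.pow (tendsto_const_nhds.add (hinv.const_mul _)) 3)
  have hle := le_of_tendsto_of_tendsto hlim1 hlim2 ?_
  · refine hle.trans (le_of_eq ?_)
    rw [hV]
    field_simp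
    ring
  · filter_upwards [eventually_ge_atTop 1] with k hk
    have hk1 : (1 : ℝ) ≤ k := by exact_mod_cast hk
    have hk0 : (0 : ℝ) < k := by linarith
    simp only [Function.comp]
    rw [div_le_iff₀ (by positivity)]
    refine (hmain k hk).trans (le_of_eq ?_)
    field_simp

end Vale.Agent.Lib.P171
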