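import Vale.Agent.Lib.P171.Grid

open MeasureTheory Set Filter Topology Metric
open scoped ENNReal

namespace Vale.Agent.Lib.P171

/-- Radial pair kernel. -/
noncomputable def radK (f : ℝ → ℝ) : E3 → E3 → ℝ := fun x y => f ‖x - y‖

lemma radK_symm (f : ℝ → ℝ) (x y : E3) : radK f x y = radK f y x := by
  simp [radK, norm_sub_rev]

lemma radK_translate (f : ℝ → ℝ) (v x y : E3) : radK f (x + v) (y + v) = radK f x y := by
  simp [radK]

lemma measurable_radK {f : ℝ → ℝ} (hf : Measurable f) : Measurable (Function.uncurry (radK f)) := by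
  unfold radK Function.uncurry
  exact hf.comp (by fun_prop)

/-- Admissible radial potentials. -/
structure Adm (f : ℝ → ℝ) (a b : ℝ) : Prop where
  meas : Measurable f
  attr : ∀ r, 1 ≤ r → f r ≤ 0
  apos : 0 < a
  bnd : ∀ L : ℝ, 1 ≤ L → ∀ (N : ℕ) (x : Fin N → E3), (∀ i, x i ∈ cube L) →
    a * (N : ℝ) ^ 2 / (2 * (3 * L + 1) ^ 3) - b * N ≤ pairE (radK f) x

lemma hasSum_exp_series (x : ℝ) :
    HasSum (fun n : ℕ => x ^ n / (n.factorial : ℝ)) (Real.exp x) := by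
  rw [Real.exp_eq_exp_ℝ]
  exact NormedSpace.expSeries_div_hasSum_exp x

lemma volume_box (B : Set E3) (N : ℕ) :
    (volume : Measure (Fin N → E3)) (Set.pi Set.univ (fun _ : Fin N => B)) = volume B ^ N := by
  rw [volume_pi_pi]
  simp

/-- A constant bound for the Boltzmann factor on the box gives a bound for the integral. -/
lemma zInt_le_of_energy {w : E3 → E3 → ℝ} {L : ℝ} (hL : 0 ≤ L) {N : ℕ} {C : ℝ}
    (h : ∀ x : Fin N → E3, (∀ i, x i ∈ cube L) → -C ≤ pairE w x) :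
    zInt w (cube L) (Fin N) ≤ ENNReal.ofReal ((L ^ 3) ^ N * Real.exp C) := by
  unfold zInt
  have hbox : MeasurableSet (Set.pi Set.univ (fun _ : Fin N => cube L)) :=
    measurableSet_box (measurableSet_cube L)
  calc ∫⁻ x in Set.pi Set.univ (fun _ : Fin N => cube L), ENNReal.ofReal (Real.exp (-pairE w x))
      ≤ ∫⁻ _ in Set.pi Set.univ (fun _ : Fin N => cube L), ENNReal.ofReal (Real.exp C) := by
        refine setLIntegral_mono' hbox fun x hx => ?_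
        refine ENNReal.ofReal_le_ofReal (Real.exp_le_exp.mpr ?_)
        have := h x (fun i => hx i (Set.mem_univ i))
        linarith
    _ = ENNReal.ofReal (Real.exp C) * volume (Set.pi Set.univ (fun _ : Fin N => cube L)) := by
        rw [setLIntegral_const]
    _ = ENNReal.ofReal ((L ^ 3) ^ N * Real.exp C) := by
        rw [volume_box, volume_cube hL, ← ENNReal.ofReal_pow (by positivity),
          ← ENNReal.ofReal_mul (Real.exp_pos _).le, mul_comm]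

lemma Xi_le_exp_of_terms {w : E3 → E3 → ℝ} {L μ : ℝ} (hL : 0 ≤ L) {K : ℝ} (hK : 0 ≤ K)
    (h : ∀ N : ℕ, coef μ N * zInt w (cube L) (Fin N)
      ≤ ENNReal.ofReal (K * ((L ^ 3) ^ N / (N.factorial : ℝ)))) :
    Xi w (cube L) μ ≤ ENNReal.ofReal (K * Real.exp (L ^ 3)) := by
  unfold Xi
  refine (ENNReal.tsum_le_tsum h).trans ?_
  have hs := (hasSum_exp_series (L ^ 3)).mul_left K
  rw [← hs.tsum_eq, ENNReal.ofReal_tsum_of_nonneg (fun n => by positivity) hs.summable]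

lemma coef_zInt_le {w : E3 → E3 → ℝ} {L μ C : ℝ} (hL : 0 ≤ L) {N : ℕ}
    (h : ∀ x : Fin N → E3, (∀ i, x i ∈ cube L) → -C ≤ pairE w x) :
    coef μ N * zInt w (cube L) (Fin N)
      ≤ ENNReal.ofReal (Real.exp (μ * N + C) * ((L ^ 3) ^ N / (N.factorial : ℝ))) := by
  unfold coef
  refine (mul_le_mul_right (zInt_le_of_energy hL h) _).trans ?_
  rw [← ENNReal.ofReal_mul (by positivity)]
  refine ENNReal.ofReal_le_ofReal (le_of_eq ?_)
  rw [Real.exp_add]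
  field_simp

/-- Upper bound for the partition function of an admissible potential. -/
theorem Xi_le_of_adm {f : ℝ → ℝ} {a b : ℝ} (h : Adm f a b) {L : ℝ} (hL : 1 ≤ L) (μ : ℝ) :
    Xi (radK f) (cube L) μ
      ≤ ENNReal.ofReal (Real.exp ((3 * L + 1) ^ 3 * (μ + b) ^ 2 / (2 * a) + L ^ 3)) := by
  have hL0 : 0 ≤ L := by linarith
  have ha := h.apos
  have hM : 0 < (3 * L + 1) ^ 3 := by positivity
  set M : ℝ := (3 * L + 1) ^ 3 with hMdef
  rw [Real.exp_add]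
  refine Xi_le_exp_of_terms hL0 (Real.exp_pos _).le fun N => ?_
  have h1 := coef_zInt_le (w := radK f) (L := L) (μ := μ)
    (C := b * N - a * (N : ℝ) ^ 2 / (2 * M)) hL0 (N := N) (fun x hx => by
      have := h.bnd L hL N x hx
      linarith)
  refine h1.trans (ENNReal.ofReal_le_ofReal ?_)
  refine mul_le_mul_of_nonneg_right (Real.exp_le_exp.mpr ?_) (by positivity)
  have hsq : 0 ≤ a / (2 * M) * ((N : ℝ) - M * (μ + b) / a) ^ 2 := by positivity
  have hexp : a / (2 * M) * ((N : ℝ) - M * (μ + b) / a) ^ 2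
      = a * (N : ℝ) ^ 2 / (2 * M) - (μ + b) * N + M * (μ + b) ^ 2 / (2 * a) := by
    field_simp
    ring
  rw [hexp] at hsq
  linarith

/-- Logarithm of the partition function on the cube. -/
noncomputable def lg (f : ℝ → ℝ) (L μ : ℝ) : ℝ := Real.log (Xi (radK f) (cube L) μ).toReal

lemma Xi_ne_top {f : ℝ → ℝ} {a b : ℝ} (h : Adm f a b) {L : ℝ} (hL : 1 ≤ L) (μ : ℝ) :
    Xi (radK f) (cube L) μ ≠ ∞ :=
  ne_top_of_le_ne_top ENNReal.ofReal_ne_top (Xi_le_of_adm h hL μ)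

lemma one_le_toReal_Xi {f : ℝ → ℝ} {a b : ℝ} (h : Adm f a b) {L : ℝ} (hL : 1 ≤ L) (μ : ℝ) :
    1 ≤ (Xi (radK f) (cube L) μ).toReal := by
  have := ENNReal.toReal_mono (Xi_ne_top h hL μ) (one_le_Xi (radK f) (cube L) μ)
  simpa using this

lemma toReal_Xi_pos {f : ℝ → ℝ} {a b : ℝ} (h : Adm f a b) {L : ℝ} (hL : 1 ≤ L) (μ : ℝ) :
    0 < (Xi (radK f) (cube L) μ).toReal :=
  lt_of_lt_of_le one_pos (one_le_toReal_Xi h hL μ)

lemma lg_nonneg {f : ℝ → ℝ} {a b : ℝ} (h : Adm f a b) {L : ℝ} (hL : 1 ≤ L) (μ : ℝ) :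
    0 ≤ lg f L μ :=
  Real.log_nonneg (one_le_toReal_Xi h hL μ)

lemma ofReal_lg {f : ℝ → ℝ} {a b : ℝ} (h : Adm f a b) {L : ℝ} (hL : 1 ≤ L) (μ : ℝ) :
    Xi (radK f) (cube L) μ = ENNReal.ofReal (Real.exp (lg f L μ)) := by
  unfold lg
  rw [Real.exp_log (toReal_Xi_pos h hL μ), ENNReal.ofReal_toReal (Xi_ne_top h hL μ)]

/-- Upper bound from an inequality on the extended scale. -/
lemma lg_le_of_Xi_le {f : ℝ → ℝ} {a b : ℝ} (h : Adm f a b) {L : ℝ} (hL : 1 ≤ L) {μ C : ℝ}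
    (hC : Xi (radK f) (cube L) μ ≤ ENNReal.ofReal (Real.exp C)) : lg f L μ ≤ C := by
  rw [ofReal_lg h hL μ] at hC
  have := (ENNReal.ofReal_le_ofReal_iff (Real.exp_pos C).le).mp hC
  exact Real.exp_le_exp.mp this

lemma le_lg_of_le_Xi {f : ℝ → ℝ} {a b : ℝ} (h : Adm f a b) {L : ℝ} (hL : 1 ≤ L) {μ C : ℝ}
    (hC : ENNReal.ofReal (Real.exp C) ≤ Xi (radK f) (cube L) μ) : C ≤ lg f L μ := by
  rw [ofReal_lg h hL μ] at hC
  have := (ENNReal.ofReal_le_ofReal_iff (Real.exp_pos _).le).mp hC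
  exact Real.exp_le_exp.mp this

lemma lg_le {f : ℝ → ℝ} {a b : ℝ} (h : Adm f a b) {L : ℝ} (hL : 1 ≤ L) (μ : ℝ) :
    lg f L μ ≤ (3 * L + 1) ^ 3 * (μ + b) ^ 2 / (2 * a) + L ^ 3 :=
  lg_le_of_Xi_le h hL (Xi_le_of_adm h hL μ)

lemma lg_mono_L {f : ℝ → ℝ} {a b : ℝ} (h : Adm f a b) {L L' : ℝ} (hL : 1 ≤ L) (hLL : L ≤ L') (μ : ℝ) :
    lg f L μ ≤ lg f L' μ := by
  have hL' : 1 ≤ L' := hL.trans hLL
  refine lg_le_of_Xi_le h hL ?_
  rw [← ofReal_lg h hL' μ]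
  exact Xi_mono_set _ (cube_mono hLL) μ

lemma lg_mono_mu {f : ℝ → ℝ} {a b : ℝ} (h : Adm f a b) {L : ℝ} (hL : 1 ≤ L) {μ μ' : ℝ} (hμ : μ ≤ μ') :
    lg f L μ ≤ lg f L μ' := by
  refine lg_le_of_Xi_le h hL ?_
  rw [← ofReal_lg h hL μ']
  exact Xi_mono_mu _ _ hμ


/-- Lattice translation moving the block with multi-index `m` back to the origin. -/
noncomputable def blockShift (s : ℝ) {k : ℕ} (m : Fin 3 → Fin k) : E3 :=
  WithLp.toLp 2 (fun j => -(s * ((m j : ℕ) : ℝ)))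

/-- The block with multi-index `m`. -/
def block (L s : ℝ) {k : ℕ} (m : Fin 3 → Fin k) : Set E3 :=
  (fun x => x + blockShift s m) ⁻¹' cube L

lemma mem_block {L s : ℝ} {k : ℕ} {m : Fin 3 → Fin k} {x : E3} :
    x ∈ block L s m ↔ ∀ j, s * ((m j : ℕ) : ℝ) ≤ x j ∧ x j ≤ s * ((m j : ℕ) : ℝ) + L := by
  unfold block cube blockShift
  simp only [Set.mem_preimage, Set.mem_ofPred_eq, Set.mem_Icc, PiLp.add_apply]
  refine forall_congr' fun j => ?_
  constructor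
  · rintro ⟨h1, h2⟩
    constructor <;> linarith
  · rintro ⟨h1, h2⟩
    constructor <;> linarith

lemma block_sep {L : ℝ} {k : ℕ} {m m' : Fin 3 → Fin k} {x y : E3} (hL : 0 ≤ L)
    (hx : x ∈ block L (L + 1) m) (hy : y ∈ block L (L + 1) m') (hne : m ≠ m') : 1 ≤ ‖x - y‖ := by
  obtain ⟨j, hj⟩ := Function.ne_iff.mp hne
  have hx' := mem_block.mp hx j
  have hy' := mem_block.mp hy j
  have hnorm : ‖(x - y) j‖ ≤ ‖x - y‖ := PiLp.norm_apply_le (x - y) j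
  have hcoord : (x - y) j = x j - y j := by simp
  rw [hcoord, Real.norm_eq_abs] at hnorm
  refine le_trans ?_ hnorm
  have hne' : ((m j : ℕ)) ≠ (m' j : ℕ) := fun h => hj (Fin.ext h)
  rcases lt_or_gt_of_ne hne' with h | h
  · have h1 : ((m j : ℕ) : ℝ) + 1 ≤ ((m' j : ℕ) : ℝ) := by exact_mod_cast h
    have h2 : (L + 1) * (((m j : ℕ) : ℝ) + 1) ≤ (L + 1) * ((m' j : ℕ) : ℝ) :=
      mul_le_mul_of_nonneg_left h1 (by linarith)
    have : 1 ≤ y j - x j := by nlinarith [hx'.2, hy'.1]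
    rw [abs_sub_comm]
    exact this.trans (le_abs_self _)
  · have h1 : ((m' j : ℕ) : ℝ) + 1 ≤ ((m j : ℕ) : ℝ) := by exact_mod_cast h
    have h2 : (L + 1) * (((m' j : ℕ) : ℝ) + 1) ≤ (L + 1) * ((m j : ℕ) : ℝ) :=
      mul_le_mul_of_nonneg_left h1 (by linarith)
    have : 1 ≤ x j - y j := by nlinarith [hx'.1, hy'.2]
    exact this.trans (le_abs_self _)

lemma measurableSet_block (L s : ℝ) {k : ℕ} (m : Fin 3 → Fin k) : MeasurableSet (block L s m) :=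
  (measurableSet_cube L).preimage (measurable_id.add_const _)

lemma block_subset_cube {L : ℝ} (hL : 0 ≤ L) {k : ℕ} (m : Fin 3 → Fin k) :
    block L (L + 1) m ⊆ cube ((k : ℝ) * (L + 1)) := by
  intro x hx j
  have hx' := mem_block.mp hx j
  have hm : ((m j : ℕ) : ℝ) + 1 ≤ (k : ℝ) := by
    exact_mod_cast (m j).isLt
  have hm0 : (0 : ℝ) ≤ ((m j : ℕ) : ℝ) := Nat.cast_nonneg _
  have hs : 0 < L + 1 := by linarith
  constructor
  · have : 0 ≤ (L + 1) * ((m j : ℕ) : ℝ) := by positivity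
    linarith [hx'.1]
  · nlinarith [hx'.2]

/-- Superadditivity with corridors of width one. -/
theorem lg_superadd {f : ℝ → ℝ} {a b : ℝ} (h : Adm f a b) {L : ℝ} (hL : 1 ≤ L) {k : ℕ} (hk : 1 ≤ k)
    (μ : ℝ) : (k : ℝ) ^ 3 * lg f L μ ≤ lg f ((k : ℝ) * (L + 1)) μ := by
  have hL0 : 0 ≤ L := by linarith
  have hk' : (1 : ℝ) ≤ (k : ℝ) := by exact_mod_cast hk
  have hL' : 1 ≤ (k : ℝ) * (L + 1) := by nlinarith
  refine le_lg_of_le_Xi h hL' ?_
  have hge := Xi_biUnion_ge (w := radK f) (measurable_radK h.meas) (radK_symm f)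
    (Finset.univ : Finset (Fin 3 → Fin k)) (fun m => block L (L + 1) m)
    (fun m _ => measurableSet_block _ _ m) ?_ μ ?_
  · have hsub : (⋃ m ∈ (Finset.univ : Finset (Fin 3 → Fin k)), block L (L + 1) m)
        ⊆ cube ((k : ℝ) * (L + 1)) :=
      Set.iUnion₂_subset fun m _ => block_subset_cube hL0 m
    refine le_trans ?_ (hge.trans (Xi_mono_set _ hsub μ))
    have hX : ∀ m : Fin 3 → Fin k, Xi (radK f) (block L (L + 1) m) μ = Xi (radK f) (cube L) μ :=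
      fun m => Xi_translate (radK_translate f) _ _ _
    simp only [hX, Finset.prod_const, Finset.card_univ, Fintype.card_pi, Finset.prod_const,
      Fintype.card_fin, Finset.card_univ]
    rw [ofReal_lg h hL μ, ← ENNReal.ofReal_pow (Real.exp_pos _).le, ← Real.exp_nat_mul]
    refine ENNReal.ofReal_le_ofReal (le_of_eq ?_)
    congr 1
    push_cast
    ring_nf
  · intro m _ m' _ hne
    refine Set.disjoint_left.mpr fun x hx hx' => ?_
    have := block_sep hL0 hx hx' hne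
    simp at this
    linarith
  · intro m _ m' _ hne x hx y hy
    exact h.attr _ (block_sep hL0 hx hy hne)

/-- Pressure defined through the superadditive quantity. -/
noncomputable def pr (f : ℝ → ℝ) (μ : ℝ) : ℝ :=
  ⨆ L : Set.Ici (1 : ℝ), lg f (L : ℝ) μ / ((L : ℝ) + 1) ^ 3

/-- Quadratic upper bound for the pressure in the class. -/
noncomputable def Mb (a b μ : ℝ) : ℝ := 27 * (μ + b) ^ 2 / (2 * a) + 1

lemma term_le_Mb {f : ℝ → ℝ} {a b : ℝ} (h : Adm f a b) {L : ℝ} (hL : 1 ≤ L) (μ : ℝ) :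
    lg f L μ / (L + 1) ^ 3 ≤ Mb a b μ := by
  have ha := h.apos
  have hs : 0 < (L + 1) ^ 3 := by positivity
  rw [div_le_iff₀ hs]
  refine (lg_le h hL μ).trans ?_
  unfold Mb
  have h1 : (3 * L + 1) ^ 3 ≤ 27 * (L + 1) ^ 3 := by
    have : (3 * L + 1) ≤ 3 * (L + 1) := by linarith
    calc (3 * L + 1) ^ 3 ≤ (3 * (L + 1)) ^ 3 := pow_le_pow_left₀ (by linarith) this 3
      _ = 27 * (L + 1) ^ 3 := by ring
  have h2 : L ^ 3 ≤ (L + 1) ^ 3 := pow_le_pow_left₀ (by linarith) (by linarith) 3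
  have h3 : 0 ≤ (μ + b) ^ 2 / (2 * a) := by positivity
  have h4 : (3 * L + 1) ^ 3 * (μ + b) ^ 2 / (2 * a) = (3 * L + 1) ^ 3 * ((μ + b) ^ 2 / (2 * a)) := by
    ring
  have h5 : 27 * (μ + b) ^ 2 / (2 * a) = 27 * ((μ + b) ^ 2 / (2 * a)) := by ring
  rw [h4, h5, add_mul, mul_comm (27 * ((μ + b) ^ 2 / (2 * a))) _]
  have := mul_le_mul_of_nonneg_right h1 h3
  nlinarith

lemma bdd_pr {f : ℝ → ℝ} {a b : ℝ} (h : Adm f a b) (μ : ℝ) :
    BddAbove (Set.range fun L : Set.Ici (1 : ℝ) => lg f (L : ℝ) μ / ((L : ℝ) + 1) ^ 3) := by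
  refine ⟨Mb a b μ, ?_⟩
  rintro _ ⟨L, rfl⟩
  exact term_le_Mb h L.2 μ

lemma term_le_pr {f : ℝ → ℝ} {a b : ℝ} (h : Adm f a b) {L : ℝ} (hL : 1 ≤ L) (μ : ℝ) :
    lg f L μ / (L + 1) ^ 3 ≤ pr f μ :=
  le_ciSup (f := fun L : Set.Ici (1 : ℝ) => lg f (L : ℝ) μ / ((L : ℝ) + 1) ^ 3) (bdd_pr h μ)
    ⟨L, hL⟩

lemma lg_le_pr {f : ℝ → ℝ} {a b : ℝ} (h : Adm f a b) {L : ℝ} (hL : 1 ≤ L) (μ : ℝ) :
    lg f L μ ≤ (L + 1) ^ 3 * pr f μ := by
  have hs : 0 < (L + 1) ^ 3 := by positivity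
  have := term_le_pr h hL μ
  rw [div_le_iff₀ hs] at this
  linarith

lemma pr_le_of {f : ℝ → ℝ} {μ C : ℝ} (h : ∀ L : ℝ, 1 ≤ L → lg f L μ ≤ (L + 1) ^ 3 * C) :
    pr f μ ≤ C := by
  have : Nonempty (Set.Ici (1 : ℝ)) := ⟨⟨1, Set.self_mem_Ici⟩⟩
  refine ciSup_le fun L => ?_
  have hL : (1 : ℝ) ≤ L := L.2
  have hs : 0 < ((L : ℝ) + 1) ^ 3 := by positivity
  rw [div_le_iff₀ hs, mul_comm]
  exact h L hL

lemma pr_nonneg {f : ℝ → ℝ} {a b : ℝ} (h : Adm f a b) (μ : ℝ) : 0 ≤ pr f μ := by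
  refine le_trans ?_ (term_le_pr h (le_refl 1) μ)
  have := lg_nonneg h (le_refl 1) μ
  positivity

lemma pr_le_Mb {f : ℝ → ℝ} {a b : ℝ} (h : Adm f a b) (μ : ℝ) : pr f μ ≤ Mb a b μ := by
  have : Nonempty (Set.Ici (1 : ℝ)) := ⟨⟨1, Set.self_mem_Ici⟩⟩
  exact ciSup_le fun L => term_le_Mb h L.2 μ

lemma tendsto_one_div_atTop : Tendsto (fun L : ℝ => 1 / L) atTop (𝓝 0) := by
  have : (fun L : ℝ => 1 / L) = fun L => L⁻¹ := by
    funext L
    simp
  rw [this]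
  exact tendsto_inv_atTop_zero

/-- The thermodynamic limit along cubes. -/
theorem tendsto_lg {f : ℝ → ℝ} {a b : ℝ} (h : Adm f a b) (μ : ℝ) :
    Tendsto (fun L : ℝ => lg f L μ / L ^ 3) atTop (𝓝 (pr f μ)) := by
  refine tendsto_order.2 ⟨fun b' hb' => ?_, fun b' hb' => ?_⟩
  · have : Nonempty (Set.Ici (1 : ℝ)) := ⟨⟨1, Set.self_mem_Ici⟩⟩
    obtain ⟨L₀, hL₀⟩ := exists_lt_of_lt_ciSup hb'
    have hL₀1 : (1 : ℝ) ≤ L₀ := L₀.2
    set s : ℝ := (L₀ : ℝ) + 1 with hs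
    have hspos : 0 < s := by rw [hs]; linarith
    set ℓ : ℝ := lg f (L₀ : ℝ) μ with hℓ
    have hℓ0 : 0 ≤ ℓ := lg_nonneg h hL₀1 μ
    have hlim : Tendsto (fun L : ℝ => (1 / s - 1 / L) ^ 3 * ℓ) atTop (𝓝 ((1 / s - 0) ^ 3 * ℓ)) := by
      refine Tendsto.mul_const _ (Tendsto.pow (Tendsto.sub tendsto_const_nhds ?_) 3)
      exact tendsto_one_div_atTop
    have hgt : b' < (1 / s - 0) ^ 3 * ℓ := by
      have : (1 / s - 0) ^ 3 * ℓ = ℓ / s ^ 3 := by
        field_simp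
        ring
      rw [this]
      exact hL₀
    filter_upwards [hlim.eventually (lt_mem_nhds hgt), eventually_ge_atTop s] with L hL1 hL2
    refine lt_of_lt_of_le hL1 ?_
    have hLpos : 0 < L := lt_of_lt_of_le hspos hL2
    set k : ℕ := ⌊L / s⌋₊ with hk
    have hk1 : 1 ≤ k := by
      rw [hk]
      refine Nat.le_floor ?_
      rw [Nat.cast_one, le_div_iff₀ hspos]
      linarith
    have hkle : (k : ℝ) ≤ L / s := Nat.floor_le (by positivity)
    have hklt : L / s < (k : ℝ) + 1 := Nat.lt_floor_add_one _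
    have hks : (k : ℝ) * s ≤ L := by
      rw [le_div_iff₀ hspos] at hkle
      exact hkle
    have h1 := lg_superadd h hL₀1 hk1 μ
    have hkcast : (1 : ℝ) ≤ (k : ℝ) := by exact_mod_cast hk1
    have h2 : lg f ((k : ℝ) * s) μ ≤ lg f L μ :=
      lg_mono_L h (by rw [hs]; nlinarith) hks μ
    have h3 : (k : ℝ) ^ 3 * ℓ ≤ lg f L μ := h1.trans h2
    rw [le_div_iff₀ (by positivity)]
    refine le_trans ?_ h3
    have h4 : (1 / s - 1 / L) * L ≤ (k : ℝ) := by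
      have : (1 / s - 1 / L) * L = L / s - 1 := by
        field_simp
      rw [this]
      linarith
    have h5 : 0 ≤ (1 / s - 1 / L) := by
      rw [sub_nonneg]
      exact one_div_le_one_div_of_le hspos hL2
    have h6 : ((1 / s - 1 / L) * L) ^ 3 ≤ (k : ℝ) ^ 3 :=
      pow_le_pow_left₀ (by positivity) h4 3
    calc (1 / s - 1 / L) ^ 3 * ℓ * L ^ 3 = ((1 / s - 1 / L) * L) ^ 3 * ℓ := by ring
      _ ≤ (k : ℝ) ^ 3 * ℓ := mul_le_mul_of_nonneg_right h6 hℓ0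
  · have hlim : Tendsto (fun L : ℝ => (1 + 1 / L) ^ 3 * pr f μ) atTop (𝓝 ((1 + 0) ^ 3 * pr f μ)) := by
      refine Tendsto.mul_const _ (Tendsto.pow (Tendsto.add tendsto_const_nhds ?_) 3)
      exact tendsto_one_div_atTop
    have hlt : (1 + 0) ^ 3 * pr f μ < b' := by simpa using hb'
    filter_upwards [hlim.eventually (gt_mem_nhds hlt), eventually_ge_atTop (1 : ℝ)] with L hL1 hL2
    refine lt_of_le_of_lt ?_ hL1
    have hLpos : 0 < L := by linarith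
    rw [div_le_iff₀ (by positivity)]
    refine (lg_le_pr h hL2 μ).trans (le_of_eq ?_)
    field_simp


/-- Affine combination of radial potentials. -/
def mixF (θ : ℝ) (f₀ f₁ : ℝ → ℝ) : ℝ → ℝ := fun r => (1 - θ) * f₀ r + θ * f₁ r

lemma radK_mixF (θ : ℝ) (f₀ f₁ : ℝ → ℝ) : radK (mixF θ f₀ f₁) = kerMix θ (radK f₀) (radK f₁) := rfl

lemma mixF_self (θ : ℝ) (f : ℝ → ℝ) : mixF θ f f = f := by
  funext r
  simp only [mixF]
  ring

lemma Adm.mix {f₀ f₁ : ℝ → ℝ} {a₀ a₁ b₀ b₁ θ : ℝ} (h₀ : Adm f₀ a₀ b₀) (h₁ : Adm f₁ a₁ b₁)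
    (h0 : 0 ≤ θ) (h1 : θ ≤ 1) :
    Adm (mixF θ f₀ f₁) ((1 - θ) * a₀ + θ * a₁) ((1 - θ) * b₀ + θ * b₁) := by
  have h1' : 0 ≤ 1 - θ := by linarith
  refine ⟨(h₀.meas.const_mul _).add (h₁.meas.const_mul _), fun r hr => ?_, ?_, ?_⟩
  · have h2 := h₀.attr r hr
    have h3 := h₁.attr r hr
    simp only [mixF]
    nlinarith [mul_nonneg h1' (neg_nonneg.mpr h2), mul_nonneg h0 (neg_nonneg.mpr h3)]
  · have h2 := h₀.apos
    have h3 := h₁.apos
    rcases h0.eq_or_lt with h | h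
    · rw [← h]
      simpa using h2
    · have := mul_pos h h3
      have := mul_nonneg h1' h2.le
      linarith
  · intro L hL N x hx
    rw [radK_mixF, pairE_kerMix]
    have h2 := h₀.bnd L hL N x hx
    have h3 := h₁.bnd L hL N x hx
    calc ((1 - θ) * a₀ + θ * a₁) * (N : ℝ) ^ 2 / (2 * (3 * L + 1) ^ 3) - ((1 - θ) * b₀ + θ * b₁) * N
        = (1 - θ) * (a₀ * (N : ℝ) ^ 2 / (2 * (3 * L + 1) ^ 3) - b₀ * N)
          + θ * (a₁ * (N : ℝ) ^ 2 / (2 * (3 * L + 1) ^ 3) - b₁ * N) := by ring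
      _ ≤ _ := add_le_add (mul_le_mul_of_nonneg_left h2 h1') (mul_le_mul_of_nonneg_left h3 h0)

lemma lg_mix {f₀ f₁ : ℝ → ℝ} {a₀ a₁ b₀ b₁ θ : ℝ} (h₀ : Adm f₀ a₀ b₀) (h₁ : Adm f₁ a₁ b₁)
    (h0 : 0 < θ) (h1 : θ < 1) {L : ℝ} (hL : 1 ≤ L) (μ₀ μ₁ : ℝ) :
    lg (mixF θ f₀ f₁) L ((1 - θ) * μ₀ + θ * μ₁) ≤ (1 - θ) * lg f₀ L μ₀ + θ * lg f₁ L μ₁ := by
  have hm := Adm.mix h₀ h₁ h0.le h1.le
  refine lg_le_of_Xi_le hm hL ?_
  rw [radK_mixF]
  refine (Xi_interp (measurable_radK h₀.meas) (measurable_radK h₁.meas) h0 h1 _ μ₀ μ₁).trans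
    (le_of_eq ?_)
  rw [ofReal_lg h₀ hL, ofReal_lg h₁ hL, ofReal_exp_interp _ _ _ h1]

/-- Joint convexity of the pressure in the potential and the log-activity. -/
theorem pr_mix {f₀ f₁ : ℝ → ℝ} {a₀ a₁ b₀ b₁ θ : ℝ} (h₀ : Adm f₀ a₀ b₀) (h₁ : Adm f₁ a₁ b₁)
    (h0 : 0 < θ) (h1 : θ < 1) (μ₀ μ₁ : ℝ) :
    pr (mixF θ f₀ f₁) ((1 - θ) * μ₀ + θ * μ₁) ≤ (1 - θ) * pr f₀ μ₀ + θ * pr f₁ μ₁ := by
  refine pr_le_of fun L hL => ?_
  have h1' : 0 ≤ 1 - θ := by linarith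
  refine (lg_mix h₀ h₁ h0 h1 hL μ₀ μ₁).trans ?_
  have h2 := mul_le_mul_of_nonneg_left (lg_le_pr h₀ hL μ₀) h1'
  have h3 := mul_le_mul_of_nonneg_left (lg_le_pr h₁ hL μ₁) h0.le
  nlinarith

lemma pr_convex {f : ℝ → ℝ} {a b : ℝ} (h : Adm f a b) : ConvexOn ℝ Set.univ (pr f) := by
  refine ⟨convex_univ, fun x _ y _ s t hs ht hst => ?_⟩
  rcases ht.eq_or_lt with ht0 | ht0
  · subst ht0
    have : s = 1 := by linarith
    subst this
    simp
  rcases hs.eq_or_lt with hs0 | hs0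
  · subst hs0
    have : t = 1 := by linarith
    subst this
    simp
  have hs' : s = 1 - t := by linarith
  subst hs'
  have := pr_mix h h ht0 (by linarith) x y
  rw [mixF_self] at this
  simpa [smul_eq_mul] using this

lemma pr_mono {f : ℝ → ℝ} {a b : ℝ} (h : Adm f a b) : Monotone (pr f) := by
  intro μ μ' hμ
  refine pr_le_of fun L hL => ?_
  exact (lg_mono_mu h hL hμ).trans (lg_le_pr h hL μ')

lemma pr_continuous {f : ℝ → ℝ} {a b : ℝ} (h : Adm f a b) : Continuous (pr f) := by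
  have := (pr_convex h).continuousOn isOpen_univ
  exact continuousOn_univ.mp this

/-- Pressure is monotone under adding attraction. -/
lemma pr_anti {f f' : ℝ → ℝ} {a b a' b' : ℝ} (h : Adm f a b) (h' : Adm f' a' b')
    (hle : ∀ r, f' r ≤ f r) (μ : ℝ) : pr f μ ≤ pr f' μ := by
  refine pr_le_of fun L hL => ?_
  refine le_trans ?_ (lg_le_pr h' hL μ)
  refine lg_le_of_Xi_le h hL ?_
  rw [← ofReal_lg h' hL μ]
  exact Xi_mono_kernel (measurableSet_cube L) (fun x _ y _ => hle _) μ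

/-- Ruelle type bound from stability. -/
lemma pr_le_exp {f : ℝ → ℝ} {a b B : ℝ} (h : Adm f a b)
    (hB : ∀ (N : ℕ) (x : Fin N → E3), -(B * N) ≤ pairE (radK f) x) (μ : ℝ) :
    pr f μ ≤ Real.exp (μ + B) := by
  refine pr_le_of fun L hL => ?_
  have hL0 : 0 ≤ L := by linarith
  have hXi : Xi (radK f) (cube L) μ ≤ ENNReal.ofReal (Real.exp (L ^ 3 * Real.exp (μ + B))) := by
    have hs := hasSum_exp_series (L ^ 3 * Real.exp (μ + B))
    rw [← hs.tsum_eq, ENNReal.ofReal_tsum_of_nonneg (fun n => by positivity) hs.summable]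
    refine ENNReal.tsum_le_tsum fun N => ?_
    refine (coef_zInt_le (w := radK f) (L := L) (μ := μ) (C := B * N) hL0 (N := N)
      fun x _ => hB N x).trans (ENNReal.ofReal_le_ofReal (le_of_eq ?_))
    rw [mul_pow, ← Real.exp_nat_mul]
    have : μ * (N : ℝ) + B * N = (N : ℝ) * (μ + B) := by ring
    rw [this]
    ring
  refine (lg_le_of_Xi_le h hL hXi).trans ?_
  have h2 : L ^ 3 ≤ (L + 1) ^ 3 := pow_le_pow_left₀ hL0 (by linarith) 3
  exact mul_le_mul_of_nonneg_right h2 (Real.exp_pos _).le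

/-- The one particle term gives a lower bound for the pressure. -/
lemma pr_ge_one_particle {f : ℝ → ℝ} {a b : ℝ} (h : Adm f a b) (μ : ℝ) :
    Real.log (1 + Real.exp μ) / 8 ≤ pr f μ := by
  have h1 := term_le_pr h (le_refl (1 : ℝ)) μ
  refine le_trans (le_of_eq_of_le ?_ (div_le_div_of_nonneg_right
    (le_lg_of_le_Xi h (le_refl 1) (C := Real.log (1 + Real.exp μ)) ?_) (by positivity))) h1
  · norm_num
  · rw [Real.exp_log (by positivity)]
    unfold Xi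
    refine le_trans ?_ (ENNReal.sum_le_tsum (Finset.range 2))
    rw [Finset.sum_range_succ, Finset.sum_range_succ, Finset.sum_range_zero, zero_add, coef_zero,
      zInt_zero, one_mul]
    have hz : zInt (radK f) (cube 1) (Fin 1) = 1 := by
      unfold zInt
      have hE : ∀ x : Fin 1 → E3, pairE (radK f) x = 0 := by
        intro x
        unfold pairE
        simp
      simp only [hE, neg_zero, Real.exp_zero, ENNReal.ofReal_one]
      rw [setLIntegral_const, volume_box, volume_cube (by norm_num)]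
      simp
    rw [hz, mul_one, ENNReal.ofReal_add (by norm_num) (Real.exp_pos _).le]
    unfold coef
    simp

end Vale.Agent.Lib.P171
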